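import Vale.Agent.OT.Core

open MeasureTheory
open scoped ENNReal NNReal RealInnerProductSpace

namespace Vale.Agent.OT

variable {d : ℕ}

lemma hyperplane_null {v : E d} (hv : v ≠ 0) (c : ℝ) :
    volume {x : E d | ⟪x, v⟫ = c} = 0 := by
  by_cases h : ({x : E d | ⟪x, v⟫ = c}).Nonempty
  · obtain ⟨x0, hx0⟩ := h
    have hx0' : ⟪x0, v⟫ = c := hx0
    set H : Submodule ℝ (E d) := (ℝ ∙ v)ᗮ with hH
    have hmem : ∀ x, x ∈ H ↔ ⟪v, x⟫ = 0 := fun x => by
      rw [hH, Submodule.mem_orthogonal_singleton_iff_inner_right]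
    have hne : H ≠ ⊤ := by
      intro ht
      have : v ∈ H := by rw [ht]; trivial
      rw [hmem] at this
      exact hv (inner_self_eq_zero.1 this)
    have h0 : volume (H : Set (E d)) = 0 := Measure.addHaar_submodule _ H hne
    have heq : {x : E d | ⟪x, v⟫ = c} = (fun x => x - x0) ⁻¹' (H : Set (E d)) := by
      ext x
      simp only [Set.mem_ofPred_eq, Set.mem_preimage, SetLike.mem_coe, hmem]
      rw [inner_sub_right, real_inner_comm x v, real_inner_comm x0 v, hx0']
      constructor
      · intro h; rw [h]; ring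
      · intro h; linarith
    rw [heq, (measurePreserving_sub_right volume x0).measure_preimage
      (Submodule.closed_of_finiteDimensional H).measurableSet.nullMeasurableSet]
    exact h0
  · rw [Set.not_nonempty_iff_eq_empty] at h
    rw [h]; simp

variable {N : ℕ} {K : Set (E d)} {y : Fin N → E d} {ψ : Fin N → ℝ}

lemma cell_subset (i : Fin N) : cell K y ψ i ⊆ K := fun _ hx => hx.1

lemma cell_isClosed (hK : IsClosed K) (i : Fin N) : IsClosed (cell K y ψ i) := by
  have : cell K y ψ i = K ∩ ⋂ j, {x | ⟪x, y j⟫ - ψ j ≤ ⟪x, y i⟫ - ψ i} := by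
    ext x
    simp [cell]
  rw [this]
  refine hK.inter (isClosed_iInter fun j => ?_)
  exact isClosed_le (by fun_prop) (by fun_prop)

lemma cell_measurable (hK : IsClosed K) (i : Fin N) : MeasurableSet (cell K y ψ i) :=
  (cell_isClosed hK i).measurableSet

lemma cell_cover [Nonempty (Fin N)] {x : E d} (hx : x ∈ K) : ∃ i, x ∈ cell K y ψ i := by
  obtain ⟨i, hi⟩ := Finite.exists_max (fun j => ⟪x, y j⟫ - ψ j)
  exact ⟨i, hx, hi⟩

lemma iUnion_cell [Nonempty (Fin N)] : ⋃ i, cell K y ψ i = K := by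
  ext x
  simp only [Set.mem_iUnion]
  constructor
  · rintro ⟨i, hi⟩; exact hi.1
  · intro hx; exact cell_cover hx

lemma cell_aedisjoint (hy : Function.Injective y) {i j : Fin N} (hij : i ≠ j) :
    AEDisjoint volume (cell K y ψ i) (cell K y ψ j) := by
  have hv : y i - y j ≠ 0 := sub_ne_zero.2 (hy.ne hij)
  refine measure_mono_null ?_ (hyperplane_null hv (ψ i - ψ j))
  rintro x ⟨h1, h2⟩
  have a := h1.2 j
  have b := h2.2 i
  simp only [Set.mem_ofPred_eq]
  rw [inner_sub_right]
  linarith

lemma cell_mid {ψ' : Fin N → ℝ} (hKc : Convex ℝ K) {i : Fin N} {x x' : E d}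
    (hx : x ∈ cell K y ψ i) (hx' : x' ∈ cell K y ψ' i) :
    (1 / 2 : ℝ) • (x + x') ∈ cell K y (fun j => (ψ j + ψ' j) / 2) i := by
  refine ⟨?_, fun j => ?_⟩
  · rw [smul_add]
    exact hKc hx.1 hx'.1 (by norm_num) (by norm_num) (by norm_num)
  · have h1 := hx.2 j
    have h2 := hx'.2 j
    rw [inner_smul_left, inner_smul_left, inner_add_left, inner_add_left]
    simp only [conj_trivial]
    linarith

lemma integral_cells {F : Type*} [NormedAddCommGroup F] [NormedSpace ℝ F] [Nonempty (Fin N)]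
    (hK : IsClosed K) (hy : Function.Injective y) {f : E d → F} (hf : IntegrableOn f K) :
    ∫ x in K, f x = ∑ i, ∫ x in cell K y ψ i, f x := by
  have h := integral_iUnion_ae (μ := volume) (s := fun i => cell K y ψ i) (f := f)
    (fun i => (cell_measurable hK i).nullMeasurableSet)
    (fun i j hij => cell_aedisjoint hy hij) (by rw [iUnion_cell]; exact hf)
  rw [iUnion_cell] at h
  rw [h, tsum_fintype]

end Vale.Agent.OT
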