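import Vale.Agent.OT.Single2
import Vale.Agent.OT.CellFacts

open MeasureTheory
open scoped ENNReal NNReal RealInnerProductSpace

namespace Vale.Agent.OT

variable {d : ℕ}

/-- Stability of the barycentres of the cells under a small change of the density. -/
theorem key_stability {K : Set (E d)} (hK : IsCompact K) (hKc : Convex ℝ K) {R : ℝ}
    (hR : 1 ≤ R) (hKR : K ⊆ Metric.closedBall 0 R) {N : ℕ} {g : E d → ℝ} (hg : Measurable g)
    (hg1 : ∀ x ∈ K, |g x - 1| ≤ 1 / 8) {y : Fin N → E d} (hy : Function.Injective y)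
    {m : Fin N → ℝ} (hm : ∀ i, 0 < m i) {ψ ψ' : Fin N → ℝ}
    (hA : ∀ i, volume.real (cell K y ψ i) = m i)
    (hB : ∀ i, ∫ x in cell K y ψ' i, g x = m i) :
    ∑ i, ‖(∫ x in cell K y ψ i, x) - ∫ x in cell K y ψ' i, g x • x‖ ^ 2 / m i ≤
      672 * R ^ 4 * ∫ x in K, (g x - 1) ^ 2 := by
  have hR0 : 0 < R := by linarith
  have hR2 : 0 < R ^ 2 := by positivity
  have hV0 : 0 ≤ ∫ x in K, (g x - 1) ^ 2 :=
    setIntegral_nonneg hK.measurableSet fun x _ => sq_nonneg _
  rcases isEmpty_or_nonempty (Fin N) with hN | hN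
  · rw [Finset.univ_eq_empty, Finset.sum_empty]; positivity
  have hKm := hK.measurableSet
  have hKcl := hK.isClosed
  have iζ : IntegrableOn (zeta R : E d → ℝ) K := int_zeta hKm hKR R
  have iV : IntegrableOn (fun x => (g x - 1) ^ 2) K :=
    integrableOn_of_bdd hKm hKR (by fun_prop) (C := 1) fun x hx => by
      rw [Real.norm_eq_abs, abs_of_nonneg (by positivity)]
      have := hg1 x hx
      rw [← sq_abs]
      nlinarith [abs_nonneg (g x - 1)]
  have key : ∀ i, 1 / 2 * ((∫ x in cell K y ψ i, zeta R x) + ∫ x in cell K y ψ' i, zeta R x) +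
      ‖(∫ x in cell K y ψ i, x) - ∫ x in cell K y ψ' i, g x • x‖ ^ 2 / m i / (28 * R ^ 2) ≤
      (∫ x in cell K y (fun j => (ψ j + ψ' j) / 2) i, zeta R x) +
        24 * R ^ 2 * ∫ x in cell K y ψ' i, (g x - 1) ^ 2 := fun i =>
    single_cell (cell_measurable hKcl i) (cell_measurable hKcl i) (cell_measurable hKcl i) hR
      ((cell_subset i).trans hKR) ((cell_subset i).trans hKR) ((cell_subset i).trans hKR)
      (fun x hx y hy => cell_mid hKc hx hy) hg (fun x hx => hg1 x hx.1) (hm i) (hA i) (hB i)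
  have hsum := Finset.sum_le_sum fun i (_ : i ∈ Finset.univ) => key i
  rw [Finset.sum_add_distrib, Finset.sum_add_distrib, ← Finset.mul_sum, Finset.sum_add_distrib,
    ← Finset.sum_div, ← Finset.mul_sum, ← integral_cells hKcl hy iζ, ← integral_cells hKcl hy iζ,
    ← integral_cells hKcl hy iζ, ← integral_cells hKcl hy iV] at hsum
  set S := ∑ i, ‖(∫ x in cell K y ψ i, x) - ∫ x in cell K y ψ' i, g x • x‖ ^ 2 / m i with hS
  have h1 : S / (28 * R ^ 2) ≤ 24 * R ^ 2 * ∫ x in K, (g x - 1) ^ 2 := by linarith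
  rw [div_le_iff₀ (by positivity)] at h1
  calc S ≤ _ := h1
    _ = 672 * R ^ 4 * ∫ x in K, (g x - 1) ^ 2 := by ring

end Vale.Agent.OT
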