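import Vale.Agent.OT.Core

/-!
Existence of weights for semi-discrete optimal transport.
-/

open MeasureTheory Set Filter
open scoped ENNReal NNReal RealInnerProductSpace Topology

namespace Vale.Agent.OT

variable {d : ℕ}

theorem hyperplane_null_aux {a : E d} (ha : a ≠ 0) (c : ℝ) :
    volume {x : E d | (⟪x, a⟫ : ℝ) = c} = 0 := by
  by_cases hne : ∃ x0 : E d, (⟪x0, a⟫ : ℝ) = c
  · obtain ⟨x0, hx0⟩ := hne
    let ℓ : E d →ₗ[ℝ] ℝ := (innerₗ (E d)).flip a
    have hℓ : ∀ x, ℓ x = (⟪x, a⟫ : ℝ) := fun x => rfl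
    let s : AffineSubspace ℝ (E d) := AffineSubspace.mk' x0 (LinearMap.ker ℓ)
    have hs : s ≠ ⊤ := by
      intro h
      have h1 : (a + x0) ∈ s := by rw [h]; trivial
      rw [AffineSubspace.mem_mk', vsub_eq_sub, add_sub_cancel_right, LinearMap.mem_ker, hℓ,
        real_inner_self_eq_norm_sq] at h1
      exact ha (norm_eq_zero.1 (pow_eq_zero_iff (two_ne_zero) |>.1 h1))
    have h2 : {x : E d | (⟪x, a⟫ : ℝ) = c} = (s : Set (E d)) := by
      ext x
      rw [SetLike.mem_coe, AffineSubspace.mem_mk', vsub_eq_sub, LinearMap.mem_ker, hℓ,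
        inner_sub_left, hx0, sub_eq_zero]
      rfl
    rw [h2]
    exact Measure.addHaar_affineSubspace volume s hs
  · have : {x : E d | (⟪x, a⟫ : ℝ) = c} = ∅ := by
      ext x
      simp only [mem_ofPred_eq, mem_empty_iff_false, iff_false]
      exact fun h => hne ⟨x, h⟩
    rw [this]; simp

/-- The maximum of the affine functions `⟪x, y i⟫ - ψ i`. -/
noncomputable def umax {N : ℕ} (y : Fin N → E d) (ψ : Fin N → ℝ) (x : E d) : ℝ :=
  ⨆ i, ((⟪x, y i⟫ : ℝ) - ψ i)

theorem le_umax {N : ℕ} (y : Fin N → E d) (ψ : Fin N → ℝ) (x : E d) (i : Fin N) :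
    (⟪x, y i⟫ : ℝ) - ψ i ≤ umax y ψ x :=
  le_ciSup (f := fun i => (⟪x, y i⟫ : ℝ) - ψ i) (Set.finite_range _).bddAbove i

theorem umax_le {N : ℕ} (hN : 0 < N) (y : Fin N → E d) (ψ : Fin N → ℝ) (x : E d) {c : ℝ}
    (h : ∀ i, (⟪x, y i⟫ : ℝ) - ψ i ≤ c) : umax y ψ x ≤ c :=
  haveI : Nonempty (Fin N) := ⟨⟨0, hN⟩⟩
  ciSup_le h

theorem umax_lip {N : ℕ} (hN : 0 < N) (y : Fin N → E d) (ψ φ : Fin N → ℝ) (x : E d) :
    umax y ψ x ≤ umax y φ x + dist ψ φ := by
  apply umax_le hN
  intro i
  have h1 := le_umax y φ x i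
  have h2 : φ i - ψ i ≤ dist ψ φ := by
    have := dist_le_pi_dist ψ φ i
    rw [Real.dist_eq, abs_le] at this
    linarith
  linarith

theorem measurable_umax {N : ℕ} (y : Fin N → E d) (ψ : Fin N → ℝ) : Measurable (umax y ψ) := by
  unfold umax
  exact Measurable.iSup fun i => (measurable_id.inner measurable_const).sub_const _

theorem measurableSet_cell {N : ℕ} {K : Set (E d)} (hK : MeasurableSet K) (y : Fin N → E d)
    (ψ : Fin N → ℝ) (i : Fin N) : MeasurableSet (cell K y ψ i) := by
  have : cell K y ψ i = K ∩ ⋂ j, {x | (⟪x, y j⟫ : ℝ) - ψ j ≤ ⟪x, y i⟫ - ψ i} := by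
    ext x; simp [cell]
  rw [this]
  refine hK.inter (MeasurableSet.iInter fun j => measurableSet_le ?_ ?_)
  · exact (measurable_id.inner measurable_const).sub_const _
  · exact (measurable_id.inner measurable_const).sub_const _

/-- **Existence of weights** for semi-discrete optimal transport. -/
theorem exists_weights {N : ℕ} (_hd : 1 ≤ d) (hN : 0 < N) {K : Set (E d)} (hK : IsCompact K)
    {g : E d → ℝ} (hg : Measurable g) {C : ℝ} (hg0 : ∀ x, 0 ≤ g x) (hgC : ∀ x, g x ≤ C)
    {y : Fin N → E d} (hy : Function.Injective y) {m : Fin N → ℝ} (hm : ∀ i, 0 < m i)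
    (hsum : ∑ i, m i = ∫ x in K, g x) :
    ∃ ψ : Fin N → ℝ, ∀ i, ∫ x in cell K y ψ i, g x = m i := by
  have hne : Nonempty (Fin N) := ⟨⟨0, hN⟩⟩
  have hKm := hK.measurableSet
  -- integrability of `g`
  have hgi : IntegrableOn g K := by
    refine IntegrableOn.of_bound hK.measure_lt_top hg.aestronglyMeasurable C ?_
    refine Eventually.of_forall fun x => ?_
    rw [Real.norm_eq_abs, abs_of_nonneg (hg0 x)]; exact hgC x
  -- bound on inner products
  obtain ⟨B, hB⟩ : ∃ B : ℝ, ∀ x ∈ K, ∀ i, |(⟪x, y i⟫ : ℝ)| ≤ B := by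
    obtain ⟨R, hR⟩ := hK.isBounded.exists_norm_le
    refine ⟨∑ i, |R| * ‖y i‖, fun x hx i => ?_⟩
    calc |(⟪x, y i⟫ : ℝ)| ≤ ‖x‖ * ‖y i‖ := abs_real_inner_le_norm _ _
      _ ≤ |R| * ‖y i‖ := by gcongr; exact le_trans (hR x hx) (le_abs_self R)
      _ ≤ ∑ i, |R| * ‖y i‖ :=
          Finset.single_le_sum (f := fun i => |R| * ‖y i‖) (fun i _ => by positivity)
            (Finset.mem_univ i)
  have hubd : ∀ ψ : Fin N → ℝ, ∀ x ∈ K, |umax y ψ x| ≤ B + dist ψ 0 := by
    intro ψ x hx
    rw [abs_le]
    constructor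
    · obtain ⟨i⟩ := hne
      have h1 := le_umax y ψ x i
      have h2 := (abs_le.1 (hB x hx i)).1
      have h3 := dist_le_pi_dist ψ 0 i
      rw [Real.dist_eq, Pi.zero_apply, sub_zero] at h3
      have := (abs_le.1 h3).2
      linarith
    · apply umax_le hN
      intro i
      have h2 := (abs_le.1 (hB x hx i)).2
      have h3 := dist_le_pi_dist ψ 0 i
      rw [Real.dist_eq, Pi.zero_apply, sub_zero] at h3
      have := (abs_le.1 h3).1
      linarith
  have hui : ∀ ψ : Fin N → ℝ, IntegrableOn (fun x => umax y ψ x * g x) K := by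
    intro ψ
    refine IntegrableOn.of_bound hK.measure_lt_top
      ((measurable_umax y ψ).mul hg).aestronglyMeasurable ((B + dist ψ 0) * C) ?_
    rw [ae_restrict_iff' hKm]
    refine Eventually.of_forall fun x hx => ?_
    rw [Real.norm_eq_abs, abs_mul, abs_of_nonneg (hg0 x)]
    exact mul_le_mul (hubd ψ x hx) (hgC x) (hg0 x) (le_trans (abs_nonneg _) (hubd ψ x hx))
  set G : (Fin N → ℝ) → ℝ := fun ψ => (∫ x in K, umax y ψ x * g x) + ∑ i, m i * ψ i with hG
  set Sg := ∫ x in K, g x with hSg
  have hSg0 : 0 ≤ Sg := setIntegral_nonneg hKm fun x _ => hg0 x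
  -- Lipschitz estimate
  have hlip1 : ∀ ψ φ : Fin N → ℝ, G ψ ≤ G φ + 2 * Sg * dist ψ φ := by
    intro ψ φ
    have h1 : ∫ x in K, umax y ψ x * g x ≤ ∫ x in K, (umax y φ x * g x + dist ψ φ * g x) := by
      apply setIntegral_mono_on (hui ψ) ((hui φ).add (hgi.const_mul _)) hKm
      intro x _
      show umax y ψ x * g x ≤ umax y φ x * g x + dist ψ φ * g x
      have := umax_lip hN y ψ φ x
      nlinarith [hg0 x]
    rw [integral_add (hui φ) (hgi.const_mul _), integral_const_mul] at h1
    have h2 : ∑ i, m i * ψ i ≤ ∑ i, m i * φ i + Sg * dist ψ φ := by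
      rw [← hsum, Finset.sum_mul, ← Finset.sum_add_distrib]
      apply Finset.sum_le_sum
      intro i _
      have := dist_le_pi_dist ψ φ i
      rw [Real.dist_eq, abs_le] at this
      nlinarith [hm i]
    simp only [hG]
    linarith
  have hcont : Continuous G := by
    have : LipschitzWith (Real.toNNReal (2 * Sg)) G := by
      apply LipschitzWith.of_le_add_mul
      intro ψ φ
      rw [Real.coe_toNNReal _ (by positivity)]
      exact hlip1 ψ φ
    exact this.continuous
  -- the box
  obtain ⟨i0, -, hi0⟩ := Finset.exists_min_image Finset.univ m ⟨⟨0, hN⟩, Finset.mem_univ _⟩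
  have hmin0 := hm i0
  have hB0 : 0 ≤ B ∨ ¬ (K.Nonempty) := by
    by_cases hKn : K.Nonempty
    · left
      obtain ⟨x, hx⟩ := hKn
      exact le_trans (abs_nonneg _) (hB x hx i0)
    · exact Or.inr hKn
  set L : ℝ := (2 * |B| * Sg) / m i0 + 1 with hL
  have hL0 : 0 < L := by positivity
  have hboxc : IsCompact (Set.Icc (0 : Fin N → ℝ) (fun _ => L)) := isCompact_Icc
  obtain ⟨ψ, hψbox, hψmin⟩ := hboxc.exists_isMinOn
    ⟨0, by simp only [Set.mem_Icc, le_refl, true_and]; intro i; exact hL0.le⟩
    hcont.continuousOn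
  have hG0 : G 0 ≤ |B| * Sg := by
    have h1 : ∫ x in K, umax y 0 x * g x ≤ ∫ x in K, |B| * g x := by
      apply setIntegral_mono_on (hui 0) (hgi.const_mul _) hKm
      intro x hx
      refine mul_le_mul_of_nonneg_right ?_ (hg0 x)
      apply umax_le hN
      intro i
      have := (abs_le.1 (hB x hx i)).2
      simp only [Pi.zero_apply, sub_zero]
      exact le_trans this (le_abs_self B)
    rw [integral_const_mul] at h1
    simp only [hG, Pi.zero_apply, mul_zero, Finset.sum_const_zero, add_zero]
    exact h1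
  -- invariance under constants
  have hinv : ∀ (φ : Fin N → ℝ) (c : ℝ), G (fun i => φ i + c) = G φ := by
    intro φ c
    have hu : ∀ x, umax y (fun i => φ i + c) x = umax y φ x - c := by
      intro x
      apply le_antisymm
      · apply umax_le hN
        intro i
        have := le_umax y φ x i
        linarith
      · rw [sub_le_iff_le_add]
        apply umax_le hN
        intro i
        have := le_umax y (fun i => φ i + c) x i
        linarith
    simp only [hG, hu]
    have h1 : ∫ x in K, (umax y φ x - c) * g x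
        = (∫ x in K, umax y φ x * g x) - c * Sg := by
      have e : ∀ x, (umax y φ x - c) * g x = umax y φ x * g x - c * g x := fun x => by ring
      simp only [e]
      rw [integral_sub (hui φ) (hgi.const_mul _), integral_const_mul]
    rw [h1]
    have h2 : ∑ i, m i * (φ i + c) = ∑ i, m i * φ i + Sg * c := by
      rw [← hsum, Finset.sum_mul, ← Finset.sum_add_distrib]
      exact Finset.sum_congr rfl fun i _ => by ring
    rw [h2]; ring
  have hglob : ∀ φ : Fin N → ℝ, G ψ ≤ G φ := by
    intro φ
    obtain ⟨i1, -, hi1⟩ := Finset.exists_min_image Finset.univ φ ⟨⟨0, hN⟩, Finset.mem_univ _⟩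
    set φ' : Fin N → ℝ := fun i => φ i + (-φ i1) with hφ'
    have hφG : G φ' = G φ := hinv φ (-φ i1)
    have hφ0 : ∀ i, 0 ≤ φ' i := fun i => by
      have := hi1 i (Finset.mem_univ i)
      simp only [hφ']; linarith
    have hφ1 : φ' i1 = 0 := by simp [hφ']
    rw [← hφG]
    by_cases hbox : ∀ i, φ' i ≤ L
    · exact hψmin ⟨fun i => hφ0 i, fun i => hbox i⟩
    · push Not at hbox
      obtain ⟨i2, hi2⟩ := hbox
      have h0 : G ψ ≤ G 0 := hψmin
        ⟨le_refl _, fun i => hL0.le⟩
      refine le_trans h0 (le_trans hG0 ?_)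
      -- lower bound for `G φ'`
      have h1 : ∫ x in K, (-|B|) * g x ≤ ∫ x in K, umax y φ' x * g x := by
        apply setIntegral_mono_on (hgi.const_mul _) (hui φ') hKm
        intro x hx
        refine mul_le_mul_of_nonneg_right ?_ (hg0 x)
        have h2 := le_umax y φ' x i1
        rw [hφ1, sub_zero] at h2
        have h3 := (abs_le.1 (hB x hx i1)).1
        have := le_abs_self B
        linarith
      rw [integral_const_mul] at h1
      have h2 : m i0 * L ≤ ∑ i, m i * φ' i := by
        calc m i0 * L ≤ m i2 * φ' i2 :=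
              mul_le_mul (hi0 i2 (Finset.mem_univ _)) hi2.le hL0.le (hm i2).le
          _ ≤ ∑ i, m i * φ' i :=
              Finset.single_le_sum (f := fun i => m i * φ' i)
                (fun i _ => mul_nonneg (hm i).le (hφ0 i)) (Finset.mem_univ i2)
      have h3 : m i0 * L = 2 * |B| * Sg + m i0 := by
        rw [hL]; field_simp
      simp only [hG]
      linarith
  -- the strict cells
  set Mt : Fin N → ℝ → Set (E d) := fun i t =>
    {x | x ∈ K ∧ ∀ j, j ≠ i → (⟪x, y j⟫ : ℝ) - ψ j ≤ ⟪x, y i⟫ - ψ i - t} with hMt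
  have hMtm : ∀ i t, MeasurableSet (Mt i t) := by
    intro i t
    have : Mt i t = K ∩ ⋂ j, {x | j ≠ i → (⟪x, y j⟫ : ℝ) - ψ j ≤ ⟪x, y i⟫ - ψ i - t} := by
      ext x; simp [hMt]
    rw [this]
    refine hKm.inter (MeasurableSet.iInter fun j => ?_)
    by_cases hj : j = i
    · simp [hj]
    · simp only [hj, ne_eq, not_false_eq_true, forall_const]
      apply measurableSet_le
      · exact (measurable_id.inner measurable_const).sub_const _
      · exact ((measurable_id.inner measurable_const).sub_const _).sub_const _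
  have hMtle : ∀ i t, 0 < t → ∫ x in Mt i t, g x ≤ m i := by
    intro i t ht
    have hmin := hglob (Function.update ψ i (ψ i + t))
    set φ := Function.update ψ i (ψ i + t) with hφ
    have hle : ∀ x, umax y φ x ≤ umax y ψ x := by
      intro x
      apply umax_le hN
      intro j
      have h1 := le_umax y ψ x j
      by_cases hj : j = i
      · subst hj; rw [hφ, Function.update_self]; linarith
      · rw [hφ, Function.update_of_ne hj]; exact h1
    have hlt : ∀ x ∈ Mt i t, umax y φ x ≤ umax y ψ x - t := by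
      intro x hx
      have h1 := le_umax y ψ x i
      apply umax_le hN
      intro j
      by_cases hj : j = i
      · subst hj; rw [hφ, Function.update_self]; linarith
      · rw [hφ, Function.update_of_ne hj]
        have := hx.2 j hj
        linarith
    have hsumφ : ∑ j, m j * φ j = ∑ j, m j * ψ j + t * m i := by
      have : ∀ j, m j * φ j = m j * ψ j + (if j = i then t * m i else 0) := by
        intro j
        by_cases hj : j = i
        · subst hj; rw [hφ, Function.update_self]; simp; ring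
        · rw [hφ, Function.update_of_ne hj]; simp [hj]
      simp only [this]
      rw [Finset.sum_add_distrib]
      simp
    have hsub : Mt i t ⊆ K := fun x hx => hx.1
    have hint : ∫ x in K, umax y φ x * g x
        ≤ (∫ x in K, umax y ψ x * g x) - t * ∫ x in Mt i t, g x := by
      have h1 : ∫ x in K, umax y φ x * g x
          ≤ ∫ x in K, (umax y ψ x * g x - t * (Mt i t).indicator g x) := by
        apply setIntegral_mono_on (hui φ)
          ((hui ψ).sub ((hgi.indicator (hMtm i t)).const_mul _)) hKm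
        intro x _
        show umax y φ x * g x ≤ umax y ψ x * g x - t * (Mt i t).indicator g x
        by_cases hx : x ∈ Mt i t
        · rw [Set.indicator_of_mem hx]
          nlinarith [hlt x hx, hg0 x]
        · rw [Set.indicator_of_notMem hx]
          nlinarith [hle x, hg0 x]
      rw [integral_sub (hui ψ) ((hgi.indicator (hMtm i t)).const_mul _),
        integral_const_mul, setIntegral_indicator (hMtm i t),
        inter_eq_self_of_subset_right hsub] at h1
      exact h1
    simp only [hG] at hmin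
    rw [hsumφ] at hmin
    have : t * ∫ x in Mt i t, g x ≤ t * m i := by linarith
    exact le_of_mul_le_mul_left this ht
  have hstr : ∀ i, ∫ x in (⋃ n : ℕ, Mt i (1 / ((n : ℝ) + 1))), g x ≤ m i := by
    intro i
    have hmono : Monotone fun n : ℕ => Mt i (1 / ((n : ℝ) + 1)) := by
      intro a b hab x hx
      refine ⟨hx.1, fun j hj => ?_⟩
      have h1 := hx.2 j hj
      have h2 : 1 / ((b : ℝ) + 1) ≤ 1 / ((a : ℝ) + 1) := by
        apply one_div_le_one_div_of_le (by positivity)
        have : (a : ℝ) ≤ b := by exact_mod_cast hab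
        linarith
      linarith
    have hsubU : (⋃ n : ℕ, Mt i (1 / ((n : ℝ) + 1))) ⊆ K := iUnion_subset fun n x hx => hx.1
    have := tendsto_setIntegral_of_monotone (μ := volume) (f := g)
      (fun n : ℕ => hMtm i (1 / ((n : ℝ) + 1))) hmono (hgi.mono_set hsubU)
    refine le_of_tendsto this (Eventually.of_forall fun n => ?_)
    exact hMtle i _ (by positivity)
  -- closed cells are strict cells up to null sets
  have hcell : ∀ i, ∫ x in cell K y ψ i, g x ≤ m i := by
    intro i
    refine le_trans (le_of_eq ?_) (hstr i)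
    apply setIntegral_congr_set
    have hnull : volume (⋃ j : {j // j ≠ i}, {x : E d | (⟪x, y i - y j⟫ : ℝ) = ψ i - ψ j}) = 0 := by
      rw [measure_iUnion_null_iff]
      intro j
      apply hyperplane_null_aux
      rw [sub_ne_zero]
      exact fun h => j.2 (hy h).symm
    have hae : ∀ᵐ x ∂(volume : Measure (E d)),
        x ∉ ⋃ j : {j // j ≠ i}, {x : E d | (⟪x, y i - y j⟫ : ℝ) = ψ i - ψ j} :=
      measure_eq_zero_iff_ae_notMem.1 hnull
    filter_upwards [hae] with x hx
    apply propext
    constructor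
    · intro hxc
      obtain ⟨hxK, hxj⟩ := hxc
      have hpos : ∀ j, j ≠ i → 0 < ((⟪x, y i⟫ : ℝ) - ψ i) - (⟪x, y j⟫ - ψ j) := by
        intro j hj
        have h1 := hxj j
        rcases h1.lt_or_eq with h | h
        · linarith
        · exfalso
          apply hx
          rw [mem_iUnion]
          refine ⟨⟨j, hj⟩, ?_⟩
          show (⟪x, y i - y j⟫ : ℝ) = ψ i - ψ j
          rw [inner_sub_right]; linarith
      -- a positive margin
      obtain ⟨ε, hε, hεj⟩ : ∃ ε : ℝ, 0 < ε ∧ ∀ j, j ≠ i →
          ε ≤ ((⟪x, y i⟫ : ℝ) - ψ i) - (⟪x, y j⟫ - ψ j) := by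
        by_cases hS : (Finset.univ.filter fun j : Fin N => j ≠ i).Nonempty
        · obtain ⟨j0, hj0, hj0'⟩ := Finset.exists_min_image _
            (fun j => ((⟪x, y i⟫ : ℝ) - ψ i) - (⟪x, y j⟫ - ψ j)) hS
          refine ⟨_, hpos j0 (by simpa using hj0), fun j hj => hj0' j (by simpa using hj)⟩
        · refine ⟨1, one_pos, fun j hj => ?_⟩
          exact absurd ⟨j, by simpa using hj⟩ hS
      obtain ⟨n, hn⟩ := exists_nat_one_div_lt hε
      show x ∈ ⋃ n : ℕ, Mt i (1 / ((n : ℝ) + 1))
      rw [mem_iUnion]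
      refine ⟨n, hxK, fun j hj => ?_⟩
      have := hεj j hj
      linarith
    · intro hxM
      have hxM' : x ∈ ⋃ n : ℕ, Mt i (1 / ((n : ℝ) + 1)) := hxM
      rw [mem_iUnion] at hxM'
      obtain ⟨n, hxK, hxj⟩ := hxM'
      refine ⟨hxK, fun j => ?_⟩
      by_cases hj : j = i
      · subst hj; exact le_refl _
      · have := hxj j hj
        have h2 : 0 < 1 / ((n : ℝ) + 1) := by positivity
        linarith
  -- the cells cover `K`
  have hcover : Sg ≤ ∑ i, ∫ x in cell K y ψ i, g x := by
    have hsubc : ∀ i, cell K y ψ i ⊆ K := fun i x hx => hx.1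
    have h1 : ∀ i, ∫ x in cell K y ψ i, g x = ∫ x in K, (cell K y ψ i).indicator g x := by
      intro i
      rw [setIntegral_indicator (measurableSet_cell hKm y ψ i),
        inter_eq_self_of_subset_right (hsubc i)]
    simp only [h1]
    rw [← integral_finsetSum _ fun i _ =>
      hgi.indicator (measurableSet_cell hKm y ψ i)]
    apply setIntegral_mono_on hgi
    · exact integrable_finsetSum _ fun i _ => hgi.indicator (measurableSet_cell hKm y ψ i)
    · exact hKm
    · intro x hx
      obtain ⟨i, -, hi⟩ := Finset.exists_max_image Finset.univ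
        (fun i => (⟪x, y i⟫ : ℝ) - ψ i) ⟨⟨0, hN⟩, Finset.mem_univ _⟩
      have hxi : x ∈ cell K y ψ i := ⟨hx, fun j => hi j (Finset.mem_univ j)⟩
      calc g x = (cell K y ψ i).indicator g x := (Set.indicator_of_mem hxi g).symm
        _ ≤ ∑ i, (cell K y ψ i).indicator g x :=
            Finset.single_le_sum (f := fun i => (cell K y ψ i).indicator g x)
              (fun j _ => Set.indicator_nonneg (fun x _ => hg0 x) x) (Finset.mem_univ i)
  refine ⟨ψ, fun i => ?_⟩
  have heq : ∑ i, ∫ x in cell K y ψ i, g x = ∑ i, m i :=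
    le_antisymm (Finset.sum_le_sum fun i _ => hcell i) (by rw [hsum]; exact hcover)
  exact (Finset.sum_eq_sum_iff_of_le fun i _ => hcell i).1 heq i (Finset.mem_univ i)

end Vale.Agent.OT
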