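import Vale.Agent.OT.Pot
import Vale.Agent.OT.Key
import Vale.Agent.OT.Weights

open MeasureTheory
open scoped ENNReal NNReal RealInnerProductSpace

namespace Vale.Agent.OT

variable {d N : ℕ}

lemma cs_weighted {ι : Type*} [Fintype ι] (D w : ι → E d) {m : ι → ℝ} (hm : ∀ i, 0 < m i) :
    ∑ i, ⟪D i, w i⟫ ≤ Real.sqrt (∑ i, ‖D i‖ ^ 2 / m i) * Real.sqrt (∑ i, m i * ‖w i‖ ^ 2) := by
  have h1 : ∑ i, ⟪D i, w i⟫ ≤ ∑ i, (‖D i‖ / Real.sqrt (m i)) * (Real.sqrt (m i) * ‖w i‖) := by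
    refine Finset.sum_le_sum fun i _ => ?_
    have hs : 0 < Real.sqrt (m i) := Real.sqrt_pos.2 (hm i)
    have : (‖D i‖ / Real.sqrt (m i)) * (Real.sqrt (m i) * ‖w i‖) = ‖D i‖ * ‖w i‖ := by
      field_simp
    rw [this]
    exact real_inner_le_norm _ _
  refine h1.trans ((Real.sum_mul_le_sqrt_mul_sqrt _ _ _).trans (le_of_eq ?_))
  congr 1
  · congr 1
    refine Finset.sum_congr rfl fun i _ => ?_
    rw [div_pow, Real.sq_sqrt (hm i).le]
  · congr 1
    refine Finset.sum_congr rfl fun i _ => ?_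
    rw [mul_pow, Real.sq_sqrt (hm i).le]

/-- The telescoping estimate, at the discrete level. -/
theorem discrete_stability {K : Set (E d)} (hd : 1 ≤ d) (hK : IsCompact K) (hKc : Convex ℝ K)
    {R : ℝ} (hR : 1 ≤ R) (hKR : K ⊆ Metric.closedBall 0 R) (hN : 0 < N) {g : E d → ℝ}
    (hg : Measurable g) (hg1 : ∀ x, |g x - 1| ≤ 1 / 8) {m : Fin N → ℝ} (hm : ∀ i, 0 < m i)
    (hsum1 : ∑ i, m i = volume.real K) (hsumg : ∑ i, m i = ∫ x in K, g x)
    {RY : ℝ} {y z : Fin N → E d} (hyR : ∀ i, ‖y i‖ ≤ RY) (hzR : ∀ i, ‖z i‖ ≤ RY)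
    {n : ℕ} (hn : 0 < n)
    (hinj : ∀ k ≤ n, Function.Injective (fun i => y i + ((k : ℝ) / n) • (z i - y i))) :
    ∃ φ ψ : Fin N → ℝ, (∀ i, ∫ x in cell K y φ i, g x = m i) ∧
      (∀ i, volume.real (cell K z ψ i) = m i) ∧
      ∫ x in K, (lpot y φ x - lpot z ψ x) * (g x - 1) ≤
        Real.sqrt (672 * R ^ 4 * ∫ x in K, (g x - 1) ^ 2) *
          Real.sqrt (∑ i, m i * ‖z i - y i‖ ^ 2) + 4 * R * RY * volume.real K / n := by
  have : Nonempty (Fin N) := ⟨⟨0, hN⟩⟩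
  have hKm := hK.measurableSet
  have hn' : (0 : ℝ) < n := by exact_mod_cast hn
  have hR0 : 0 < R := by linarith
  set Y : ℕ → Fin N → E d := fun k i => y i + ((k : ℝ) / n) • (z i - y i) with hY
  have hg0 : ∀ x, 0 ≤ g x := fun x => by have := abs_le.1 (hg1 x); linarith [this.1]
  have hgC : ∀ x, g x ≤ 9 / 8 := fun x => by have := abs_le.1 (hg1 x); linarith [this.2]
  have hV1 : ∀ A : Set (E d), ∫ x in A, (1 : ℝ) = volume.real A := fun A => by
    rw [setIntegral_const, smul_eq_mul, mul_one]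
  -- weights
  have hψ : ∀ k, ∃ ψ : Fin N → ℝ, k ≤ n → ∀ i, ∫ x in cell K (Y k) ψ i, (1 : ℝ) = m i := by
    intro k
    by_cases hk : k ≤ n
    · obtain ⟨ψ, hψ⟩ := exists_weights hd hN hK (g := fun _ => 1) measurable_const
        (fun _ => zero_le_one) (C := 1) (fun _ => le_rfl) (hinj k hk) hm (by rw [hsum1, hV1])
      exact ⟨ψ, fun _ => hψ⟩
    · exact ⟨0, fun h => absurd h hk⟩
  have hφ : ∀ k, ∃ φ : Fin N → ℝ, k ≤ n → ∀ i, ∫ x in cell K (Y k) φ i, g x = m i := by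
    intro k
    by_cases hk : k ≤ n
    · obtain ⟨ψ, hψ⟩ := exists_weights hd hN hK hg hg0 hgC (hinj k hk) hm hsumg
      exact ⟨ψ, fun _ => hψ⟩
    · exact ⟨0, fun h => absurd h hk⟩
  choose ψ hψ using hψ
  choose φ hφ using hφ
  set a : ℕ → Fin N → E d := fun k i => ∫ x in cell K (Y k) (ψ k) i, x with ha
  set b : ℕ → Fin N → E d := fun k i => ∫ x in cell K (Y k) (φ k) i, g x • x with hb
  set HA : ℕ → ℝ := fun k => ∑ i, ⟪a k i, Y k i⟫ with hHA
  set HB : ℕ → ℝ := fun k => ∑ i, ⟪b k i, Y k i⟫ with hHB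
  -- dual facts
  have eqA : ∀ k ≤ n, HA k = (∫ x in K, lpot (Y k) (ψ k) x) + ∑ i, m i * ψ k i := by
    intro k hk
    have := dual_eq hK hKR (g := fun _ => 1) measurable_const (fun _ _ => zero_le_one) (C := 1)
      (fun _ _ => le_rfl) (hinj k hk) (hψ k hk)
    simpa only [one_smul, mul_one] using this
  have eqB : ∀ k ≤ n, HB k = (∫ x in K, lpot (Y k) (φ k) x * g x) + ∑ i, m i * φ k i := by
    intro k hk
    exact dual_eq hK hKR hg (fun x _ => hg0 x) (fun x _ => hgC x) (hinj k hk) (hφ k hk)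
  have leA : ∀ k ≤ n, ∀ (y' : Fin N → E d) (ψ' : Fin N → ℝ),
      ∑ i, ⟪a k i, y' i⟫ ≤ (∫ x in K, lpot y' ψ' x) + ∑ i, m i * ψ' i := by
    intro k hk y' ψ'
    have := dual_le hK hKR (g := fun _ => 1) measurable_const (fun _ _ => zero_le_one) (C := 1)
      (fun _ _ => le_rfl) (hinj k hk) (hψ k hk) y' ψ'
    simpa only [one_smul, mul_one] using this
  have leB : ∀ k ≤ n, ∀ (y' : Fin N → E d) (ψ' : Fin N → ℝ),
      ∑ i, ⟪b k i, y' i⟫ ≤ (∫ x in K, lpot y' ψ' x * g x) + ∑ i, m i * ψ' i := by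
    intro k hk y' ψ'
    exact dual_le hK hKR hg (fun x _ => hg0 x) (fun x _ => hgC x) (hinj k hk) (hφ k hk) y' ψ'
  have subA : ∀ k ≤ n, ∀ l ≤ n, ∑ i, ⟪a k i, Y l i⟫ ≤ HA l := fun k hk l hl => by
    rw [eqA l hl]; exact leA k hk _ _
  have subB : ∀ k ≤ n, ∀ l ≤ n, ∑ i, ⟪b k i, Y l i⟫ ≤ HB l := fun k hk l hl => by
    rw [eqB l hl]; exact leB k hk _ _
  have hYd : ∀ k i, Y (k + 1) i - Y k i = (1 / (n : ℝ)) • (z i - y i) := by
    intro k i
    simp only [hY]
    rw [add_sub_add_left_eq_sub, ← sub_smul]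
    congr 1
    push_cast
    field_simp
    ring
  have hY0 : Y 0 = y := by funext i; simp [hY]
  have hYn : Y n = z := by funext i; simp only [hY]; rw [div_self hn'.ne', one_smul]; abel
  -- one step
  have step : ∀ k < n, (HA (k + 1) - HB (k + 1)) - (HA k - HB k) ≤
      (1 / (n : ℝ)) * ∑ i, ⟪a (k + 1) i - b k i, z i - y i⟫ := by
    intro k hk
    have h1 := subA (k + 1) hk k hk.le
    have h2 := subB k hk.le (k + 1) hk
    have e1 : HA (k + 1) - ∑ i, ⟪a (k + 1) i, Y k i⟫ = (1 / (n : ℝ)) * ∑ i, ⟪a (k + 1) i, z i - y i⟫ := by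
      simp only [hHA]
      rw [← Finset.sum_sub_distrib, Finset.mul_sum]
      refine Finset.sum_congr rfl fun i _ => ?_
      rw [← inner_sub_right, hYd, inner_smul_right]
    have e2 : ∑ i, ⟪b k i, Y (k + 1) i⟫ - HB k = (1 / (n : ℝ)) * ∑ i, ⟪b k i, z i - y i⟫ := by
      simp only [hHB]
      rw [← Finset.sum_sub_distrib, Finset.mul_sum]
      refine Finset.sum_congr rfl fun i _ => ?_
      rw [← inner_sub_right, hYd, inner_smul_right]
    have e3 : ∑ i, ⟪a (k + 1) i - b k i, z i - y i⟫ =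
        ∑ i, ⟪a (k + 1) i, z i - y i⟫ - ∑ i, ⟪b k i, z i - y i⟫ := by
      rw [← Finset.sum_sub_distrib]
      refine Finset.sum_congr rfl fun i _ => ?_
      rw [inner_sub_left]
    rw [e3, mul_sub, ← e1, ← e2]
    linarith
  -- telescoping
  have tele : (HA n - HB n) - (HA 0 - HB 0) ≤
      (1 / (n : ℝ)) * ∑ k ∈ Finset.range n, ∑ i, ⟪a (k + 1) i - b k i, z i - y i⟫ := by
    rw [← Finset.sum_range_sub (fun k => HA k - HB k) n, Finset.mul_sum]
    exact Finset.sum_le_sum fun k hk => step k (Finset.mem_range.1 hk)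
  have split : ∑ k ∈ Finset.range n, ∑ i, ⟪a (k + 1) i - b k i, z i - y i⟫ =
      ∑ k ∈ Finset.range n, ∑ i, ⟪a k i - b k i, z i - y i⟫ +
        ∑ i, ⟪a n i - a 0 i, z i - y i⟫ := by
    have e1 : ∀ k, ∑ i, ⟪a (k + 1) i - b k i, z i - y i⟫ = ∑ i, ⟪a k i - b k i, z i - y i⟫ +
        (∑ i, ⟪a (k + 1) i, z i - y i⟫ - ∑ i, ⟪a k i, z i - y i⟫) := by
      intro k
      rw [← Finset.sum_sub_distrib, ← Finset.sum_add_distrib]
      refine Finset.sum_congr rfl fun i _ => ?_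
      simp only [inner_sub_left]; ring
    simp_rw [e1]
    rw [Finset.sum_add_distrib, Finset.sum_range_sub (fun k => ∑ i, ⟪a k i, z i - y i⟫) n,
      ← Finset.sum_sub_distrib]
    congr 1
    refine Finset.sum_congr rfl fun i _ => ?_
    rw [inner_sub_left]
  set W : ℝ := Real.sqrt (∑ i, m i * ‖z i - y i‖ ^ 2) with hW
  set Q : ℝ := Real.sqrt (672 * R ^ 4 * ∫ x in K, (g x - 1) ^ 2) with hQ
  have each : ∀ k ∈ Finset.range n, ∑ i, ⟪a k i - b k i, z i - y i⟫ ≤ Q * W := by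
    intro k hk
    have hk' := (Finset.mem_range.1 hk).le
    have h1 := cs_weighted (fun i => a k i - b k i) (fun i => z i - y i) hm
    have h2 := key_stability hK hKc hR hKR hg (fun x _ => hg1 x) (hinj k hk') hm
      (ψ := ψ k) (ψ' := φ k) (fun i => by rw [← hV1]; exact hψ k hk' i) (hφ k hk')
    refine h1.trans ?_
    have h3 : Real.sqrt (∑ i, ‖a k i - b k i‖ ^ 2 / m i) ≤ Q := Real.sqrt_le_sqrt h2
    gcongr
  have hvolcell : ∀ k ≤ n, ∀ i, volume.real (cell K (Y k) (ψ k) i) = m i := fun k hk i => by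
    rw [← hV1]; exact hψ k hk i
  have hanorm : ∀ k ≤ n, ∀ i, ‖a k i‖ ≤ R * m i := by
    intro k hk i
    have := norm_setIntegral_le_of_norm_le_const (f := fun x : E d => x)
      (s := cell K (Y k) (ψ k) i) (C := R) (μ := volume)
      (vol_lt_top_of_subset_ball ((cell_subset i).trans hKR))
      (fun x hx => by simpa using hKR hx.1)
    rwa [hvolcell k hk i] at this
  have hend : ∑ i, ⟪a n i - a 0 i, z i - y i⟫ ≤ 4 * R * RY * volume.real K := by
    rw [← hsum1, Finset.mul_sum]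
    refine Finset.sum_le_sum fun i _ => ?_
    refine (real_inner_le_norm _ _).trans ?_
    have h1 : ‖a n i - a 0 i‖ ≤ 2 * R * m i := by
      refine (norm_sub_le _ _).trans ?_
      linarith [hanorm n le_rfl i, hanorm 0 (Nat.zero_le _) i]
    have h2 : ‖z i - y i‖ ≤ 2 * RY := by
      refine (norm_sub_le _ _).trans ?_
      linarith [hyR i, hzR i]
    have h3 : 0 ≤ 2 * R * m i := (norm_nonneg _).trans h1
    calc ‖a n i - a 0 i‖ * ‖z i - y i‖ ≤ (2 * R * m i) * (2 * RY) := by gcongr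
      _ = 4 * R * RY * m i := by ring
  have total : (HA n - HB n) - (HA 0 - HB 0) ≤ Q * W + 4 * R * RY * volume.real K / n := by
    refine tele.trans ?_
    rw [split]
    have h1 := Finset.sum_le_card_nsmul (Finset.range n) _ _ each
    rw [Finset.card_range, nsmul_eq_mul] at h1
    calc (1 / (n : ℝ)) * (∑ k ∈ Finset.range n, ∑ i, ⟪a k i - b k i, z i - y i⟫ +
          ∑ i, ⟪a n i - a 0 i, z i - y i⟫) ≤ (1 / (n : ℝ)) * (n * (Q * W) + 4 * R * RY * volume.real K) := by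
          gcongr
      _ = Q * W + 4 * R * RY * volume.real K / n := by field_simp
  -- conclude
  have ipot : ∀ (y' : Fin N → E d) (ψ' : Fin N → ℝ), IntegrableOn (lpot y' ψ') K := fun y' ψ' =>
    pot_continuous.continuousOn.integrableOn_compact hK
  have ipotg : ∀ (y' : Fin N → E d) (ψ' : Fin N → ℝ),
      IntegrableOn (fun x => lpot y' ψ' x * g x) K := fun y' ψ' => by
    obtain ⟨B, hB⟩ := hK.exists_bound_of_continuousOn
      (pot_continuous (y := y') (ψ := ψ')).continuousOn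
    refine integrableOn_of_bdd hKm hKR ((pot_continuous.measurable.mul hg).aestronglyMeasurable)
      (C := B * (9 / 8)) fun x hx => ?_
    rw [norm_mul]
    have h1 : ‖g x‖ ≤ 9 / 8 := by rw [Real.norm_eq_abs, abs_of_nonneg (hg0 x)]; exact hgC x
    have h2 := hB x hx
    have : 0 ≤ B := (norm_nonneg _).trans h2
    gcongr
  refine ⟨φ 0, ψ n, ?_, ?_, ?_⟩
  · have := hφ 0 (Nat.zero_le _); rwa [hY0] at this
  · have := hvolcell n le_rfl; rwa [hYn] at this
  · have h1 := eqA n le_rfl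
    have h2 := leB n le_rfl (Y n) (ψ n)
    have h3 := eqB 0 (Nat.zero_le _)
    have h4 := leA 0 (Nat.zero_le _) (Y 0) (φ 0)
    rw [hYn] at h1 h2
    rw [hY0] at h3 h4
    have e : ∫ x in K, (lpot y (φ 0) x - lpot z (ψ n) x) * (g x - 1) =
        ((∫ x in K, lpot y (φ 0) x * g x) - ∫ x in K, lpot y (φ 0) x) -
        ((∫ x in K, lpot z (ψ n) x * g x) - ∫ x in K, lpot z (ψ n) x) := by
      have e1 : ∀ (y' : Fin N → E d) (ψ' : Fin N → ℝ),
          ∫ x in K, (lpot y' ψ' x * g x - lpot y' ψ' x) =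
          (∫ x in K, lpot y' ψ' x * g x) - ∫ x in K, lpot y' ψ' x := fun y' ψ' =>
        integral_sub (ipotg _ _) (ipot _ _)
      have e2 : ∫ x in K, ((lpot y (φ 0) x * g x - lpot y (φ 0) x) -
          (lpot z (ψ n) x * g x - lpot z (ψ n) x)) =
          (∫ x in K, (lpot y (φ 0) x * g x - lpot y (φ 0) x)) -
          ∫ x in K, (lpot z (ψ n) x * g x - lpot z (ψ n) x) :=
        integral_sub ((ipotg _ _).sub (ipot _ _)) ((ipotg _ _).sub (ipot _ _))
      rw [← e1, ← e1, ← e2]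
      congr 1; ext x; ring
    rw [e]
    have h5 : HB n = ∑ i, ⟪b n i, z i⟫ := by simp only [hHB, hYn]
    have h6 : HA 0 = ∑ i, ⟪a 0 i, y i⟫ := by simp only [hHA, hY0]
    rw [← h5] at h2
    rw [← h6] at h4
    linarith

end Vale.Agent.OT
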