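import Vale.Agent.OT.Core

open MeasureTheory
open scoped ENNReal NNReal RealInnerProductSpace

namespace Vale.Agent.OT

variable {d : ℕ}

/-- Perturbation making all the interpolated sites distinct. -/
lemma perturb {N : ℕ} (hd : 1 ≤ d) (c : Fin N → E d × E d) {δ : ℝ} (hδ : 0 < δ) (n : ℕ) :
    ∃ y z : Fin N → E d, (∀ i, ‖(c i).1 - y i‖ ≤ δ ∧ ‖(c i).2 - z i‖ ≤ δ) ∧
      ∀ k ≤ n, Function.Injective (fun i => y i + ((k : ℝ) / n) • (z i - y i)) := by
  set i0 : Fin d := ⟨0, hd⟩ with hi0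
  set e : E d := EuclideanSpace.single i0 (1 : ℝ) with he
  have hen : ‖e‖ = 1 := by rw [he, PiLp.norm_single]; simp
  have he0 : e i0 = 1 := by rw [he]; simp
  set ct : ℕ → Fin N → E d := fun k i => (c i).1 + ((k : ℝ) / n) • ((c i).2 - (c i).1) with hct
  set B : Finset ℝ := Finset.univ.image (fun p : Fin N × Fin N × Fin (n + 1) =>
    -((ct p.2.2 p.1) i0 - (ct p.2.2 p.2.1) i0) / (((p.1 : ℕ) : ℝ) - ((p.2.1 : ℕ) : ℝ))) with hB
  have hpos : 0 < δ / (N + 1) := by positivity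
  obtain ⟨s, hs, hsB⟩ := (Set.Ioo_infinite hpos).exists_notMem_finset B
  refine ⟨fun i => (c i).1 + (s * (i : ℕ)) • e, fun i => (c i).2 + (s * (i : ℕ)) • e, ?_, ?_⟩
  · have hb : ∀ i : Fin N, ‖(s * ((i : ℕ) : ℝ)) • e‖ ≤ δ := by
      intro i
      rw [norm_smul, hen, mul_one, Real.norm_eq_abs, abs_of_nonneg (mul_nonneg hs.1.le (Nat.cast_nonneg _))]
      have h1 : ((i : ℕ) : ℝ) ≤ N + 1 := by
        have : (i : ℕ) ≤ N + 1 := by omega
        exact_mod_cast this
      calc s * ((i : ℕ) : ℝ) ≤ δ / (N + 1) * (N + 1) := by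
            have := hs.2.le
            have h0 := hs.1.le
            gcongr
        _ = δ := by field_simp
    intro i
    constructor
    · rw [sub_add_cancel_left, norm_neg]; exact hb i
    · rw [sub_add_cancel_left, norm_neg]; exact hb i
  · intro k hk i j hij
    by_contra hne
    apply hsB
    rw [hB, Finset.mem_image]
    refine ⟨(i, j, ⟨k, Nat.lt_succ_of_le hk⟩), Finset.mem_univ _, ?_⟩
    have hne' : (((i : ℕ) : ℝ) - ((j : ℕ) : ℝ)) ≠ 0 := by
      rw [sub_ne_zero]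
      intro h
      exact hne (Fin.ext (by exact_mod_cast h))
    simp only at hij
    have h1 : ct k i + (s * ((i : ℕ) : ℝ)) • e = ct k j + (s * ((j : ℕ) : ℝ)) • e := by
      simp only [hct]
      have : ∀ l : Fin N, (c l).1 + ((k : ℝ) / n) • ((c l).2 - (c l).1) + (s * ((l : ℕ) : ℝ)) • e =
        (c l).1 + (s * ((l : ℕ) : ℝ)) • e + ((k : ℝ) / n) •
          ((c l).2 + (s * ((l : ℕ) : ℝ)) • e - ((c l).1 + (s * ((l : ℕ) : ℝ)) • e)) := by
        intro l
        rw [add_sub_add_right_eq_sub]; abel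
      rw [this i, this j]; exact hij
    have h2 := congrArg (fun v : E d => v i0) h1
    simp only [PiLp.add_apply, PiLp.smul_apply, he0, smul_eq_mul, mul_one] at h2
    simp only
    rw [div_eq_iff hne']
    linarith

/-- Discretisation of a finite measure on a compact product. -/
lemma discretise (hd : 1 ≤ d) {π : Measure (E d × E d)} [IsFiniteMeasure π] (hπ0 : π ≠ 0)
    {Y : Set (E d)} (hY : IsCompact Y) (hπ : π (Y ×ˢ Y)ᶜ = 0) {δ : ℝ} (hδ : 0 < δ) (n : ℕ) :
    ∃ (N : ℕ) (P : Fin N → Set (E d × E d)) (y z : Fin N → E d), 0 < N ∧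
      (∀ i, MeasurableSet (P i)) ∧ (Pairwise (Function.onFun Disjoint P)) ∧
      (π (⋃ i, P i)ᶜ = 0) ∧ (∀ i, 0 < π (P i)) ∧ (∀ i, P i ⊆ Y ×ˢ Y) ∧
      (∀ i, ∀ p ∈ P i, ‖p.1 - y i‖ ≤ δ ∧ ‖p.2 - z i‖ ≤ δ) ∧
      (∀ k ≤ n, Function.Injective fun i => y i + ((k : ℝ) / n) • (z i - y i)) := by
  obtain ⟨t, htsub, htfin, hcov⟩ := (hY.prod hY).finite_cover_balls (half_pos hδ)
  -- enumerate
  set L := htfin.toFinset.card with hL
  set ε := htfin.toFinset.equivFin.symm with hε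
  set c : Fin L → E d × E d := fun i => (ε i : E d × E d) with hc
  set U : Fin L → Set (E d × E d) := fun i => Metric.ball (c i) (δ / 2) ∩ (Y ×ˢ Y) with hU
  set D : Fin L → Set (E d × E d) := fun i => U i \ ⋃ j, ⋃ (_ : j < i), U j with hD
  have hUm : ∀ i, MeasurableSet (U i) := fun i =>
    Metric.isOpen_ball.measurableSet.inter (hY.measurableSet.prod hY.measurableSet)
  have hDm : ∀ i, MeasurableSet (D i) := fun i =>
    (hUm i).diff (MeasurableSet.iUnion fun j => MeasurableSet.iUnion fun _ => hUm j)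
  have hDdisj : Pairwise (Function.onFun Disjoint D) := by
    have aux : ∀ i j, i < j → Disjoint (D i) (D j) := by
      intro i j hij
      rw [Set.disjoint_left]
      intro x hx hx'
      exact hx'.2 (Set.mem_iUnion.2 ⟨i, Set.mem_iUnion.2 ⟨hij, hx.1⟩⟩)
    intro i j hij
    rcases lt_or_gt_of_ne hij with h | h
    · exact aux i j h
    · exact (aux j i h).symm
  have hDcov : Y ×ˢ Y ⊆ ⋃ i, D i := by
    intro x hx
    have h1 : ∃ i, x ∈ U i := by
      obtain ⟨w, hw⟩ := Set.mem_iUnion.1 (hcov hx)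
      obtain ⟨hwt, hxw⟩ := Set.mem_iUnion.1 hw
      refine ⟨ε.symm ⟨w, htfin.mem_toFinset.2 hwt⟩, ?_, hx⟩
      simp only [hc, Equiv.apply_symm_apply]
      exact hxw
    -- least index
    obtain ⟨i, hi, hmin⟩ := Set.exists_min_image {i | x ∈ U i} id (Set.toFinite _) h1
    refine Set.mem_iUnion.2 ⟨i, hi, ?_⟩
    intro hcon
    obtain ⟨j, hj⟩ := Set.mem_iUnion.1 hcon
    obtain ⟨hji, hxj⟩ := Set.mem_iUnion.1 hj
    exact absurd (hmin j hxj) (not_le.2 hji)
  -- positive mass ones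
  set S := {i : Fin L // 0 < π (D i)} with hS
  have : Fintype S := Fintype.ofFinite S
  set N := Fintype.card S with hNdef
  set η : Fin N ≃ S := (Fintype.equivFin S).symm with hη
  obtain ⟨y, z, hyz, hinj⟩ := perturb hd (fun i : Fin N => c (η i)) (half_pos hδ) n
  have hcompl : π (⋃ i : Fin N, D (η i))ᶜ = 0 := by
    have hsub : (⋃ i : Fin N, D (η i))ᶜ ⊆ (Y ×ˢ Y)ᶜ ∪ ⋃ i : {i : Fin L // ¬ 0 < π (D i)}, D i := by
      intro x hx
      by_cases hxY : x ∈ Y ×ˢ Y
      · right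
        obtain ⟨i, hi⟩ := Set.mem_iUnion.1 (hDcov hxY)
        by_cases hpos : 0 < π (D i)
        · exfalso
          apply hx
          refine Set.mem_iUnion.2 ⟨η.symm ⟨i, hpos⟩, ?_⟩
          rw [Equiv.apply_symm_apply]; exact hi
        · exact Set.mem_iUnion.2 ⟨⟨i, hpos⟩, hi⟩
      · left; exact hxY
    refine measure_mono_null hsub (measure_union_null hπ ?_)
    rw [measure_iUnion_null_iff]
    rintro ⟨i, hi⟩
    exact le_antisymm (not_lt.1 hi) bot_le
  have hNpos : 0 < N := by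
    rcases Nat.eq_zero_or_pos N with h0 | h0
    · exfalso
      apply hπ0
      have : IsEmpty (Fin N) := by rw [h0]; infer_instance
      rw [Set.iUnion_of_empty, Set.compl_empty] at hcompl
      exact Measure.measure_univ_eq_zero.1 hcompl
    · exact h0
  refine ⟨N, fun i => D (η i), y, z, hNpos, fun i => hDm _, ?_, hcompl, fun i => (η i).2,
    fun i => ?_, fun i p hp => ?_, hinj⟩
  · intro i j hij
    apply hDdisj
    intro h
    exact hij (η.injective (Subtype.ext h))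
  · intro x hx
    exact hx.1.2
  · have h1 : dist p (c (η i)) < δ / 2 := hp.1.1
    have h2 : ‖p.1 - (c (η i)).1‖ < δ / 2 := by
      rw [← dist_eq_norm]; exact (le_max_left _ _).trans_lt h1
    have h3 : ‖p.2 - (c (η i)).2‖ < δ / 2 := by
      rw [← dist_eq_norm]; exact (le_max_right _ _).trans_lt h1
    obtain ⟨h4, h5⟩ := hyz i
    constructor
    · calc ‖p.1 - y i‖ ≤ ‖p.1 - (c (η i)).1‖ + ‖(c (η i)).1 - y i‖ := norm_sub_le_norm_sub_add_norm_sub _ _ _
        _ ≤ δ := by linarith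
    · calc ‖p.2 - z i‖ ≤ ‖p.2 - (c (η i)).2‖ + ‖(c (η i)).2 - z i‖ := norm_sub_le_norm_sub_add_norm_sub _ _ _
        _ ≤ δ := by linarith

end Vale.Agent.OT
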