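import Vale.Agent.OT.Sel
import Vale.Agent.OT.Discrete
import Vale.Agent.OT.Partition

open MeasureTheory Filter Topology
open scoped ENNReal NNReal RealInnerProductSpace

namespace Vale.Agent.OT

variable {d : ℕ}

/-- Riemann sum estimate for a test function. -/
lemma riemann {π : Measure (E d × E d)} [IsFiniteMeasure π] {N : ℕ}
    {P : Fin N → Set (E d × E d)} (hPm : ∀ i, MeasurableSet (P i))
    (hPd : Pairwise (Function.onFun Disjoint P)) (hPc : π (⋃ i, P i)ᶜ = 0)
    {G : E d × E d → ℝ} (hG : Integrable G π) {a : Fin N → ℝ} {ω : ℝ}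
    (h : ∀ i, ∀ p ∈ P i, |a i - G p| ≤ ω) :
    |∑ i, π.real (P i) * a i - ∫ p, G p ∂π| ≤ ω * π.real Set.univ := by
  have hU : ∫ p, G p ∂π = ∑ i, ∫ p in P i, G p ∂π := by
    rw [← integral_iUnion_fintype hPm hPd (fun i => hG.integrableOn)]
    rw [← setIntegral_univ]
    exact setIntegral_congr_set (ae_eq_univ.2 hPc).symm
  have hR : π.real Set.univ = ∑ i, π.real (P i) := by
    rw [← measureReal_iUnion_fintype hPd hPm]
    exact measureReal_congr (ae_eq_univ.2 hPc).symm
  rw [hU, ← Finset.sum_sub_distrib, hR, Finset.mul_sum]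
  refine (Finset.abs_sum_le_sum_abs _ _).trans (Finset.sum_le_sum fun i _ => ?_)
  have e : π.real (P i) * a i - ∫ p in P i, G p ∂π = ∫ p in P i, (a i - G p) ∂π := by
    rw [integral_sub (integrable_const _) hG.integrableOn, setIntegral_const, smul_eq_mul]
  rw [e]
  have h2 := norm_setIntegral_le_of_norm_le_const (μ := π) (s := P i) (f := fun p => a i - G p)
    (C := ω) (measure_lt_top _ _) (fun p hp => h i p hp)
  exact h2

/-- The discrete approximation at level `n`. -/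
theorem approx_data {K : Set (E d)} (hd : 1 ≤ d) (hK : IsCompact K) (hKc : Convex ℝ K)
    (hK0 : volume K ≠ 0) {R : ℝ} (hR : 1 ≤ R) (hKR : K ⊆ Metric.closedBall 0 R)
    {Y : Set (E d)} (hY : IsCompact Y) {RY : ℝ} (hRY : 0 ≤ RY) (hYR : Y ⊆ Metric.closedBall 0 RY)
    {π : Measure (E d × E d)} [IsProbabilityMeasure π] (hπ : π (Y ×ˢ Y)ᶜ = 0)
    {f : E d → ℝ} (hf : Measurable f) {F : ℝ} (hfF : ∀ x, |f x| ≤ F) (hf0 : ∫ x in K, f x = 0)
    {ε : ℝ} (hε : 0 < ε) (hεF : ε * F ≤ 1 / 8) {n : ℕ} (hn : 0 < n) :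
    ∃ (u v : E d → ℝ) (T S : E d → E d),
      LipschitzWith (RY + 1).toNNReal u ∧ LipschitzWith (RY + 1).toNNReal v ∧
      Measurable T ∧ Measurable S ∧
      (∀ᵐ x ∂(volume.restrict K), ‖T x‖ ≤ RY + 1) ∧ (∀ᵐ x ∂(volume.restrict K), ‖S x‖ ≤ RY + 1) ∧
      SubgradAE K u T ∧ SubgradAE K v S ∧
      (∫ x in K, (u x - v x) * f x ≤ Real.sqrt (672 * R ^ 4 * ∫ x in K, f x ^ 2) *
          Real.sqrt (volume.real K * ((∫ p, ‖p.1 - p.2‖ ^ 2 ∂π) + (8 * RY + 4) / n)) +
          4 * R * (RY + 1) * volume.real K / n / ε) ∧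
      (∀ (φ : E d → ℝ) (ω : ℝ), Continuous φ →
        (∀ a ∈ Y, ∀ b, ‖a - b‖ ≤ 1 / n → |φ b - φ a| ≤ ω) →
        |(∫ x in K, φ (T x) * (1 + ε * f x)) - volume.real K * ∫ p, φ p.1 ∂π| ≤ volume.real K * ω ∧
        |(∫ x in K, φ (S x)) - volume.real K * ∫ p, φ p.2 ∂π| ≤ volume.real K * ω) := by
  have hn' : (0 : ℝ) < n := by exact_mod_cast hn
  have hn1 : (1 : ℝ) ≤ n := by exact_mod_cast hn
  have hπ0 : π ≠ 0 := IsProbabilityMeasure.ne_zero π
  have hKfin : volume K ≠ ⊤ := hK.measure_lt_top.ne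
  have hvK : 0 < volume.real K := ENNReal.toReal_pos hK0 hKfin
  have hKm := hK.measurableSet
  obtain ⟨N, P, y, z, hN, hPm, hPd, hPc, hPpos, hPY, hPdist, hinj⟩ :=
    discretise hd hπ0 hY hπ (δ := 1 / (n : ℝ)) (by positivity) n
  have hNe : Nonempty (Fin N) := ⟨⟨0, hN⟩⟩
  have hyinj : Function.Injective y := by
    have := hinj 0 (Nat.zero_le _)
    simpa using this
  have hzinj : Function.Injective z := by
    have := hinj n le_rfl
    rw [div_self hn'.ne'] at this
    simpa using this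
  have hδ1 : 1 / (n : ℝ) ≤ 1 := by rw [div_le_one hn']; exact hn1
  have hex : ∀ i, ∃ p, p ∈ P i := fun i => nonempty_of_measure_ne_zero (hPpos i).ne'
  have hyR : ∀ i, ‖y i‖ ≤ RY + 1 := by
    intro i
    obtain ⟨p, hp⟩ := hex i
    have h1 := (hPdist i p hp).1
    have h2 : ‖p.1‖ ≤ RY := by simpa using hYR (hPY i hp).1
    calc ‖y i‖ = ‖p.1 - (p.1 - y i)‖ := by congr 1; abel
      _ ≤ ‖p.1‖ + ‖p.1 - y i‖ := norm_sub_le _ _
      _ ≤ RY + 1 := by linarith
  have hzR : ∀ i, ‖z i‖ ≤ RY + 1 := by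
    intro i
    obtain ⟨p, hp⟩ := hex i
    have h1 := (hPdist i p hp).2
    have h2 : ‖p.2‖ ≤ RY := by simpa using hYR (hPY i hp).2
    calc ‖z i‖ = ‖p.2 - (p.2 - z i)‖ := by congr 1; abel
      _ ≤ ‖p.2‖ + ‖p.2 - z i‖ := norm_sub_le _ _
      _ ≤ RY + 1 := by linarith
  set m : Fin N → ℝ := fun i => volume.real K * π.real (P i) with hm
  have hπP : ∀ i, 0 < π.real (P i) := fun i => ENNReal.toReal_pos (hPpos i).ne' (measure_ne_top _ _)
  have hmpos : ∀ i, 0 < m i := fun i => mul_pos hvK (hπP i)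
  have hsumP : ∑ i, π.real (P i) = 1 := by
    rw [← measureReal_iUnion_fintype hPd hPm]
    have : π.real (⋃ i, P i) = π.real Set.univ := measureReal_congr (ae_eq_univ.2 hPc)
    rw [this]; simp
  have hsum1 : ∑ i, m i = volume.real K := by
    simp only [hm]; rw [← Finset.mul_sum, hsumP, mul_one]
  set g : E d → ℝ := fun x => 1 + ε * f x with hg
  have hgm : Measurable g := by rw [hg]; fun_prop
  have hg1 : ∀ x, |g x - 1| ≤ 1 / 8 := by
    intro x
    simp only [hg]
    rw [add_sub_cancel_left, abs_mul, abs_of_pos hε]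
    calc ε * |f x| ≤ ε * F := by have := hfF x; gcongr
      _ ≤ 1 / 8 := hεF
  have hfi : IntegrableOn f K :=
    integrableOn_of_bdd hKm hKR hf.aestronglyMeasurable (C := F) fun x _ => hfF x
  have hsumg : ∑ i, m i = ∫ x in K, g x := by
    have e : ∫ x in K, g x = (∫ x in K, (1 : ℝ)) + ∫ x in K, ε * f x :=
      integral_add (integrableOn_const (hs := hKfin)) (hfi.const_mul ε)
    rw [e, integral_const_mul, hf0, setIntegral_const, smul_eq_mul, hsum1]; ring
  obtain ⟨φ0, ψ0, hφ0, hψ0, hmain⟩ := discrete_stability hd hK hKc hR hKR hN hgm hg1 hmpos hsum1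
    hsumg hyR hzR hn hinj
  have hRY1 : 0 ≤ RY + 1 := by linarith
  refine ⟨lpot y φ0, lpot z ψ0, sel K y φ0, sel K z ψ0, pot_lip hRY1 hyR, pot_lip hRY1 hzR,
    sel_measurable hK.isClosed, sel_measurable hK.isClosed, sel_bound hK.isClosed hyinj hyR,
    sel_bound hK.isClosed hzinj hzR, sel_subgrad hK.isClosed hyinj,
    sel_subgrad hK.isClosed hzinj, ?_, ?_⟩
  · -- main estimate
    have e1 : ∫ x in K, (lpot y φ0 x - lpot z ψ0 x) * (g x - 1) =
        ε * ∫ x in K, (lpot y φ0 x - lpot z ψ0 x) * f x := by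
      rw [← integral_const_mul]
      congr 1; ext x; simp only [hg]; ring
    have e2 : Real.sqrt (672 * R ^ 4 * ∫ x in K, (g x - 1) ^ 2) =
        ε * Real.sqrt (672 * R ^ 4 * ∫ x in K, f x ^ 2) := by
      have : ∫ x in K, (g x - 1) ^ 2 = ε ^ 2 * ∫ x in K, f x ^ 2 := by
        rw [← integral_const_mul]
        congr 1; ext x; simp only [hg]; ring
      rw [this, show 672 * R ^ 4 * (ε ^ 2 * ∫ x in K, f x ^ 2) =
        ε ^ 2 * (672 * R ^ 4 * ∫ x in K, f x ^ 2) by ring, Real.sqrt_mul (by positivity),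
        Real.sqrt_sq hε.le]
    rw [e1, e2] at hmain
    -- W bound
    have hGi : Integrable (fun p : E d × E d => ‖p.1 - p.2‖ ^ 2) π := by
      refine (integrable_const ((2 * RY) ^ 2)).mono' (by fun_prop) ?_
      have : ∀ᵐ p ∂π, p ∈ Y ×ˢ Y := by rw [ae_iff]; exact hπ
      filter_upwards [this] with p hp
      rw [Real.norm_eq_abs, abs_of_nonneg (by positivity)]
      have h1 : ‖p.1‖ ≤ RY := by simpa using hYR hp.1
      have h2 : ‖p.2‖ ≤ RY := by simpa using hYR hp.2
      have h3 : ‖p.1 - p.2‖ ≤ 2 * RY := (norm_sub_le _ _).trans (by linarith)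
      gcongr
    have hW : ∑ i, m i * ‖z i - y i‖ ^ 2 ≤
        volume.real K * ((∫ p, ‖p.1 - p.2‖ ^ 2 ∂π) + (8 * RY + 4) / n) := by
      have e3 : ∑ i, m i * ‖z i - y i‖ ^ 2 = volume.real K * ∑ i, π.real (P i) * ‖z i - y i‖ ^ 2 := by
        rw [Finset.mul_sum]
        refine Finset.sum_congr rfl fun i _ => ?_
        simp only [hm]; ring
      rw [e3]
      have hU : ∫ p, ‖p.1 - p.2‖ ^ 2 ∂π = ∑ i, ∫ p in P i, ‖p.1 - p.2‖ ^ 2 ∂π := by
        rw [← integral_iUnion_fintype hPm hPd (fun i => hGi.integrableOn)]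
        rw [← setIntegral_univ]
        exact setIntegral_congr_set (ae_eq_univ.2 hPc).symm
      have h4 : ∑ i, π.real (P i) * ‖z i - y i‖ ^ 2 ≤
          ∑ i, ((∫ p in P i, ‖p.1 - p.2‖ ^ 2 ∂π) + (8 * RY + 4) / n * π.real (P i)) := by
        refine Finset.sum_le_sum fun i _ => ?_
        have e4 : (∫ p in P i, ‖p.1 - p.2‖ ^ 2 ∂π) + (8 * RY + 4) / n * π.real (P i) =
            ∫ p in P i, (‖p.1 - p.2‖ ^ 2 + (8 * RY + 4) / n) ∂π := by
          rw [integral_add hGi.integrableOn (integrable_const _), setIntegral_const, smul_eq_mul]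
          ring
        have e5 : π.real (P i) * ‖z i - y i‖ ^ 2 = ∫ p in P i, ‖z i - y i‖ ^ 2 ∂π := by
          rw [setIntegral_const, smul_eq_mul]
        rw [e4, e5]
        refine setIntegral_mono_on (integrable_const _)
          (hGi.integrableOn.add (integrable_const _)) (hPm i) fun p hp => ?_
        obtain ⟨h5, h6⟩ := hPdist i p hp
        have h1 : ‖p.1‖ ≤ RY := by simpa using hYR (hPY i hp).1
        have h2 : ‖p.2‖ ≤ RY := by simpa using hYR (hPY i hp).2
        have h3 : ‖p.1 - p.2‖ ≤ 2 * RY := (norm_sub_le _ _).trans (by linarith)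
        have h7 : ‖z i - y i‖ ≤ ‖p.1 - p.2‖ + 2 * (1 / n) := by
          have : z i - y i = -(p.1 - p.2) + (p.1 - y i) - (p.2 - z i) := by abel
          rw [this]
          refine (norm_sub_le _ _).trans ?_
          have := norm_add_le (-(p.1 - p.2)) (p.1 - y i)
          rw [norm_neg] at this
          linarith
        have h8 : ‖z i - y i‖ ^ 2 ≤ (‖p.1 - p.2‖ + 2 * (1 / n)) ^ 2 := by gcongr
        refine h8.trans ?_
        have h9 : (1 / (n : ℝ)) ^ 2 ≤ 1 / n := by
          have h10 : 0 ≤ 1 / (n : ℝ) := by positivity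
          nlinarith
        have h11 : ‖p.1 - p.2‖ * (1 / (n : ℝ)) ≤ 2 * RY * (1 / n) := by gcongr
        have e6 : (8 * RY + 4) / (n : ℝ) = 8 * RY * (1 / n) + 4 * (1 / n) := by ring
        rw [e6]
        have e7 : (‖p.1 - p.2‖ + 2 * (1 / (n : ℝ))) ^ 2 = ‖p.1 - p.2‖ ^ 2 +
          4 * (‖p.1 - p.2‖ * (1 / n)) + 4 * (1 / (n : ℝ)) ^ 2 := by ring
        rw [e7]
        linarith
      rw [Finset.sum_add_distrib, ← hU, ← Finset.mul_sum, hsumP, mul_one] at h4
      gcongr
    have hW' := Real.sqrt_le_sqrt hW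
    have hQ0 : 0 ≤ Real.sqrt (672 * R ^ 4 * ∫ x in K, f x ^ 2) := Real.sqrt_nonneg _
    have h1 : ε * ∫ x in K, (lpot y φ0 x - lpot z ψ0 x) * f x ≤
        ε * (Real.sqrt (672 * R ^ 4 * ∫ x in K, f x ^ 2) *
          Real.sqrt (volume.real K * ((∫ p, ‖p.1 - p.2‖ ^ 2 ∂π) + (8 * RY + 4) / n)) +
          4 * R * (RY + 1) * volume.real K / n / ε) := by
      refine hmain.trans ?_
      have e9 : ∀ a b : ℝ, ε * (a + b / ε) = ε * a + b := fun a b => by field_simp
      rw [e9, mul_assoc]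
      gcongr
    exact le_of_mul_le_mul_left h1 hε
  · intro φ ω hφ hω
    have hKR' : ∀ x ∈ K, ‖g x‖ ≤ 9 / 8 := by
      intro x _
      have := abs_le.1 (hg1 x)
      rw [Real.norm_eq_abs, abs_le]; constructor <;> linarith [this.1, this.2]
    have hYae : ∀ᵐ p ∂π, p ∈ Y ×ˢ Y := by rw [ae_iff]; exact hπ
    obtain ⟨B, hB⟩ := hY.exists_bound_of_continuousOn hφ.continuousOn
    have iφ1 : Integrable (fun p : E d × E d => φ p.1) π := by
      refine (integrable_const B).mono' (hφ.comp continuous_fst).aestronglyMeasurable ?_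
      filter_upwards [hYae] with p hp using hB _ hp.1
    have iφ2 : Integrable (fun p : E d × E d => φ p.2) π := by
      refine (integrable_const B).mono' (hφ.comp continuous_snd).aestronglyMeasurable ?_
      filter_upwards [hYae] with p hp using hB _ hp.2
    constructor
    · have e1 := sel_integral hK hyinj hyR hgm hKR' hφ0 hφ
      have e2 : ∑ i, m i * φ (y i) = volume.real K * ∑ i, π.real (P i) * φ (y i) := by
        rw [Finset.mul_sum]
        refine Finset.sum_congr rfl fun i _ => ?_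
        simp only [hm]; ring
      have h1 := riemann hPm hPd hPc iφ1 (a := fun i => φ (y i)) (ω := ω) fun i p hp =>
        hω p.1 (hPY i hp).1 (y i) (hPdist i p hp).1
      rw [probReal_univ, mul_one] at h1
      change |(∫ x in K, φ (sel K y φ0 x) * g x) - _| ≤ _
      rw [e1, e2, ← mul_sub, abs_mul, abs_of_pos hvK]
      gcongr
    · have hψ0' : ∀ i, ∫ x in cell K z ψ0 i, (1 : ℝ) = m i := fun i => by
        rw [setIntegral_const, smul_eq_mul, mul_one, hψ0 i]
      have e1 := sel_integral hK hzinj hzR (g := fun _ => 1) measurable_const (C := 1)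
        (fun _ _ => by simp) hψ0' hφ
      simp only [mul_one] at e1
      have e2 : ∑ i, m i * φ (z i) = volume.real K * ∑ i, π.real (P i) * φ (z i) := by
        rw [Finset.mul_sum]
        refine Finset.sum_congr rfl fun i _ => ?_
        simp only [hm]; ring
      have h1 := riemann hPm hPd hPc iφ2 (a := fun i => φ (z i)) (ω := ω) fun i p hp =>
        hω p.2 (hPY i hp).2 (z i) (hPdist i p hp).2
      rw [probReal_univ, mul_one] at h1
      rw [e1, e2, ← mul_sub, abs_mul, abs_of_pos hvK]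
      gcongr

end Vale.Agent.OT
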