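import Vale.Agent.OT.Core

open MeasureTheory
open scoped ENNReal NNReal RealInnerProductSpace

namespace Vale.Agent.OT

variable {d : ℕ}

lemma unif_ae {K : Set (E d)} (hK : volume K ≠ ⊤) {p : E d → Prop} :
    (∀ᵐ x ∂(unif K), p x) ↔ ∀ᵐ x ∂(volume.restrict K), p x := by
  unfold unif
  rw [ae_iff, ae_iff, Measure.smul_apply, smul_eq_mul, mul_eq_zero]
  constructor
  · rintro (h | h)
    · exact absurd h (ENNReal.inv_ne_zero.2 hK)
    · exact h
  · intro h; exact Or.inr h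

lemma unif_isProb {K : Set (E d)} (hK : volume K ≠ ⊤) (hK0 : volume K ≠ 0) :
    IsProbabilityMeasure (unif K) := by
  refine ⟨?_⟩
  unfold unif
  rw [Measure.smul_apply, Measure.restrict_apply_univ, smul_eq_mul, ENNReal.inv_mul_cancel hK0 hK]

lemma unif_integral {K : Set (E d)} {F : Type*} [NormedAddCommGroup F] [NormedSpace ℝ F]
    (f : E d → F) : ∫ x, f x ∂(unif K) = (volume.real K)⁻¹ • ∫ x in K, f x := by
  unfold unif
  rw [integral_smul_measure, ENNReal.toReal_inv]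
  rfl

/-- Legendre transform relative to `K`. -/
noncomputable def conj (K : Set (E d)) (u : E d → ℝ) (y : E d) : ℝ := ⨆ x : K, (⟪(x : E d), y⟫ - u x)

section

variable {K : Set (E d)} {u : E d → ℝ}

lemma conj_bdd (hK : IsCompact K) (hu : ContinuousOn u K) (y : E d) :
    BddAbove (Set.range fun x : K => ⟪(x : E d), y⟫ - u x) := by
  have h : ContinuousOn (fun x : E d => ⟪x, y⟫ - u x) K := ContinuousOn.sub (by fun_prop) hu
  obtain ⟨B, hB⟩ := (hK.image_of_continuousOn h).bddAbove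
  refine ⟨B, ?_⟩
  rintro _ ⟨x, rfl⟩
  exact hB ⟨x, x.2, rfl⟩

lemma le_conj (hK : IsCompact K) (hu : ContinuousOn u K) {x : E d} (hx : x ∈ K) (y : E d) :
    ⟪x, y⟫ - u x ≤ conj K u y :=
  le_ciSup (f := fun x : K => ⟪(x : E d), y⟫ - u x) (conj_bdd hK hu y) ⟨x, hx⟩

lemma conj_le (hne : K.Nonempty) {y : E d} {c : ℝ} (h : ∀ x ∈ K, ⟪x, y⟫ - u x ≤ c) :
    conj K u y ≤ c := by
  have : Nonempty K := hne.to_subtype
  exact ciSup_le fun x => h x x.2

lemma conj_sub_le (hK : IsCompact K) (hu : ContinuousOn u K) (hne : K.Nonempty) {R : ℝ}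
    (hKR : K ⊆ Metric.closedBall 0 R) (y y' : E d) :
    conj K u y - conj K u y' ≤ R * ‖y - y'‖ := by
  rw [sub_le_iff_le_add]
  refine conj_le hne fun x hx => ?_
  have h1 := le_conj hK hu hx y'
  have h2 : ⟪x, y - y'⟫ ≤ R * ‖y - y'‖ := by
    refine (real_inner_le_norm _ _).trans ?_
    have : ‖x‖ ≤ R := by simpa using hKR hx
    gcongr
  rw [inner_sub_right] at h2
  linarith

lemma conj_continuous (hK : IsCompact K) (hu : ContinuousOn u K) (hne : K.Nonempty) :
    Continuous (conj K u) := by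
  obtain ⟨R, hR0, hKR⟩ := hK.isBounded.subset_closedBall_lt 0 0
  have : LipschitzWith R.toNNReal (conj K u) := by
    refine LipschitzWith.of_dist_le_mul fun x x' => ?_
    rw [Real.coe_toNNReal R hR0.le, Real.dist_eq, dist_eq_norm, abs_sub_le_iff]
    refine ⟨conj_sub_le hK hu hne hKR x x', ?_⟩
    rw [norm_sub_rev]
    exact conj_sub_le hK hu hne hKR x' x
  exact this.continuous

/-- An optimal map is a subgradient of any potential that has a subgradient selection with the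
same image measure. -/
theorem subgrad_of_otmap (hK : IsCompact K) (hK0 : volume K ≠ 0) (hu : ContinuousOn u K)
    {μ : Measure (E d)} {Y : Set (E d)} (hY : IsCompact Y) (hμY : μ Yᶜ = 0)
    {T T' : E d → E d} (hT : IsOTMap (unif K) μ T) (hT' : Measurable T')
    (hT'μ : Measure.map T' (unif K) = μ) (hsub : SubgradAE K u T') :
    SubgradAE K u T := by
  obtain ⟨hTm, hTμ, hopt⟩ := hT
  have hKfin : volume K ≠ ⊤ := hK.measure_lt_top.ne
  have hne : K.Nonempty := nonempty_of_measure_ne_zero hK0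
  have := unif_isProb hKfin hK0
  have hcm : Continuous (conj K u) := conj_continuous hK hu hne
  have hKae : ∀ᵐ x ∂(unif K), x ∈ K := by
    rw [unif_ae hKfin]; exact ae_restrict_mem hK.measurableSet
  have hYae : ∀ᵐ y ∂μ, y ∈ Y := by rw [ae_iff]; exact hμY
  have hTY : ∀ᵐ x ∂(unif K), T x ∈ Y := by
    rw [← hTμ] at hYae; exact ae_of_ae_map hTm.aemeasurable hYae
  have hT'Y : ∀ᵐ x ∂(unif K), T' x ∈ Y := by
    rw [← hT'μ] at hYae; exact ae_of_ae_map hT'.aemeasurable hYae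
  obtain ⟨R, hR0, hKR⟩ := hK.isBounded.subset_closedBall_lt 0 0
  obtain ⟨RY, hRY0, hYR⟩ := hY.isBounded.subset_closedBall_lt 0 0
  have hnK : ∀ x ∈ K, ‖x‖ ≤ R := fun x hx => by simpa using hKR hx
  have hnY : ∀ x ∈ Y, ‖x‖ ≤ RY := fun x hx => by simpa using hYR hx
  obtain ⟨Bu, hBu⟩ := hK.exists_bound_of_continuousOn hu
  obtain ⟨Bc, hBc⟩ := hY.exists_bound_of_continuousOn hcm.continuousOn
  -- u is a.e. strongly measurable
  have hum : AEStronglyMeasurable u (unif K) := by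
    unfold unif
    exact (hu.aestronglyMeasurable hK.measurableSet).smul_measure _
  have iu : Integrable u (unif K) := by
    refine (integrable_const Bu).mono' hum ?_
    filter_upwards [hKae] with x hx using hBu x hx
  -- general facts for maps into Y
  have gen : ∀ S : E d → E d, Measurable S → Measure.map S (unif K) = μ →
      (∀ᵐ x ∂(unif K), S x ∈ Y) →
      Integrable (fun x => ⟪x, S x⟫) (unif K) ∧ Integrable (fun x => conj K u (S x)) (unif K) ∧
      (∫ x, conj K u (S x) ∂(unif K) = ∫ y, conj K u y ∂μ) ∧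
      (∫⁻ x, ‖x - S x‖ₑ ^ 2 ∂(unif K) = ENNReal.ofReal
        ((∫ x, ‖x‖ ^ 2 ∂(unif K)) + (∫ y, ‖y‖ ^ 2 ∂μ) - 2 * ∫ x, ⟪x, S x⟫ ∂(unif K))) := by
    intro S hS hSμ hSY
    have i1 : Integrable (fun x => ⟪x, S x⟫) (unif K) := by
      refine (integrable_const (R * RY)).mono'
        (measurable_id.inner hS).aestronglyMeasurable ?_
      filter_upwards [hKae, hSY] with x hx hSx
      refine (abs_real_inner_le_norm _ _).trans ?_
      have h1 := hnK x hx
      have h2 := hnY _ hSx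
      gcongr
    have i2 : Integrable (fun x => conj K u (S x)) (unif K) := by
      refine (integrable_const Bc).mono' (hcm.measurable.comp hS).aestronglyMeasurable ?_
      filter_upwards [hSY] with x hx using hBc _ hx
    have i3 : Integrable (fun x : E d => ‖x‖ ^ 2) (unif K) := by
      refine (integrable_const (R ^ 2)).mono' (by fun_prop) ?_
      filter_upwards [hKae] with x hx
      rw [Real.norm_eq_abs, abs_of_nonneg (by positivity)]
      have h1 := hnK x hx
      gcongr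
    have i4 : Integrable (fun x => ‖S x‖ ^ 2) (unif K) := by
      refine (integrable_const (RY ^ 2)).mono' (by fun_prop) ?_
      filter_upwards [hSY] with x hx
      rw [Real.norm_eq_abs, abs_of_nonneg (by positivity)]
      have h1 := hnY _ hx
      gcongr
    refine ⟨i1, i2, ?_, ?_⟩
    · rw [← hSμ, integral_map hS.aemeasurable hcm.measurable.aestronglyMeasurable]
    · have e1 : ∫ y, ‖y‖ ^ 2 ∂μ = ∫ x, ‖S x‖ ^ 2 ∂(unif K) := by
        rw [← hSμ, integral_map hS.aemeasurable (by fun_prop)]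
      have e2 : ∀ x, ‖x - S x‖ₑ ^ 2 = ENNReal.ofReal (‖x‖ ^ 2 + ‖S x‖ ^ 2 - 2 * ⟪x, S x⟫) := by
        intro x
        rw [← ofReal_norm, ← ENNReal.ofReal_pow (norm_nonneg _), norm_sub_sq_real]
        congr 1; ring
      simp_rw [e2]
      rw [← ofReal_integral_eq_lintegral_ofReal
        (f := fun x => ‖x‖ ^ 2 + ‖S x‖ ^ 2 - 2 * ⟪x, S x⟫) ((i3.add i4).sub (i1.const_mul 2))]
      · congr 1
        have e3 : ∫ x, (‖x‖ ^ 2 + ‖S x‖ ^ 2 - 2 * ⟪x, S x⟫) ∂(unif K) =
          (∫ x, (‖x‖ ^ 2 + ‖S x‖ ^ 2) ∂(unif K)) - ∫ x, 2 * ⟪x, S x⟫ ∂(unif K) :=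
          integral_sub (i3.add i4) (i1.const_mul 2)
        have e4 : ∫ x, (‖x‖ ^ 2 + ‖S x‖ ^ 2) ∂(unif K) =
          (∫ x, ‖x‖ ^ 2 ∂(unif K)) + ∫ x, ‖S x‖ ^ 2 ∂(unif K) := integral_add i3 i4
        rw [e3, e4, integral_const_mul, e1]
      · refine Filter.Eventually.of_forall fun x => ?_
        simp only [Pi.zero_apply]
        have : ‖x‖ ^ 2 + ‖S x‖ ^ 2 - 2 * ⟪x, S x⟫ = ‖x - S x‖ ^ 2 := by
          rw [norm_sub_sq_real]; ring
        rw [this]; positivity
  obtain ⟨a1, a2, a3, a4⟩ := gen T hTm hTμ hTY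
  obtain ⟨b1, b2, b3, b4⟩ := gen T' hT' hT'μ hT'Y
  have hcost := hopt T' hT' hT'μ
  have hnnT' : 0 ≤ (∫ x, ‖x‖ ^ 2 ∂(unif K)) + (∫ y, ‖y‖ ^ 2 ∂μ) - 2 * ∫ x, ⟪x, T' x⟫ ∂(unif K) := by
    by_contra hneg
    push Not at hneg
    -- expand as an integral of a square
    have e1 : ∫ y, ‖y‖ ^ 2 ∂μ = ∫ x, ‖T' x‖ ^ 2 ∂(unif K) := by
      rw [← hT'μ, integral_map hT'.aemeasurable (by fun_prop)]
    have i3 : Integrable (fun x : E d => ‖x‖ ^ 2) (unif K) := by
      refine (integrable_const (R ^ 2)).mono' (by fun_prop) ?_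
      filter_upwards [hKae] with x hx
      rw [Real.norm_eq_abs, abs_of_nonneg (by positivity)]
      have h1 := hnK x hx
      gcongr
    have i4 : Integrable (fun x => ‖T' x‖ ^ 2) (unif K) := by
      refine (integrable_const (RY ^ 2)).mono' (by fun_prop) ?_
      filter_upwards [hT'Y] with x hx
      rw [Real.norm_eq_abs, abs_of_nonneg (by positivity)]
      have h1 := hnY _ hx
      gcongr
    have e3 : ∫ x, (‖x‖ ^ 2 + ‖T' x‖ ^ 2 - 2 * ⟪x, T' x⟫) ∂(unif K) =
      (∫ x, (‖x‖ ^ 2 + ‖T' x‖ ^ 2) ∂(unif K)) - ∫ x, 2 * ⟪x, T' x⟫ ∂(unif K) :=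
      integral_sub (i3.add i4) (b1.const_mul 2)
    have e4 : ∫ x, (‖x‖ ^ 2 + ‖T' x‖ ^ 2) ∂(unif K) =
      (∫ x, ‖x‖ ^ 2 ∂(unif K)) + ∫ x, ‖T' x‖ ^ 2 ∂(unif K) := integral_add i3 i4
    rw [e1, ← e4, ← integral_const_mul, ← e3] at hneg
    have : 0 ≤ ∫ x, (‖x‖ ^ 2 + ‖T' x‖ ^ 2 - 2 * ⟪x, T' x⟫) ∂(unif K) := by
      refine integral_nonneg fun x => ?_
      simp only [Pi.zero_apply]
      have : ‖x‖ ^ 2 + ‖T' x‖ ^ 2 - 2 * ⟪x, T' x⟫ = ‖x - T' x‖ ^ 2 := by
        rw [norm_sub_sq_real]; ring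
      rw [this]; positivity
    linarith
  rw [a4, b4, ENNReal.ofReal_le_ofReal_iff hnnT'] at hcost
  -- equality for T'
  have hT'eq : ∫ x, ⟪x, T' x⟫ ∂(unif K) = (∫ x, u x ∂(unif K)) + ∫ y, conj K u y ∂μ := by
    rw [← b3, ← integral_add iu b2]
    refine integral_congr_ae ?_
    have hsub' := (unif_ae hKfin).2 hsub
    filter_upwards [hKae, hsub'] with x hx hs
    have h1 := le_conj hK hu hx (T' x)
    have h2 : conj K u (T' x) ≤ ⟪x, T' x⟫ - u x := by
      refine conj_le hne fun x' hx' => ?_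
      have := hs x' hx'
      rw [inner_sub_right, real_inner_comm x' (T' x), real_inner_comm x (T' x)] at this
      linarith
    linarith
  -- the gap function of T vanishes
  have hgap : ∀ᵐ x ∂(unif K), u x + conj K u (T x) - ⟪x, T x⟫ = 0 := by
    have hnn : 0 ≤ᵐ[unif K] fun x => u x + conj K u (T x) - ⟪x, T x⟫ := by
      filter_upwards [hKae] with x hx
      have h1 := le_conj hK hu hx (T x)
      simp only [Pi.zero_apply]
      linarith
    have hint : Integrable (fun x => u x + conj K u (T x) - ⟪x, T x⟫) (unif K) :=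
      (iu.add a2).sub a1
    have hle : ∫ x, (u x + conj K u (T x) - ⟪x, T x⟫) ∂(unif K) = 0 := by
      refine le_antisymm ?_ (integral_nonneg_of_ae hnn)
      have e1 : ∫ x, (u x + conj K u (T x) - ⟪x, T x⟫) ∂(unif K) =
          (∫ x, (u x + conj K u (T x)) ∂(unif K)) - ∫ x, ⟪x, T x⟫ ∂(unif K) :=
        integral_sub (iu.add a2) a1
      have e2 : ∫ x, (u x + conj K u (T x)) ∂(unif K) =
          (∫ x, u x ∂(unif K)) + ∫ x, conj K u (T x) ∂(unif K) := integral_add iu a2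
      rw [e1, e2, a3]
      linarith
    exact (integral_eq_zero_iff_of_nonneg_ae hnn hint).1 hle
  have hfin : ∀ᵐ x ∂(unif K), ∀ x' ∈ K, u x + ⟪T x, x' - x⟫ ≤ u x' := by
    filter_upwards [hgap, hKae] with x hx hxK x' hx'
    have h1 := le_conj hK hu hx' (T x)
    rw [inner_sub_right, real_inner_comm x' (T x), real_inner_comm x (T x)]
    linarith
  exact (unif_ae hKfin).1 hfin

end

end Vale.Agent.OT
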