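import Vale.Agent.OT.Core

open MeasureTheory Filter Topology
open scoped ENNReal NNReal RealInnerProductSpace Gradient

namespace Vale.Agent.OT

variable {d : ℕ}

/-- Pointwise sequential compactness of normalised equi-Lipschitz functions. -/
lemma exists_subseq {L : ℝ≥0} {u : ℕ → E d → ℝ} (hL : ∀ n, LipschitzWith L (u n)) {x0 : E d}
    (h0 : ∀ n, u n x0 = 0) : ∃ (φ : ℕ → ℕ) (w : E d → ℝ), StrictMono φ ∧ LipschitzWith L w ∧
      ∀ x, Tendsto (fun n => u (φ n) x) atTop (𝓝 (w x)) := by
  set q : ℕ → E d := TopologicalSpace.denseSeq (E d) with hq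
  have hdense : DenseRange q := TopologicalSpace.denseRange_denseSeq (E d)
  set s : Set (ℕ → ℝ) := Set.pi Set.univ fun k => Set.Icc (-(L * ‖q k - x0‖)) (L * ‖q k - x0‖) with hs
  have hsc : IsCompact s := isCompact_univ_pi fun k => isCompact_Icc
  have hmem : ∀ n, (fun k => u n (q k)) ∈ s := by
    intro n
    rw [hs, Set.mem_univ_pi]
    intro k
    have := (hL n).dist_le_mul (q k) x0
    rw [Real.dist_eq, h0 n, sub_zero, dist_eq_norm] at this
    exact ⟨(abs_le.1 this).1, (abs_le.1 this).2⟩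
  obtain ⟨a, _, φ, hφ, hlim⟩ := hsc.tendsto_subseq hmem
  have hlim' : ∀ k, Tendsto (fun n => u (φ n) (q k)) atTop (𝓝 (a k)) := by
    intro k
    exact (tendsto_pi_nhds.1 hlim) k
  -- every point: Cauchy
  have hc : ∀ x, ∃ l, Tendsto (fun n => u (φ n) x) atTop (𝓝 l) := by
    intro x
    apply cauchySeq_tendsto_of_complete
    rw [Metric.cauchySeq_iff]
    intro ε hε
    have hLp : (0 : ℝ) < L + 1 := by positivity
    obtain ⟨k, hk⟩ := hdense.exists_dist_lt x (show (0 : ℝ) < ε / (4 * (L + 1)) by positivity)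
    have hck : CauchySeq (fun n => u (φ n) (q k)) := (hlim' k).cauchySeq
    rw [Metric.cauchySeq_iff] at hck
    obtain ⟨n0, hn0⟩ := hck (ε / 2) (by positivity)
    refine ⟨n0, fun m hm n hn => ?_⟩
    have h1 := (hL (φ m)).dist_le_mul x (q k)
    have h2 := (hL (φ n)).dist_le_mul (q k) x
    have h3 := hn0 m hm n hn
    rw [dist_comm (q k) x] at h2
    have h4 : (L : ℝ) * dist x (q k) ≤ ε / 4 := by
      have : (L : ℝ) * dist x (q k) ≤ (L + 1) * (ε / (4 * (L + 1))) := by
        gcongr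
        linarith
      refine this.trans (le_of_eq ?_)
      field_simp
    calc dist (u (φ m) x) (u (φ n) x) ≤ dist (u (φ m) x) (u (φ m) (q k)) +
          dist (u (φ m) (q k)) (u (φ n) (q k)) + dist (u (φ n) (q k)) (u (φ n) x) :=
          dist_triangle4 _ _ _ _
      _ < ε := by linarith
  choose w hw using hc
  refine ⟨φ, w, hφ, ?_, hw⟩
  refine LipschitzWith.of_dist_le_mul fun x y => ?_
  have : Tendsto (fun n => dist (u (φ n) x) (u (φ n) y)) atTop (𝓝 (dist (w x) (w y))) :=
    (hw x).dist (hw y)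
  exact le_of_tendsto' this fun n => (hL (φ n)).dist_le_mul x y

/-- At an interior differentiability point the gradient is the only subgradient. -/
lemma subgrad_unique {K : Set (E d)} {u : E d → ℝ} {x p : E d} (hx : x ∈ interior K)
    (hu : DifferentiableAt ℝ u x) (hp : ∀ x' ∈ K, u x + ⟪p, x' - x⟫ ≤ u x') : p = ∇ u x := by
  have hg : HasGradientAt u (∇ u x) x := hu.hasGradientAt
  have hf : HasFDerivAt u (InnerProductSpace.toDual ℝ (E d) (∇ u x)) x := hg.hasFDerivAt
  set F : E d → ℝ := fun x' => u x' - ⟪p, x'⟫ with hF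
  have hFd : HasFDerivAt F (InnerProductSpace.toDual ℝ (E d) (∇ u x) -
      InnerProductSpace.toDual ℝ (E d) p) x := by
    refine hf.sub ?_
    exact (InnerProductSpace.toDual ℝ (E d) p).hasFDerivAt
  have hmin : IsLocalMin F x := by
    have hK : K ∈ 𝓝 x := mem_interior_iff_mem_nhds.1 hx
    filter_upwards [hK] with x' hx'
    have := hp x' hx'
    rw [inner_sub_right] at this
    simp only [hF]
    linarith
  have h0 := hmin.hasFDerivAt_eq_zero hFd
  have h1 : InnerProductSpace.toDual ℝ (E d) (∇ u x) = InnerProductSpace.toDual ℝ (E d) p :=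
    sub_eq_zero.1 h0
  exact ((InnerProductSpace.toDual ℝ (E d)).injective h1).symm

/-- Convergence of subgradients at interior differentiability points of the limit. -/
lemma tendsto_subgrad {K : Set (E d)} {u : E d → ℝ} {un : ℕ → E d → ℝ} {p : ℕ → E d} {x : E d}
    {R : ℝ} (hx : x ∈ interior K) (hu : DifferentiableAt ℝ u x)
    (hlim : ∀ x', Tendsto (fun n => un n x') atTop (𝓝 (u x'))) (hR : ∀ n, ‖p n‖ ≤ R)
    (hp : ∀ n, ∀ x' ∈ K, un n x + ⟪p n, x' - x⟫ ≤ un n x') :
    Tendsto p atTop (𝓝 (∇ u x)) := by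
  refine tendsto_of_subseq_tendsto fun ns hns => ?_
  obtain ⟨a, _, φ, hφ, hφa⟩ := (isCompact_closedBall (0 : E d) R).tendsto_subseq
    (x := fun n => p (ns n)) (fun n => by simpa using hR (ns n))
  refine ⟨φ, ?_⟩
  have ha : a = ∇ u x := by
    refine subgrad_unique hx hu fun x' hx' => ?_
    have h1 : Tendsto (fun n => un (ns (φ n)) x + ⟪p (ns (φ n)), x' - x⟫) atTop
        (𝓝 (u x + ⟪a, x' - x⟫)) := by
      refine Tendsto.add ?_ ?_
      · exact (hlim x).comp (hns.comp hφ.tendsto_atTop)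
      · exact hφa.inner tendsto_const_nhds
    have h2 : Tendsto (fun n => un (ns (φ n)) x') atTop (𝓝 (u x')) :=
      (hlim x').comp (hns.comp hφ.tendsto_atTop)
    exact le_of_tendsto_of_tendsto' h1 h2 fun n => hp _ x' hx'
  rw [← ha]
  exact hφa

end Vale.Agent.OT
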