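import Vale.Agent.OT.Approx1
import Vale.Agent.OT.Limit
import Vale.Agent.OT.Dual

open MeasureTheory Filter Topology
open scoped ENNReal NNReal RealInnerProductSpace Gradient

namespace Vale.Agent.OT

variable {d : ℕ}

/-- Passage to the limit in the image measure. -/
lemma push_limit {K : Set (E d)} (hK : IsCompact K) (hK0 : volume K ≠ 0) {Y : Set (E d)}
    (hY : IsCompact Y) {T : E d → E d} (hT : Measurable T) {Tn : ℕ → E d → E d}
    (hTn : ∀ n, Measurable (Tn n))
    (hlim : ∀ᵐ x ∂(volume.restrict K), Tendsto (fun n => Tn n x) atTop (𝓝 (T x)))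
    {gn : ℕ → E d → ℝ} (hgn : ∀ n, Measurable (gn n)) (hg2 : ∀ n x, |gn n x| ≤ 2)
    (hg1 : ∀ x, Tendsto (fun n => gn n x) atTop (𝓝 1))
    {μ : Measure (E d)} [IsProbabilityMeasure μ] {δ : ℕ → ℝ}
    (hδ : Tendsto δ atTop (𝓝 0))
    (H : ∀ (φ : E d → ℝ) (ω : ℝ) (n : ℕ), Continuous φ →
        (∀ a ∈ Y, ∀ b, ‖a - b‖ ≤ δ n → |φ b - φ a| ≤ ω) →
        |(∫ x in K, φ (Tn n x) * gn n x) - volume.real K * ∫ y, φ y ∂μ| ≤ volume.real K * ω) :
    Measure.map T (unif K) = μ := by
  have hKfin : volume K ≠ ⊤ := hK.measure_lt_top.ne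
  have hvK : 0 < volume.real K := ENNReal.toReal_pos hK0 hKfin
  have := unif_isProb hKfin hK0
  have : IsProbabilityMeasure (Measure.map T (unif K)) := Measure.isProbabilityMeasure_map hT.aemeasurable
  refine ext_of_forall_integral_eq_of_IsFiniteMeasure fun φ => ?_
  rw [integral_map hT.aemeasurable φ.continuous.measurable.aestronglyMeasurable, unif_integral,
    smul_eq_mul]
  have hconv : Tendsto (fun n => ∫ x in K, φ (Tn n x) * gn n x) atTop
      (𝓝 (∫ x in K, φ (T x))) := by
    refine tendsto_integral_of_dominated_convergence (fun _ => ‖φ‖ * 2) ?_ ?_ ?_ ?_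
    · intro n
      exact ((φ.continuous.measurable.comp (hTn n)).mul (hgn n)).aestronglyMeasurable
    · exact integrableOn_const (hs := hKfin)
    · intro n
      refine Eventually.of_forall fun x => ?_
      rw [norm_mul]
      have h1 := φ.norm_coe_le_norm (Tn n x)
      have h2 : ‖gn n x‖ ≤ 2 := hg2 n x
      gcongr
    · filter_upwards [hlim] with x hx
      have h1 : Tendsto (fun n => φ (Tn n x) * gn n x) atTop (𝓝 (φ (T x) * 1)) :=
        ((φ.continuous.tendsto _).comp hx).mul (hg1 x)
      rwa [mul_one] at h1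
  have hsmall : ∀ η > 0, |(∫ x in K, φ (T x)) - volume.real K * ∫ y, φ y ∂μ| ≤ volume.real K * η := by
    intro η hη
    -- uniform continuity near Y
    obtain ⟨δ0, hδ0, hδ0'⟩ : ∃ δ0 > 0, ∀ a ∈ Y, ∀ b, ‖a - b‖ < δ0 → |φ b - φ a| ≤ η := by
      have hc : IsCompact (Metric.cthickening 1 Y) := hY.cthickening
      have huc := hc.uniformContinuousOn_of_continuous φ.continuous.continuousOn
      rw [Metric.uniformContinuousOn_iff] at huc
      obtain ⟨δ1, hδ1, h1⟩ := huc η hη
      refine ⟨min δ1 1, by positivity, fun a ha b hab => ?_⟩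
      have ha' : a ∈ Metric.cthickening 1 Y := Metric.self_subset_cthickening Y ha
      have hb' : b ∈ Metric.cthickening 1 Y := by
        refine Metric.mem_cthickening_of_dist_le b a 1 Y ha ?_
        rw [dist_comm, dist_eq_norm]
        exact (hab.trans_le (min_le_right _ _)).le
      have h2 := h1 b hb' a ha' (by
        rw [dist_comm, dist_eq_norm]; exact hab.trans_le (min_le_left _ _))
      rw [Real.dist_eq] at h2
      exact h2.le
    have hev : ∀ᶠ n in atTop, |(∫ x in K, φ (Tn n x) * gn n x) - volume.real K * ∫ y, φ y ∂μ| ≤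
        volume.real K * η := by
      filter_upwards [hδ.eventually_lt_const hδ0] with n hn
      refine H φ η n φ.continuous fun a ha b hab => hδ0' a ha b (hab.trans_lt hn)
    have hl : Tendsto (fun n => |(∫ x in K, φ (Tn n x) * gn n x) - volume.real K * ∫ y, φ y ∂μ|) atTop
        (𝓝 |(∫ x in K, φ (T x)) - volume.real K * ∫ y, φ y ∂μ|) := (hconv.sub_const _).abs
    exact le_of_tendsto hl hev
  have hz : |(∫ x in K, φ (T x)) - volume.real K * ∫ y, φ y ∂μ| = 0 := by
    refine le_antisymm (le_of_forall_pos_le_add fun η hη => ?_) (abs_nonneg _)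
    have := hsmall (η / volume.real K) (by positivity)
    rw [mul_div_cancel₀ _ hvK.ne'] at this
    linarith
  have := sub_eq_zero.1 (abs_eq_zero.1 hz)
  rw [this, inv_mul_cancel_left₀ hvK.ne']

/-- The continuous version of the stability of potentials in duality with a test function. -/
theorem approx_limit {K : Set (E d)} (hd : 1 ≤ d) (hK : IsCompact K) (hKc : Convex ℝ K)
    (hK0 : volume K ≠ 0) {R : ℝ} (hR : 1 ≤ R) (hKR : K ⊆ Metric.closedBall 0 R)
    {Y : Set (E d)} (hY : IsCompact Y) {RY : ℝ} (hRY : 0 ≤ RY) (hYR : Y ⊆ Metric.closedBall 0 RY)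
    {π : Measure (E d × E d)} [IsProbabilityMeasure π] (hπ : π (Y ×ˢ Y)ᶜ = 0)
    {f : E d → ℝ} (hf : Measurable f) {F : ℝ} (hfF : ∀ x, |f x| ≤ F) (hf0 : ∫ x in K, f x = 0) :
    ∃ (u v : E d → ℝ) (T S : E d → E d), Continuous u ∧ Continuous v ∧
      Measurable T ∧ Measurable S ∧ SubgradAE K u T ∧ SubgradAE K v S ∧
      Measure.map T (unif K) = Measure.map Prod.fst π ∧
      Measure.map S (unif K) = Measure.map Prod.snd π ∧
      ∫ x in K, (u x - v x) * f x ≤ Real.sqrt (672 * R ^ 4 * ∫ x in K, f x ^ 2) *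
          Real.sqrt (volume.real K * ∫ p, ‖p.1 - p.2‖ ^ 2 ∂π) := by
  have hKfin : volume K ≠ ⊤ := hK.measure_lt_top.ne
  have hvK : 0 < volume.real K := ENNReal.toReal_pos hK0 hKfin
  have hKm := hK.measurableSet
  have hF0 : 0 ≤ F := (abs_nonneg _).trans (hfF 0)
  have hRY1 : 0 ≤ RY + 1 := by linarith
  set ε : ℕ → ℝ := fun n => 1 / (8 * (F + 1) * Real.sqrt (n + 1)) with hεdef
  have hε : ∀ n, 0 < ε n := fun n => by simp only [hεdef]; positivity
  have hs1 : ∀ n : ℕ, 1 ≤ Real.sqrt ((n : ℝ) + 1) := fun n => by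
    rw [Real.one_le_sqrt]; linarith [(Nat.cast_nonneg n : (0 : ℝ) ≤ n)]
  have hεF' : ∀ n, ε n ≤ 1 / (8 * (F + 1)) := fun n => by
    simp only [hεdef]
    apply one_div_le_one_div_of_le (by positivity)
    have := hs1 n
    have h0 : 0 < 8 * (F + 1) := by positivity
    nlinarith
  have hεF : ∀ n, ε n * F ≤ 1 / 8 := fun n => by
    calc ε n * F ≤ 1 / (8 * (F + 1)) * (F + 1) := by
          have := hεF' n
          gcongr
          linarith
      _ = 1 / 8 := by field_simp
  have data := fun n : ℕ => approx_data hd hK hKc hK0 hR hKR hY hRY hYR hπ hf hfF hf0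
    (hε n) (hεF n) (Nat.succ_pos n)
  choose u v T S hu hv hT hS hTb hSb hTu hSv hmain htest using data
  -- normalise
  set u' : ℕ → E d → ℝ := fun n x => u n x - u n 0 with hu'
  set v' : ℕ → E d → ℝ := fun n x => v n x - v n 0 with hv'
  have hu'L : ∀ n, LipschitzWith (RY + 1).toNNReal (u' n) := fun n => by
    refine LipschitzWith.of_dist_le_mul fun x y => ?_
    simp only [hu', dist_sub_right]
    exact (hu n).dist_le_mul x y
  have hv'L : ∀ n, LipschitzWith (RY + 1).toNNReal (v' n) := fun n => by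
    refine LipschitzWith.of_dist_le_mul fun x y => ?_
    simp only [hv', dist_sub_right]
    exact (hv n).dist_le_mul x y
  obtain ⟨φ1, uu, hφ1, huuL, huu⟩ := exists_subseq hu'L (x0 := 0) (fun n => by simp [hu'])
  obtain ⟨φ2, vv, hφ2, hvvL, hvv⟩ := exists_subseq (u := fun n => v' (φ1 n))
    (fun n => hv'L (φ1 n)) (x0 := 0) (fun n => by simp [hv'])
  set θ : ℕ → ℕ := fun n => φ1 (φ2 n) with hθ
  have hθm : StrictMono θ := hφ1.comp hφ2
  have hθt : Tendsto θ atTop atTop := hθm.tendsto_atTop
  have huθ : ∀ x, Tendsto (fun n => u' (θ n) x) atTop (𝓝 (uu x)) := fun x =>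
    (huu x).comp hφ2.tendsto_atTop
  have hvθ : ∀ x, Tendsto (fun n => v' (θ n) x) atTop (𝓝 (vv x)) := fun x => hvv x
  -- interior
  have hint : ∀ᵐ x ∂(volume.restrict K), x ∈ interior K := by
    rw [ae_restrict_iff' hKm]
    have hfr : ∀ᵐ x ∂(volume : Measure (E d)), x ∉ frontier K := by
      rw [ae_iff]
      simp only [not_not]
      exact hKc.addHaar_frontier volume
    filter_upwards [hfr] with x hx hxK
    by_contra hxi
    exact hx ⟨subset_closure hxK, hxi⟩
  have hdu : ∀ᵐ x ∂(volume.restrict K), DifferentiableAt ℝ uu x :=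
    ae_restrict_of_ae huuL.ae_differentiableAt
  have hdv : ∀ᵐ x ∂(volume.restrict K), DifferentiableAt ℝ vv x :=
    ae_restrict_of_ae hvvL.ae_differentiableAt
  have hmg : ∀ w : E d → ℝ, Measurable (∇ w) := fun w => by
    have h1 : Measurable (fderiv ℝ w) := measurable_fderiv ℝ w
    exact (InnerProductSpace.toDual ℝ (E d)).symm.continuous.measurable.comp h1
  have hTlim : ∀ᵐ x ∂(volume.restrict K), Tendsto (fun n => T (θ n) x) atTop (𝓝 (∇ uu x)) := by
    have hTball : ∀ᵐ x ∂(volume.restrict K), ∀ n, ‖T (θ n) x‖ ≤ RY + 1 := by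
      rw [ae_all_iff]; exact fun n => hTb (θ n)
    have hTuall : ∀ᵐ x ∂(volume.restrict K), ∀ n, ∀ x' ∈ K,
        u (θ n) x + ⟪T (θ n) x, x' - x⟫ ≤ u (θ n) x' := by
      rw [ae_all_iff]; exact fun n => hTu (θ n)
    filter_upwards [hint, hdu, hTball, hTuall] with x h1 h2 h3 h4
    refine tendsto_subgrad h1 h2 huθ h3 fun n x' hx' => ?_
    have := h4 n x' hx'
    simp only [hu']; linarith
  have hSlim : ∀ᵐ x ∂(volume.restrict K), Tendsto (fun n => S (θ n) x) atTop (𝓝 (∇ vv x)) := by
    have hSball : ∀ᵐ x ∂(volume.restrict K), ∀ n, ‖S (θ n) x‖ ≤ RY + 1 := by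
      rw [ae_all_iff]; exact fun n => hSb (θ n)
    have hSvall : ∀ᵐ x ∂(volume.restrict K), ∀ n, ∀ x' ∈ K,
        v (θ n) x + ⟪S (θ n) x, x' - x⟫ ≤ v (θ n) x' := by
      rw [ae_all_iff]; exact fun n => hSv (θ n)
    filter_upwards [hint, hdv, hSball, hSvall] with x h1 h2 h3 h4
    refine tendsto_subgrad h1 h2 hvθ h3 fun n x' hx' => ?_
    have := h4 n x' hx'
    simp only [hv']; linarith
  have hεt : Tendsto ε atTop (𝓝 0) := by
    have h1 : Tendsto (fun n : ℕ => Real.sqrt ((n : ℝ) + 1)) atTop atTop := by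
      refine Real.tendsto_sqrt_atTop.comp ?_
      exact tendsto_atTop_add_const_right _ _ tendsto_natCast_atTop_atTop
    have h2 : Tendsto (fun n : ℕ => 8 * (F + 1) * Real.sqrt ((n : ℝ) + 1)) atTop atTop :=
      h1.const_mul_atTop (by positivity)
    refine h2.inv_tendsto_atTop.congr fun n => ?_
    simp only [hεdef, one_div, Pi.inv_apply]
  have hδt : Tendsto (fun n : ℕ => 1 / ((θ n + 1 : ℕ) : ℝ)) atTop (𝓝 0) := by
    have h1 : Tendsto (fun n : ℕ => 1 / ((n + 1 : ℕ) : ℝ)) atTop (𝓝 0) := by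
      have := tendsto_one_div_add_atTop_nhds_zero_nat (𝕜 := ℝ)
      simpa using this
    exact h1.comp hθt
  have hprob1 : IsProbabilityMeasure (Measure.map Prod.fst π) :=
    Measure.isProbabilityMeasure_map measurable_fst.aemeasurable
  have hprob2 : IsProbabilityMeasure (Measure.map Prod.snd π) :=
    Measure.isProbabilityMeasure_map measurable_snd.aemeasurable
  refine ⟨uu, vv, ∇ uu, ∇ vv, huuL.continuous, hvvL.continuous, hmg uu, hmg vv, ?_, ?_, ?_, ?_, ?_⟩
  · -- subgradient for uu
    have hTuall : ∀ᵐ x ∂(volume.restrict K), ∀ n, ∀ x' ∈ K,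
        u (θ n) x + ⟪T (θ n) x, x' - x⟫ ≤ u (θ n) x' := by
      rw [ae_all_iff]; exact fun n => hTu (θ n)
    unfold SubgradAE
    filter_upwards [hTlim, hTuall] with x h1 h2 x' hx'
    have l1 : Tendsto (fun n => u' (θ n) x + ⟪T (θ n) x, x' - x⟫) atTop
        (𝓝 (uu x + ⟪∇ uu x, x' - x⟫)) := (huθ x).add (h1.inner tendsto_const_nhds)
    refine le_of_tendsto_of_tendsto' l1 (huθ x') fun n => ?_
    have := h2 n x' hx'
    simp only [hu']; linarith
  · have hSvall : ∀ᵐ x ∂(volume.restrict K), ∀ n, ∀ x' ∈ K,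
        v (θ n) x + ⟪S (θ n) x, x' - x⟫ ≤ v (θ n) x' := by
      rw [ae_all_iff]; exact fun n => hSv (θ n)
    unfold SubgradAE
    filter_upwards [hSlim, hSvall] with x h1 h2 x' hx'
    have l1 : Tendsto (fun n => v' (θ n) x + ⟪S (θ n) x, x' - x⟫) atTop
        (𝓝 (vv x + ⟪∇ vv x, x' - x⟫)) := (hvθ x).add (h1.inner tendsto_const_nhds)
    refine le_of_tendsto_of_tendsto' l1 (hvθ x') fun n => ?_
    have := h2 n x' hx'
    simp only [hv']; linarith
  · refine push_limit hK hK0 hY (hmg uu) (fun n => hT (θ n)) hTlim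
      (gn := fun n x => 1 + ε (θ n) * f x) (fun n => by fun_prop) (fun n x => ?_) (fun x => ?_)
      hδt fun φ ω n hφ hω => ?_
    · have h1 : |ε (θ n) * f x| ≤ 1 / 8 := by
        rw [abs_mul, abs_of_pos (hε _)]
        calc ε (θ n) * |f x| ≤ ε (θ n) * F := by
              have := hfF x
              have := (hε (θ n)).le
              gcongr
          _ ≤ 1 / 8 := hεF _
      have := abs_le.1 h1
      rw [abs_le]; constructor <;> linarith [this.1, this.2]
    · have h1 : Tendsto (fun n => 1 + ε (θ n) * f x) atTop (𝓝 (1 + 0 * f x)) :=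
        ((hεt.comp hθt).mul_const _).const_add _
      simpa using h1
    · have e : ∫ y, φ y ∂(Measure.map Prod.fst π) = ∫ p, φ p.1 ∂π :=
        integral_map measurable_fst.aemeasurable hφ.measurable.aestronglyMeasurable
      rw [e]
      exact (htest (θ n) φ ω hφ hω).1
  · refine push_limit hK hK0 hY (hmg vv) (fun n => hS (θ n)) hSlim
      (gn := fun n x => 1) (fun n => by fun_prop) (fun n x => by norm_num) (fun x => tendsto_const_nhds)
      hδt fun φ ω n hφ hω => ?_
    have e : ∫ y, φ y ∂(Measure.map Prod.snd π) = ∫ p, φ p.2 ∂π :=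
      integral_map measurable_snd.aemeasurable hφ.measurable.aestronglyMeasurable
    rw [e]
    simp only [mul_one]
    exact (htest (θ n) φ ω hφ hω).2
  · -- the main estimate
    set Q := Real.sqrt (672 * R ^ 4 * ∫ x in K, f x ^ 2) with hQ
    have hnK : ∀ x ∈ K, ‖x‖ ≤ R := fun x hx => by simpa using hKR hx
    have hfi : IntegrableOn f K :=
      integrableOn_of_bdd hKm hKR hf.aestronglyMeasurable (C := F) fun x _ => hfF x
    have hbu : ∀ n x, ‖u' n x‖ ≤ (RY + 1) * ‖x‖ := fun n x => by
      have := (hu'L n).dist_le_mul x 0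
      simp only [hu', sub_self, dist_zero_right, Real.coe_toNNReal _ hRY1] at this
      exact this
    have hbv : ∀ n x, ‖v' n x‖ ≤ (RY + 1) * ‖x‖ := fun n x => by
      have := (hv'L n).dist_le_mul x 0
      simp only [hv', sub_self, dist_zero_right, Real.coe_toNNReal _ hRY1] at this
      exact this
    have hconv : Tendsto (fun n => ∫ x in K, (u' (θ n) x - v' (θ n) x) * f x) atTop
        (𝓝 (∫ x in K, (uu x - vv x) * f x)) := by
      refine tendsto_integral_of_dominated_convergence (fun _ => 2 * (RY + 1) * R * F) ?_ ?_ ?_ ?_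
      · intro n
        exact (((hu'L _).continuous.measurable.sub (hv'L _).continuous.measurable).mul
          hf).aestronglyMeasurable
      · exact integrableOn_const (hs := hKfin)
      · intro n
        refine ae_restrict_of_forall_mem hKm fun x hx => ?_
        rw [norm_mul]
        have h1 := hbu (θ n) x
        have h2 := hbv (θ n) x
        have h3 := hnK x hx
        have h4 : ‖f x‖ ≤ F := hfF x
        have h5 : ‖u' (θ n) x - v' (θ n) x‖ ≤ 2 * (RY + 1) * R := by
          refine (norm_sub_le _ _).trans ?_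
          have : (RY + 1) * ‖x‖ ≤ (RY + 1) * R := by gcongr
          linarith
        have h6 : 0 ≤ 2 * (RY + 1) * R := (norm_nonneg _).trans h5
        gcongr
      · refine Eventually.of_forall fun x => ?_
        exact ((huθ x).sub (hvθ x)).mul_const _
    have heq : ∀ n, ∫ x in K, (u' n x - v' n x) * f x = ∫ x in K, (u n x - v n x) * f x := by
      intro n
      have i1 : IntegrableOn (fun x => (u n x - v n x) * f x) K := by
        obtain ⟨B, hB⟩ := hK.exists_bound_of_continuousOn
          ((hu n).continuous.sub (hv n).continuous).continuousOn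
        refine integrableOn_of_bdd hKm hKR ((((hu n).continuous.measurable.sub
          (hv n).continuous.measurable).mul hf).aestronglyMeasurable) (C := B * F) fun x hx => ?_
        rw [norm_mul]
        have h1 : ‖u n x - v n x‖ ≤ B := hB x hx
        have h2 : ‖f x‖ ≤ F := hfF x
        have h3 : 0 ≤ B := (norm_nonneg _).trans h1
        gcongr
      have e : ∀ x, (u' n x - v' n x) * f x = (u n x - v n x) * f x - (u n 0 - v n 0) * f x := by
        intro x; simp only [hu', hv']; ring
      simp_rw [e]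
      have e2 : ∫ x in K, ((u n x - v n x) * f x - (u n 0 - v n 0) * f x) =
          (∫ x in K, (u n x - v n x) * f x) - ∫ x in K, (u n 0 - v n 0) * f x :=
        integral_sub i1 (hfi.const_mul _)
      rw [e2, integral_const_mul, hf0]; ring
    -- the right-hand side
    set c0 := ∫ p, ‖p.1 - p.2‖ ^ 2 ∂π with hc0
    have hr1 : Tendsto (fun n => Real.sqrt (volume.real K * (c0 + (8 * RY + 4) / ((θ n + 1 : ℕ) : ℝ))))
        atTop (𝓝 (Real.sqrt (volume.real K * c0))) := by
      have h1 : Tendsto (fun n => volume.real K * (c0 + (8 * RY + 4) * (1 / ((θ n + 1 : ℕ) : ℝ))))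
          atTop (𝓝 (volume.real K * (c0 + (8 * RY + 4) * 0))) :=
        ((hδt.const_mul _).const_add _).const_mul _
      simp only [mul_zero, add_zero] at h1
      have h2 := (Real.continuous_sqrt.tendsto _).comp h1
      refine h2.congr fun n => ?_
      simp only [Function.comp]
      congr 3
      ring
    have hr2 : Tendsto (fun n => 4 * R * (RY + 1) * volume.real K / ((θ n + 1 : ℕ) : ℝ) / ε (θ n))
        atTop (𝓝 0) := by
      have e : ∀ n : ℕ, 4 * R * (RY + 1) * volume.real K / ((n + 1 : ℕ) : ℝ) / ε n =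
          (4 * R * (RY + 1) * volume.real K * (8 * (F + 1))) * (Real.sqrt ((n : ℝ) + 1))⁻¹ := by
        intro n
        have hs : Real.sqrt ((n : ℝ) + 1) * Real.sqrt ((n : ℝ) + 1) = (n : ℝ) + 1 :=
          Real.mul_self_sqrt (by positivity)
        have hsp : 0 < Real.sqrt ((n : ℝ) + 1) := by positivity
        simp only [hεdef]
        push_cast
        nth_rewrite 1 [← hs]
        field_simp
      have h1 : Tendsto (fun n : ℕ => Real.sqrt ((n : ℝ) + 1)) atTop atTop := by
        refine Real.tendsto_sqrt_atTop.comp ?_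
        exact tendsto_atTop_add_const_right _ _ tendsto_natCast_atTop_atTop
      have h2 : Tendsto (fun n : ℕ => 4 * R * (RY + 1) * volume.real K / ((n + 1 : ℕ) : ℝ) / ε n)
          atTop (𝓝 0) := by
        simp_rw [e]
        have := h1.inv_tendsto_atTop.const_mul (4 * R * (RY + 1) * volume.real K * (8 * (F + 1)))
        rwa [mul_zero] at this
      exact h2.comp hθt
    have hr : Tendsto (fun n => Q * Real.sqrt (volume.real K * (c0 + (8 * RY + 4) /
        ((θ n + 1 : ℕ) : ℝ))) + 4 * R * (RY + 1) * volume.real K / ((θ n + 1 : ℕ) : ℝ) / ε (θ n))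
        atTop (𝓝 (Q * Real.sqrt (volume.real K * c0) + 0)) := (hr1.const_mul Q).add hr2
    rw [add_zero] at hr
    refine le_of_tendsto_of_tendsto' hconv hr fun n => ?_
    rw [heq]
    exact hmain (θ n)

end Vale.Agent.OT
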