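import Vale.Agent.OT.Defs

open MeasureTheory
open scoped ENNReal NNReal

namespace Vale.Agent.OT

variable {d : ℕ}

lemma le_lintegral_ofReal {α : Type*} {m : MeasurableSpace α} {μ : Measure α} {g : α → ℝ} :
    ENNReal.ofReal (∫ x, g x ∂μ) ≤ ∫⁻ x, ENNReal.ofReal (g x) ∂μ := by
  by_cases hg : Integrable g μ
  · have h1 : Integrable (fun x => max (g x) 0) μ := hg.pos_part
    calc ENNReal.ofReal (∫ x, g x ∂μ) ≤ ENNReal.ofReal (∫ x, max (g x) 0 ∂μ) := by
          apply ENNReal.ofReal_le_ofReal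
          exact integral_mono hg h1 (fun x => le_max_left _ _)
      _ = ∫⁻ x, ENNReal.ofReal (max (g x) 0) ∂μ :=
          ofReal_integral_eq_lintegral_ofReal h1 (Filter.Eventually.of_forall fun x => le_max_right _ _)
      _ = ∫⁻ x, ENNReal.ofReal (g x) ∂μ := by
          refine lintegral_congr fun x => ?_
          rcases le_total (g x) 0 with h | h
          · rw [max_eq_right h, ENNReal.ofReal_of_nonpos h, ENNReal.ofReal_zero]
          · rw [max_eq_left h]
  · rw [integral_undef hg]; simp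

lemma enorm_sq_eq {F : Type*} [SeminormedAddCommGroup F] (v : F) :
    ‖v‖ₑ ^ 2 = ENNReal.ofReal (‖v‖ ^ 2) := by
  rw [← ofReal_norm, ENNReal.ofReal_pow (norm_nonneg _)]

/-- A sufficient condition (dual potentials) for a map to be optimal. -/
lemma isOTMap_of_potential {ρ : Measure (E d)} [IsFiniteMeasure ρ] {K : Set (E d)}
    (hρK : ∀ᵐ x ∂ρ, x ∈ K) {A : Set (E d)} (hA : MeasurableSet A) {T : E d → E d}
    (hT : Measurable T) (hTA : ∀ x ∈ K, T x ∈ A) (a b : E d → ℝ)
    (ha : Integrable a ρ) (hb : Integrable b (Measure.map T ρ))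
    (hle : ∀ x ∈ K, ∀ y ∈ A, a x + b y ≤ ‖x - y‖ ^ 2)
    (heq : ∀ x ∈ K, a x + b (T x) = ‖x - T x‖ ^ 2) :
    IsOTMap ρ (Measure.map T ρ) T := by
  refine ⟨hT, rfl, fun S hS hSμ => ?_⟩
  have hbT : Integrable (fun x => b (T x)) ρ := hb.comp_measurable hT
  have hbS : Integrable (fun x => b (S x)) ρ := by
    rw [← hSμ] at hb; exact hb.comp_measurable hS
  have hnn : 0 ≤ᵐ[ρ] (fun x => a x + b (T x)) := by
    filter_upwards [hρK] with x hx
    simp only [Pi.zero_apply]
    rw [heq x hx]; positivity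
  have hint : Integrable (fun x => a x + b (T x)) ρ := ha.add hbT
  have e1 : ∫⁻ x, ‖x - T x‖ₑ ^ 2 ∂ρ = ENNReal.ofReal (∫ x, (a x + b (T x)) ∂ρ) := by
    rw [ofReal_integral_eq_lintegral_ofReal hint hnn]
    apply lintegral_congr_ae
    filter_upwards [hρK] with x hx
    rw [enorm_sq_eq, heq x hx]
  have hSA : ∀ᵐ x ∂ρ, S x ∈ A := by
    have : ∀ᵐ y ∂(Measure.map S ρ), y ∈ A := by
      rw [hSμ, ae_map_iff hT.aemeasurable (p := fun y => y ∈ A) hA]
      filter_upwards [hρK] with x hx using hTA x hx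
    exact ae_of_ae_map hS.aemeasurable this
  have e2 : ENNReal.ofReal (∫ x, (a x + b (S x)) ∂ρ) ≤ ∫⁻ x, ‖x - S x‖ₑ ^ 2 ∂ρ := by
    refine le_lintegral_ofReal.trans ?_
    apply lintegral_mono_ae
    filter_upwards [hρK, hSA] with x hx hx2
    rw [enorm_sq_eq]
    exact ENNReal.ofReal_le_ofReal (hle x hx _ hx2)
  have e3 : ∫ x, (a x + b (T x)) ∂ρ = ∫ x, (a x + b (S x)) ∂ρ := by
    rw [integral_add ha hbT, integral_add ha hbS]
    congr 1
    have h1 : ∫ x, b (T x) ∂ρ = ∫ y, b y ∂(Measure.map T ρ) :=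
      (integral_map hT.aemeasurable hb.aestronglyMeasurable).symm
    have h2 : ∫ x, b (S x) ∂ρ = ∫ y, b y ∂(Measure.map S ρ) := by
      rw [integral_map hS.aemeasurable]
      rw [hSμ]; exact hb.aestronglyMeasurable
    rw [h1, h2, hSμ]
  rw [e1, e3]; exact e2

/-- An upper bound for `W2` from a coupling induced by a map. -/
lemma W2_map_le {μ : Measure (E d)} {r : E d → E d} (hr : Measurable r) :
    W2 μ (Measure.map r μ) ≤ (∫⁻ y, ‖y - r y‖ₑ ^ 2 ∂μ) ^ (1 / 2 : ℝ) := by
  have hm : Measurable (fun y : E d => (y, r y)) := measurable_id.prodMk hr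
  have h1 : Measure.map Prod.fst (Measure.map (fun y => (y, r y)) μ) = μ := by
    rw [Measure.map_map measurable_fst hm]
    exact Measure.map_id
  have h2 : Measure.map Prod.snd (Measure.map (fun y => (y, r y)) μ) = Measure.map r μ := by
    rw [Measure.map_map measurable_snd hm]
    rfl
  refine (iInf_le _ ⟨Measure.map (fun y => (y, r y)) μ, h1, h2⟩).trans ?_
  apply le_of_eq
  simp only
  rw [lintegral_map _ hm]
  exact ((measurable_fst.sub measurable_snd).enorm.pow_const 2)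

end Vale.Agent.OT
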