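import Vale.Agent.OT.Defs

open MeasureTheory
open scoped ENNReal NNReal RealInnerProductSpace

namespace Vale.Agent.OT

variable {d : ℕ}

/-- The (closed) Laguerre cell of index `i` inside `K`. -/
def cell {N : ℕ} (K : Set (E d)) (y : Fin N → E d) (ψ : Fin N → ℝ) (i : Fin N) : Set (E d) :=
  {x | x ∈ K ∧ ∀ j, ⟪x, y j⟫ - ψ j ≤ ⟪x, y i⟫ - ψ i}

/-- `T x` is a subgradient on `K` of `u` at almost every `x ∈ K`. -/
def SubgradAE (K : Set (E d)) (u : E d → ℝ) (T : E d → E d) : Prop :=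
  ∀ᵐ x ∂(volume.restrict K), ∀ x' ∈ K, u x + ⟪T x, x' - x⟫ ≤ u x'

end Vale.Agent.OT
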