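import Mathlib

open MeasureTheory
open scoped ENNReal NNReal

namespace Vale.Agent.OT

/-- `ℝ^d` with the Euclidean norm. -/
abbrev E (d : ℕ) : Type := EuclideanSpace ℝ (Fin d)

/-- The uniform probability measure on `K`: Lebesgue measure restricted to `K`, divided by `|K|`. -/
noncomputable def unif {d : ℕ} (K : Set (E d)) : Measure (E d) :=
  (volume K)⁻¹ • (volume.restrict K)

/-- `T` is a quadratic optimal transport map from `ρ` to `μ`: a Borel map with `T_# ρ = μ`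
that minimises `∫ |x - T x|^2 dρ` among all Borel maps pushing `ρ` to `μ`. -/
def IsOTMap {d : ℕ} (ρ μ : Measure (E d)) (T : E d → E d) : Prop :=
  Measurable T ∧ Measure.map T ρ = μ ∧
    ∀ S : E d → E d, Measurable S → Measure.map S ρ = μ →
      ∫⁻ x, ‖x - T x‖ₑ ^ 2 ∂ρ ≤ ∫⁻ x, ‖x - S x‖ₑ ^ 2 ∂ρ

/-- The Wasserstein distance of order two, with values in `[0,∞]`:
the infimum over couplings `π` of `μ` and `ν` of `(∫ |y - z|^2 dπ)^(1/2)`. -/
noncomputable def W2 {d : ℕ} (μ ν : Measure (E d)) : ℝ≥0∞ :=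
  ⨅ π : {π : Measure (E d × E d) // Measure.map Prod.fst π = μ ∧ Measure.map Prod.snd π = ν},
    (∫⁻ p, ‖p.1 - p.2‖ₑ ^ 2 ∂(π : Measure (E d × E d))) ^ (1 / 2 : ℝ)

/-- `α` is an admissible stability exponent in dimension `d`. -/
def Admissible (d : ℕ) (α : ℝ) : Prop :=
  0 < α ∧ α ≤ 1 ∧
    ∀ K : Set (E d), IsCompact K → Convex ℝ K → (interior K).Nonempty →
      ∀ Y : Set (E d), IsCompact Y → Y.Nonempty →
        ∃ C : ℝ≥0, ∀ μ ν : Measure (E d), IsProbabilityMeasure μ → IsProbabilityMeasure ν →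
          μ Yᶜ = 0 → ν Yᶜ = 0 →
          ∀ T S : E d → E d, IsOTMap (unif K) μ T → IsOTMap (unif K) ν S →
            eLpNorm (fun x => T x - S x) 2 (unif K) ≤ C * (W2 μ ν) ^ α

end Vale.Agent.OT
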