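import Vale.Agent.OT.Core

/-!
A Gagliardo-Nirenberg type estimate for subgradients of convex functions.
-/

open MeasureTheory Set Filter
open scoped ENNReal NNReal RealInnerProductSpace

namespace Vale.Agent.OT

variable {d : ℕ}

/-- Points of `K` whose translate by `h` stays in `K`. -/
def sh (K : Set (E d)) (h : E d) : Set (E d) := {x | x ∈ K ∧ x + h ∈ K}

theorem sh_subset (K : Set (E d)) (h : E d) : sh K h ⊆ K := fun _ hx => hx.1

theorem measurableSet_sh {K : Set (E d)} (hK : MeasurableSet K) (h : E d) :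
    MeasurableSet (sh K h) :=
  hK.inter ((measurable_add_const h) hK)

theorem preimage_sh_neg (K : Set (E d)) (h : E d) :
    (fun x => x + h) ⁻¹' (sh K (-h)) = sh K h := by
  ext x
  simp only [sh, mem_preimage, mem_ofPred_eq, add_neg_cancel_right]
  tauto

theorem isCompact_sh {K : Set (E d)} (hK : IsCompact K) (h : E d) : IsCompact (sh K h) := by
  have : IsClosed ((fun x : E d => x + h) ⁻¹' K) :=
    hK.isClosed.preimage (continuous_id.add continuous_const)
  exact hK.inter_right this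

theorem volume_diff_sh {K : Set (E d)} (hK : IsCompact K) (hKc : Convex ℝ K)
    (hKi : (interior K).Nonempty) :
    ∃ C1 r : ℝ, 0 ≤ C1 ∧ 0 < r ∧
      ∀ h : E d, ‖h‖ ≤ r → volume.real (K \ sh K h) ≤ C1 * ‖h‖ := by
  obtain ⟨x0, hx0⟩ := hKi
  obtain ⟨ε, hε, hball⟩ := Metric.mem_nhds_iff.1 (mem_interior_iff_mem_nhds.1 hx0)
  have hx0K : x0 ∈ K := interior_subset hx0
  refine ⟨d * volume.real K / (ε / 2), ε / 2, by positivity, by positivity, ?_⟩
  intro h hh
  have hKt : volume K ≠ ∞ := hK.measure_lt_top.ne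
  by_cases hh0 : h = 0
  · subst hh0
    have : K \ sh K 0 = ∅ := by
      ext x; simp [sh]
    rw [this]; simp
  have hnorm : 0 < ‖h‖ := norm_pos_iff.2 hh0
  set s := ‖h‖ / (ε / 2) with hs
  have hs0 : 0 < s := by positivity
  have hs1 : s ≤ 1 := by rw [hs, div_le_one (by positivity)]; exact hh
  have hsub : AffineMap.homothety x0 (1 - s) '' K ⊆ sh K h := by
    rintro _ ⟨k, hk, rfl⟩
    have e1 : AffineMap.homothety x0 (1 - s) k = (1 - s) • k + s • x0 := by
      rw [AffineMap.homothety_apply]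
      simp only [vsub_eq_sub, vadd_eq_add]
      module
    refine ⟨?_, ?_⟩
    · rw [e1]
      exact hKc hk hx0K (by linarith) hs0.le (by ring)
    · have e2 : AffineMap.homothety x0 (1 - s) k + h = (1 - s) • k + s • (x0 + s⁻¹ • h) := by
        rw [e1, smul_add, smul_smul, mul_inv_cancel₀ hs0.ne', one_smul, add_assoc]
      rw [e2]
      refine hKc hk ?_ (by linarith) hs0.le (by ring)
      apply hball
      rw [Metric.mem_ball, dist_eq_norm, add_sub_cancel_left, norm_smul, norm_inv,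
        Real.norm_of_nonneg hs0.le, hs]
      have : (‖h‖ / (ε / 2))⁻¹ * ‖h‖ = ε / 2 := by field_simp
      rw [this]; linarith
  have hvol : (1 - s) ^ d * volume.real K ≤ volume.real (sh K h) := by
    have h1 : volume.real (AffineMap.homothety x0 (1 - s) '' K) ≤ volume.real (sh K h) :=
      measureReal_mono hsub (ne_top_of_le_ne_top hKt (measure_mono (sh_subset K h)))
    refine le_trans (le_of_eq ?_) h1
    rw [Measure.real, Measure.real, Measure.addHaar_image_homothety, ENNReal.toReal_mul,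
      ENNReal.toReal_ofReal (abs_nonneg _), finrank_euclideanSpace_fin,
      abs_of_nonneg (pow_nonneg (by linarith) d)]
  have hdiff : volume.real (K \ sh K h) = volume.real K - volume.real (sh K h) :=
    measureReal_sdiff (sh_subset K h) (measurableSet_sh hK.measurableSet h) hKt
  have hbern : 1 - d * s ≤ (1 - s) ^ d := by
    have := one_add_mul_le_pow (a := -s) (by linarith) d
    calc 1 - d * s = 1 + d * -s := by ring
      _ ≤ (1 + -s) ^ d := this
      _ = (1 - s) ^ d := by ring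
  have hK0 : 0 ≤ volume.real K := measureReal_nonneg
  calc volume.real (K \ sh K h) ≤ volume.real K - (1 - s) ^ d * volume.real K := by
        rw [hdiff]; linarith
    _ ≤ volume.real K - (1 - d * s) * volume.real K := by
        have := mul_le_mul_of_nonneg_right hbern hK0
        linarith
    _ = d * volume.real K / (ε / 2) * ‖h‖ := by rw [hs]; ring

/-- The increment integral of the transport map in the direction `h` is of second order. -/
theorem inc_le {K : Set (E d)} (hK : IsCompact K) {R : ℝ} (hR : 0 ≤ R) {T : E d → E d}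
    (hT : Measurable T) (hTR : ∀ᵐ x ∂(volume.restrict K), ‖T x‖ ≤ R) (h : E d) {C1 : ℝ}
    (hC : volume.real (K \ sh K h) ≤ C1 * ‖h‖)
    (hC' : volume.real (K \ sh K (-h)) ≤ C1 * ‖h‖) :
    IntegrableOn (fun x => ⟪T x, h⟫) K ∧
    IntegrableOn (fun x => ⟪T (x + h), h⟫) (sh K h) ∧
    ∫ x in sh K h, (⟪T (x + h), h⟫ - ⟪T x, h⟫) ≤ 2 * R * C1 * ‖h‖ ^ 2 := by
  have hKm := hK.measurableSet
  have hKt : volume K ≠ ∞ := hK.measure_lt_top.ne
  have hφm : Measurable (fun x => (⟪T x, h⟫ : ℝ)) := hT.inner measurable_const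
  have hφb : ∀ᵐ x ∂(volume.restrict K), ‖(⟪T x, h⟫ : ℝ)‖ ≤ R * ‖h‖ := by
    filter_upwards [hTR] with x hx
    calc ‖(⟪T x, h⟫ : ℝ)‖ ≤ ‖T x‖ * ‖h‖ := norm_inner_le_norm _ _
      _ ≤ R * ‖h‖ := by gcongr
  have hφi : IntegrableOn (fun x => (⟪T x, h⟫ : ℝ)) K :=
    IntegrableOn.of_bound hK.measure_lt_top hφm.aestronglyMeasurable _ hφb
  have hmp := measurePreserving_add_right (volume : Measure (E d)) h
  have hemb : MeasurableEmbedding (fun x : E d => x + h) := measurableEmbedding_addRight h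
  have hφi' : IntegrableOn (fun x => (⟪T (x + h), h⟫ : ℝ)) (sh K h) := by
    have := (hmp.integrableOn_comp_preimage hemb (f := fun x => (⟪T x, h⟫ : ℝ))
      (s := sh K (-h))).2 (hφi.mono_set (sh_subset K (-h)))
    rwa [preimage_sh_neg] at this
  refine ⟨hφi, hφi', ?_⟩
  rw [integral_sub hφi' (hφi.mono_set (sh_subset K h))]
  have h1 : ∫ x in sh K h, (⟪T (x + h), h⟫ : ℝ) = ∫ x in sh K (-h), (⟪T x, h⟫ : ℝ) := by
    have := hmp.setIntegral_preimage_emb hemb (fun x => (⟪T x, h⟫ : ℝ)) (sh K (-h))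
    rwa [preimage_sh_neg] at this
  have hsplit : ∀ g : E d, ∫ x in sh K g, (⟪T x, h⟫ : ℝ)
      = (∫ x in K, (⟪T x, h⟫ : ℝ)) - ∫ x in K \ sh K g, (⟪T x, h⟫ : ℝ) := by
    intro g
    have := integral_inter_add_sdiff (μ := volume) (measurableSet_sh hKm g) hφi
    rw [inter_eq_self_of_subset_right (sh_subset K g)] at this
    linarith
  have hsmall : ∀ g : E d, volume.real (K \ sh K g) ≤ C1 * ‖h‖ →
      |∫ x in K \ sh K g, (⟪T x, h⟫ : ℝ)| ≤ R * ‖h‖ * (C1 * ‖h‖) := by
    intro g hg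
    have hlt : volume (K \ sh K g) < ∞ :=
      lt_of_le_of_lt (measure_mono sdiff_subset) hK.measure_lt_top
    have h2 : ‖∫ x in K \ sh K g, (⟪T x, h⟫ : ℝ)‖ ≤ R * ‖h‖ * volume.real (K \ sh K g) := by
      apply norm_setIntegral_le_of_norm_le_const_ae hlt
      exact ae_restrict_of_ae_restrict_of_subset sdiff_subset hφb
    rw [Real.norm_eq_abs] at h2
    refine le_trans h2 ?_
    gcongr
  rw [h1, hsplit h, hsplit (-h)]
  have a1 := abs_le.1 (hsmall h hC)
  have a2 := abs_le.1 (hsmall (-h) hC')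
  nlinarith [a1.1, a1.2, a2.1, a2.2]

/-- The estimate in one direction. -/
theorem dir_estimate {K : Set (E d)} (hK : IsCompact K) {R : ℝ} (hR : 0 ≤ R)
    {u v : E d → ℝ} {T S : E d → E d} (hT : Measurable T) (hS : Measurable S)
    (hu : ContinuousOn u K) (hv : ContinuousOn v K)
    (hTR : ∀ᵐ x ∂(volume.restrict K), ‖T x‖ ≤ R) (hSR : ∀ᵐ x ∂(volume.restrict K), ‖S x‖ ≤ R)
    (hTu : SubgradAE K u T) (hSv : SubgradAE K v S) (c : ℝ) (h : E d) {C1 : ℝ}
    (hC : volume.real (K \ sh K h) ≤ C1 * ‖h‖)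
    (hC' : volume.real (K \ sh K (-h)) ≤ C1 * ‖h‖) :
    ∫ x in sh K h, (⟪T x - S x, h⟫ : ℝ) ^ 2
      ≤ 12 * (∫ x in K, (u x - v x - c) ^ 2) + 24 * R ^ 2 * C1 * ‖h‖ ^ 3 := by
  have hKm := hK.measurableSet
  obtain ⟨hTi, hTi', hTinc⟩ := inc_le hK hR hT hTR h hC hC'
  obtain ⟨hSi, hSi', hSinc⟩ := inc_le hK hR hS hSR h hC hC'
  set W : E d → ℝ := fun x => u x - v x - c with hW
  have hWc : ContinuousOn W K := (hu.sub hv).sub continuousOn_const
  have hmp := measurePreserving_add_right (volume : Measure (E d)) h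
  have hemb : MeasurableEmbedding (fun x : E d => x + h) := measurableEmbedding_addRight h
  -- good points
  have hgood : ∀ᵐ x ∂(volume : Measure (E d)), x ∈ K → (‖T x‖ ≤ R ∧ ‖S x‖ ≤ R ∧
      (∀ x' ∈ K, u x + ⟪T x, x' - x⟫ ≤ u x') ∧ (∀ x' ∈ K, v x + ⟪S x, x' - x⟫ ≤ v x')) := by
    have h1 := (ae_restrict_iff' hKm).1 hTR
    have h2 := (ae_restrict_iff' hKm).1 hSR
    have h3 := (ae_restrict_iff' hKm).1 hTu
    have h4 := (ae_restrict_iff' hKm).1 hSv
    filter_upwards [h1, h2, h3, h4] with x a b c d hx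
    exact ⟨a hx, b hx, c hx, d hx⟩
  have hgood' := hmp.quasiMeasurePreserving.ae hgood
  -- pointwise inequality
  have hpt : ∀ᵐ x ∂(volume : Measure (E d)), x ∈ sh K h →
      (⟪T x - S x, h⟫ : ℝ) ^ 2 ≤ 3 * (W (x + h) - W x) ^ 2
        + 6 * R * ‖h‖ * ((⟪T (x + h), h⟫ - ⟪T x, h⟫) + (⟪S (x + h), h⟫ - ⟪S x, h⟫)) := by
    filter_upwards [hgood, hgood'] with x hx hx' hxs
    obtain ⟨t1, s1, tu1, sv1⟩ := hx hxs.1
    obtain ⟨t2, s2, tu2, sv2⟩ := hx' hxs.2
    have A1 := tu1 (x + h) hxs.2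
    have A2 := tu2 x hxs.1
    have B1 := sv1 (x + h) hxs.2
    have B2 := sv2 x hxs.1
    have e1 : x + h - x = h := by abel
    have e2 : x - (x + h) = -h := by abel
    rw [e1] at A1 B1
    rw [e2, inner_neg_right] at A2 B2
    set p := (⟪T x, h⟫ : ℝ) with hp
    set p' := (⟪T (x + h), h⟫ : ℝ) with hp'
    set q := (⟪S x, h⟫ : ℝ) with hq
    set q' := (⟪S (x + h), h⟫ : ℝ) with hq'
    have ep : (⟪T x - S x, h⟫ : ℝ) = p - q := by rw [inner_sub_left]
    rw [ep]
    have bT1 : |p| ≤ R * ‖h‖ := le_trans (abs_real_inner_le_norm _ _) (by gcongr)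
    have bT2 : |p'| ≤ R * ‖h‖ := le_trans (abs_real_inner_le_norm _ _) (by gcongr)
    have bS1 : |q| ≤ R * ‖h‖ := le_trans (abs_real_inner_le_norm _ _) (by gcongr)
    have bS2 : |q'| ≤ R * ‖h‖ := le_trans (abs_real_inner_le_norm _ _) (by gcongr)
    have hWd : W (x + h) - W x = (u (x + h) - u x) - (v (x + h) - v x) := by
      rw [hW]; ring
    set D := W (x + h) - W x with hD
    have a0 : 0 ≤ p' - p := by linarith
    have b0 : 0 ≤ q' - q := by linarith
    have a2 : p' - p ≤ 2 * (R * ‖h‖) := by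
      have := abs_le.1 bT1; have := abs_le.1 bT2; linarith
    have b2 : q' - q ≤ 2 * (R * ‖h‖) := by
      have := abs_le.1 bS1; have := abs_le.1 bS2; linarith
    have up : p - q ≤ D + (q' - q) := by linarith
    have lo : -(p - q) ≤ -D + (p' - p) := by linarith
    have habs : |p - q| ≤ |D| + (p' - p) + (q' - q) := by
      rw [abs_le]
      constructor
      · have := neg_abs_le D; have := le_abs_self D; linarith
      · have := le_abs_self D; linarith
    have hsq : (p - q) ^ 2 ≤ (|D| + (p' - p) + (q' - q)) ^ 2 := by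
      rw [← sq_abs (p - q)]
      exact pow_le_pow_left₀ (abs_nonneg _) habs 2
    have h3 : (|D| + (p' - p) + (q' - q)) ^ 2
        ≤ 3 * D ^ 2 + 3 * (p' - p) ^ 2 + 3 * (q' - q) ^ 2 := by
      rw [← sq_abs D]
      nlinarith [sq_nonneg (|D| - (p' - p)), sq_nonneg (|D| - (q' - q)),
        sq_nonneg ((p' - p) - (q' - q))]
    have h4 : (p' - p) ^ 2 ≤ 2 * (R * ‖h‖) * (p' - p) := by
      rw [pow_two]; exact mul_le_mul_of_nonneg_right a2 a0
    have h5 : (q' - q) ^ 2 ≤ 2 * (R * ‖h‖) * (q' - q) := by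
      rw [pow_two]; exact mul_le_mul_of_nonneg_right b2 b0
    calc (p - q) ^ 2 ≤ 3 * D ^ 2 + 3 * (p' - p) ^ 2 + 3 * (q' - q) ^ 2 := le_trans hsq h3
      _ ≤ 3 * D ^ 2 + 3 * (2 * (R * ‖h‖) * (p' - p)) + 3 * (2 * (R * ‖h‖) * (q' - q)) := by
          linarith
      _ = _ := by ring
  -- integrability
  have hshc := isCompact_sh hK h
  have hshm := measurableSet_sh hKm h
  have hmaps : MapsTo (fun x => x + h) (sh K h) K := fun x hx => hx.2
  have hWs : ContinuousOn (fun x => W (x + h)) (sh K h) :=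
    hWc.comp (continuous_id.add continuous_const).continuousOn hmaps
  have hWd_int : IntegrableOn (fun x => 3 * (W (x + h) - W x) ^ 2) (sh K h) := by
    refine ContinuousOn.integrableOn_compact hshc ?_
    exact continuousOn_const.mul ((hWs.sub (hWc.mono (sh_subset K h))).pow 2)
  have hW2K : IntegrableOn (fun x => (W x) ^ 2) K :=
    (hWc.pow 2).integrableOn_compact hK
  have hTd : IntegrableOn (fun x => (⟪T (x + h), h⟫ - ⟪T x, h⟫ : ℝ)) (sh K h) :=
    hTi'.sub (hTi.mono_set (sh_subset K h))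
  have hSd : IntegrableOn (fun x => (⟪S (x + h), h⟫ - ⟪S x, h⟫ : ℝ)) (sh K h) :=
    hSi'.sub (hSi.mono_set (sh_subset K h))
  have hsum : IntegrableOn (fun x => 6 * R * ‖h‖ *
      ((⟪T (x + h), h⟫ - ⟪T x, h⟫) + (⟪S (x + h), h⟫ - ⟪S x, h⟫) : ℝ)) (sh K h) :=
    (hTd.add hSd).const_mul _
  have hlhs : IntegrableOn (fun x => (⟪T x - S x, h⟫ : ℝ) ^ 2) (sh K h) := by
    have hm : Measurable (fun x => (⟪T x - S x, h⟫ : ℝ) ^ 2) :=
      ((hT.sub hS).inner measurable_const).pow_const 2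
    refine IntegrableOn.of_bound (hshc.measure_lt_top) hm.aestronglyMeasurable
      ((2 * R * ‖h‖) ^ 2) ?_
    rw [ae_restrict_iff' hshm]
    filter_upwards [hgood] with x hx hxs
    obtain ⟨t1, s1, -, -⟩ := hx hxs.1
    rw [Real.norm_eq_abs, abs_of_nonneg (sq_nonneg _), ← sq_abs]
    refine pow_le_pow_left₀ (abs_nonneg _) ?_ 2
    calc |(⟪T x - S x, h⟫ : ℝ)| ≤ ‖T x - S x‖ * ‖h‖ := abs_real_inner_le_norm _ _
      _ ≤ (‖T x‖ + ‖S x‖) * ‖h‖ := by gcongr; exact norm_sub_le _ _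
      _ ≤ (R + R) * ‖h‖ := by gcongr
      _ = 2 * R * ‖h‖ := by ring
  have hmain : ∫ x in sh K h, (⟪T x - S x, h⟫ : ℝ) ^ 2
      ≤ ∫ x in sh K h, (3 * (W (x + h) - W x) ^ 2 + 6 * R * ‖h‖ *
      ((⟪T (x + h), h⟫ - ⟪T x, h⟫) + (⟪S (x + h), h⟫ - ⟪S x, h⟫))) :=
    setIntegral_mono_on_ae hlhs (hWd_int.add hsum) hshm hpt
  refine le_trans hmain ?_
  rw [integral_add hWd_int hsum, integral_const_mul, integral_const_mul,
    integral_add hTd hSd]
  -- the W part
  have hWshift : ∫ x in sh K h, (W (x + h)) ^ 2 = ∫ x in sh K (-h), (W x) ^ 2 := by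
    have := hmp.setIntegral_preimage_emb hemb (fun x => (W x) ^ 2) (sh K (-h))
    rwa [preimage_sh_neg] at this
  have hle : ∀ g : E d, ∫ x in sh K g, (W x) ^ 2 ≤ ∫ x in K, (W x) ^ 2 := by
    intro g
    apply setIntegral_mono_set hW2K
    · exact Eventually.of_forall fun x => sq_nonneg _
    · exact (sh_subset K g).eventuallyLE
  have hW1 : IntegrableOn (fun x => (W (x + h)) ^ 2) (sh K h) :=
    (hWs.pow 2).integrableOn_compact hshc
  have hW2 : IntegrableOn (fun x => (W x) ^ 2) (sh K h) := hW2K.mono_set (sh_subset K h)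
  have hWpart : ∫ x in sh K h, (W (x + h) - W x) ^ 2 ≤ 4 * ∫ x in K, (W x) ^ 2 := by
    have h1 : ∫ x in sh K h, (W (x + h) - W x) ^ 2
        ≤ ∫ x in sh K h, (2 * (W (x + h)) ^ 2 + 2 * (W x) ^ 2) := by
      apply setIntegral_mono_on
      · refine ContinuousOn.integrableOn_compact hshc ?_
        exact (hWs.sub (hWc.mono (sh_subset K h))).pow 2
      · exact (hW1.const_mul 2).add (hW2.const_mul 2)
      · exact hshm
      · intro x _
        nlinarith [sq_nonneg (W (x + h) + W x)]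
    refine le_trans h1 ?_
    rw [integral_add (hW1.const_mul 2) (hW2.const_mul 2), integral_const_mul,
      integral_const_mul, hWshift]
    have := hle h
    have := hle (-h)
    linarith
  have hRh : 0 ≤ 6 * R * ‖h‖ := by positivity
  have hinc : 6 * R * ‖h‖ * ((∫ x in sh K h, (⟪T (x + h), h⟫ - ⟪T x, h⟫ : ℝ))
      + ∫ x in sh K h, (⟪S (x + h), h⟫ - ⟪S x, h⟫ : ℝ))
      ≤ 6 * R * ‖h‖ * (2 * R * C1 * ‖h‖ ^ 2 + 2 * R * C1 * ‖h‖ ^ 2) :=
    mul_le_mul_of_nonneg_left (add_le_add hTinc hSinc) hRh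
  calc _ ≤ 3 * (4 * ∫ x in K, (W x) ^ 2)
        + 6 * R * ‖h‖ * (2 * R * C1 * ‖h‖ ^ 2 + 2 * R * C1 * ‖h‖ ^ 2) := by
        linarith
    _ = _ := by ring

/-- **Gagliardo-Nirenberg type estimate** for subgradients. -/
theorem gn_estimate {K : Set (E d)} (hK : IsCompact K) (hKc : Convex ℝ K)
    (hKi : (interior K).Nonempty) {R : ℝ} (hR : 0 ≤ R) :
    ∃ C : ℝ, 0 ≤ C ∧ ∀ (u v : E d → ℝ) (T S : E d → E d), Measurable T → Measurable S →
      ContinuousOn u K → ContinuousOn v K →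
      (∀ᵐ x ∂(volume.restrict K), ‖T x‖ ≤ R) → (∀ᵐ x ∂(volume.restrict K), ‖S x‖ ≤ R) →
      SubgradAE K u T → SubgradAE K v S → ∀ c : ℝ,
      ∫ x in K, ‖T x - S x‖ ^ 2 ≤ C * (∫ x in K, (u x - v x - c) ^ 2) ^ (1 / 3 : ℝ) := by
  obtain ⟨C1, r, hC1, hr, hvol⟩ := volume_diff_sh hK hKc hKi
  have hKm := hK.measurableSet
  have hV0 : 0 ≤ volume.real K := measureReal_nonneg
  set A : ℝ := d * (12 + 28 * R ^ 2 * C1) with hA
  set B : ℝ := 4 * R ^ 2 * volume.real K / r with hB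
  have hA0 : 0 ≤ A := by positivity
  have hB0 : 0 ≤ B := by positivity
  refine ⟨A + B, by positivity, ?_⟩
  intro u v T S hT hS hu hv hTR hSR hTu hSv c
  set I := ∫ x in K, (u x - v x - c) ^ 2 with hI
  have hI0 : 0 ≤ I := by
    rw [hI]; exact setIntegral_nonneg hKm fun x _ => sq_nonneg _
  -- bound on `T - S`
  have hb : ∀ᵐ x ∂(volume.restrict K), ‖T x - S x‖ ≤ 2 * R := by
    filter_upwards [hTR, hSR] with x a b
    calc ‖T x - S x‖ ≤ ‖T x‖ + ‖S x‖ := norm_sub_le _ _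
      _ ≤ 2 * R := by linarith
  have hmeasj : ∀ j : Fin d, Measurable (fun x => ((T x - S x) j) ^ 2) := by
    intro j
    have hc : Measurable (fun y : E d => y j) :=
      (EuclideanSpace.proj (𝕜 := ℝ) j : E d →L[ℝ] ℝ).continuous.measurable
    exact (hc.comp (hT.sub hS)).pow_const 2
  have hbj : ∀ j : Fin d, ∀ᵐ x ∂(volume.restrict K), ‖((T x - S x) j) ^ 2‖ ≤ (2 * R) ^ 2 := by
    intro j
    filter_upwards [hb] with x hx
    rw [Real.norm_eq_abs, abs_of_nonneg (sq_nonneg _), ← sq_abs]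
    refine pow_le_pow_left₀ (abs_nonneg _) (le_trans ?_ hx) 2
    have := PiLp.norm_apply_le (T x - S x) j
    simpa using this
  have hintj : ∀ j : Fin d, IntegrableOn (fun x => ((T x - S x) j) ^ 2) K := fun j =>
    IntegrableOn.of_bound hK.measure_lt_top (hmeasj j).aestronglyMeasurable _ (hbj j)
  have hsum : ∫ x in K, ‖T x - S x‖ ^ 2 = ∑ j : Fin d, ∫ x in K, ((T x - S x) j) ^ 2 := by
    rw [← integral_finsetSum _ fun j _ => hintj j]
    congr 1
    ext x
    rw [EuclideanSpace.norm_sq_eq]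
    simp
  -- trivial bound
  have htriv : ∫ x in K, ‖T x - S x‖ ^ 2 ≤ 4 * R ^ 2 * volume.real K := by
    have h1 : ‖∫ x in K, ‖T x - S x‖ ^ 2‖ ≤ (2 * R) ^ 2 * volume.real K := by
      apply norm_setIntegral_le_of_norm_le_const_ae hK.measure_lt_top
      filter_upwards [hb] with x hx
      rw [Real.norm_eq_abs, abs_of_nonneg (sq_nonneg _)]
      exact pow_le_pow_left₀ (norm_nonneg _) hx 2
    refine le_trans (le_trans (le_abs_self _) h1) (le_of_eq (by ring))
  -- one direction, one step size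
  have hdir : ∀ τ : ℝ, 0 < τ → τ ≤ r → ∀ j : Fin d,
      ∫ x in K, ((T x - S x) j) ^ 2 ≤ 12 * I / τ ^ 2 + 28 * R ^ 2 * C1 * τ := by
    intro τ hτ hτr j
    set h : E d := EuclideanSpace.single j τ with hh
    have hn : ‖h‖ = τ := by rw [hh]; simp [abs_of_pos hτ]
    have hn' : ‖-h‖ = τ := by rw [norm_neg, hn]
    have v1 := hvol h (by rw [hn]; exact hτr)
    have v2 := hvol (-h) (by rw [hn']; exact hτr)
    rw [hn'] at v2
    have v2' : volume.real (K \ sh K (-h)) ≤ C1 * ‖h‖ := by rw [hn]; exact v2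
    have key := dir_estimate hK hR hT hS hu hv hTR hSR hTu hSv c h v1 v2'
    rw [hn] at key v1
    have hin : ∀ x, (⟪T x - S x, h⟫ : ℝ) ^ 2 = τ ^ 2 * ((T x - S x) j) ^ 2 := by
      intro x
      have : (⟪T x - S x, h⟫ : ℝ) = τ * (T x - S x) j := by
        rw [hh, real_inner_comm]
        simp [EuclideanSpace.inner_single_left]
      rw [this]; ring
    simp only [hin] at key
    rw [integral_const_mul] at key
    have hτ2 : 0 < τ ^ 2 := by positivity
    have key2 : ∫ x in sh K h, ((T x - S x) j) ^ 2 ≤ 12 * I / τ ^ 2 + 24 * R ^ 2 * C1 * τ := by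
      have : ∫ x in sh K h, ((T x - S x) j) ^ 2
          ≤ (12 * I + 24 * R ^ 2 * C1 * τ ^ 3) / τ ^ 2 := by
        rw [le_div_iff₀ hτ2, mul_comm]
        exact key
      refine le_trans this (le_of_eq ?_)
      field_simp
    have hrest : ∫ x in K \ sh K h, ((T x - S x) j) ^ 2 ≤ 4 * R ^ 2 * (C1 * τ) := by
      have hlt : volume (K \ sh K h) < ∞ :=
        lt_of_le_of_lt (measure_mono sdiff_subset) hK.measure_lt_top
      have h2 : ‖∫ x in K \ sh K h, ((T x - S x) j) ^ 2‖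
          ≤ (2 * R) ^ 2 * volume.real (K \ sh K h) := by
        apply norm_setIntegral_le_of_norm_le_const_ae hlt
        exact ae_restrict_of_ae_restrict_of_subset sdiff_subset (hbj j)
      refine le_trans (le_trans (le_abs_self _) h2) ?_
      calc (2 * R) ^ 2 * volume.real (K \ sh K h) ≤ (2 * R) ^ 2 * (C1 * τ) := by gcongr
        _ = _ := by ring
    have hsplit := integral_inter_add_sdiff (μ := volume) (measurableSet_sh hKm h) (hintj j)
    rw [inter_eq_self_of_subset_right (sh_subset K h)] at hsplit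
    rw [← hsplit]
    calc _ ≤ (12 * I / τ ^ 2 + 24 * R ^ 2 * C1 * τ) + 4 * R ^ 2 * (C1 * τ) :=
          add_le_add key2 hrest
      _ = _ := by ring
  have htot : ∀ τ : ℝ, 0 < τ → τ ≤ r →
      ∫ x in K, ‖T x - S x‖ ^ 2 ≤ d * (12 * I / τ ^ 2 + 28 * R ^ 2 * C1 * τ) := by
    intro τ hτ hτr
    rw [hsum]
    calc ∑ j : Fin d, ∫ x in K, ((T x - S x) j) ^ 2
        ≤ ∑ _j : Fin d, (12 * I / τ ^ 2 + 28 * R ^ 2 * C1 * τ) :=
          Finset.sum_le_sum fun j _ => hdir τ hτ hτr j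
      _ = _ := by rw [Finset.sum_const, Finset.card_univ, Fintype.card_fin, nsmul_eq_mul]
  by_cases hIz : I = 0
  · -- let `τ → 0`
    rw [hIz, Real.zero_rpow (by norm_num), mul_zero]
    have h0 : ∀ τ : ℝ, 0 < τ → τ ≤ r →
        ∫ x in K, ‖T x - S x‖ ^ 2 ≤ (d * (28 * R ^ 2 * C1)) * τ := by
      intro τ hτ hτr
      have := htot τ hτ hτr
      rw [hIz] at this
      refine le_trans this (le_of_eq (by ring))
    refine le_of_forall_pos_le_add fun ε hε => ?_
    set Q : ℝ := d * (28 * R ^ 2 * C1) with hQ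
    have hQ0 : 0 ≤ Q := by positivity
    have hτpos : 0 < min r (ε / (Q + 1)) := lt_min hr (by positivity)
    refine le_trans (h0 _ hτpos (min_le_left _ _)) ?_
    have : Q * min r (ε / (Q + 1)) ≤ Q * (ε / (Q + 1)) := by
      gcongr; exact min_le_right _ _
    refine le_trans this ?_
    rw [zero_add]
    rw [mul_div_assoc', div_le_iff₀ (by positivity)]
    nlinarith
  have hIpos : 0 < I := lt_of_le_of_ne hI0 (Ne.symm hIz)
  set τ := I ^ (1 / 3 : ℝ) with hτ
  have hτpos : 0 < τ := Real.rpow_pos_of_pos hIpos _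
  have hτ3 : τ ^ 3 = I := by
    rw [hτ, ← Real.rpow_natCast, ← Real.rpow_mul hI0]
    norm_num
  by_cases hcase : τ ≤ r
  · have := htot τ hτpos hcase
    refine le_trans this ?_
    have e : 12 * I / τ ^ 2 = 12 * τ := by
      rw [← hτ3]; field_simp
    rw [e]
    calc d * (12 * τ + 28 * R ^ 2 * C1 * τ) = A * τ := by rw [hA]; ring
      _ ≤ (A + B) * τ := by gcongr; linarith
  · have hgt : r < τ := not_le.1 hcase
    refine le_trans htriv ?_
    calc 4 * R ^ 2 * volume.real K = B * r := by rw [hB]; field_simp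
      _ ≤ B * τ := by gcongr
      _ ≤ (A + B) * τ := by gcongr; linarith

end Vale.Agent.OT
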