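import Vale.Agent.OT.Core

open MeasureTheory Filter Topology
open scoped ENNReal NNReal RealInnerProductSpace

namespace Vale.Agent.OT

variable {d : ℕ}

/-- `x` is a good point for `u` and `T`. -/
def Good (K : Set (E d)) (R : ℝ) (u v : E d → ℝ) (T : E d → E d) (x : E d) : Prop :=
  ‖T x‖ ≤ R ∧ (∀ x' ∈ K, u x + ⟪T x, x' - x⟫ ≤ u x') ∧ (∀ x' ∈ K, v x + ⟪T x, x' - x⟫ ≤ v x')

lemma tele_diff {K : Set (E d)} {R : ℝ} {u v : E d → ℝ} {T : E d → E d} {x h : E d} {k : ℕ}
    (hk : 0 < k) (hin : ∀ j ≤ k, x + ((j : ℝ) / k) • h ∈ K)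
    (hgood : ∀ j ≤ k, Good K R u v T (x + ((j : ℝ) / k) • h)) :
    (u (x + h) - v (x + h)) - (u x - v x) ≤ 2 * R * ‖h‖ / k := by
  have hk' : (0 : ℝ) < k := by exact_mod_cast hk
  set p : ℕ → E d := fun j => x + ((j : ℝ) / k) • h with hp
  have hpd : ∀ j, p (j + 1) - p j = (1 / (k : ℝ)) • h := by
    intro j
    simp only [hp]
    rw [add_sub_add_left_eq_sub, ← sub_smul]
    congr 1
    push_cast
    field_simp
    ring
  have hp0 : p 0 = x := by simp [hp]
  have hpk : p k = x + h := by simp only [hp]; rw [div_self hk'.ne', one_smul]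
  have step : ∀ j < k, (u (p (j + 1)) - v (p (j + 1))) - (u (p j) - v (p j)) ≤
      (1 / (k : ℝ)) * (⟪T (p (j + 1)), h⟫ - ⟪T (p j), h⟫) := by
    intro j hj
    have h1 := (hgood (j + 1) hj).2.1 (p j) (hin j hj.le)
    have h2 := (hgood j hj.le).2.2 (p (j + 1)) (hin (j + 1) hj)
    have e1 : p j - p (j + 1) = -((1 / (k : ℝ)) • h) := by rw [← hpd j]; abel
    change u (p (j + 1)) + ⟪T (p (j + 1)), p j - p (j + 1)⟫ ≤ u (p j) at h1
    change v (p j) + ⟪T (p j), p (j + 1) - p j⟫ ≤ v (p (j + 1)) at h2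
    rw [e1, inner_neg_right, inner_smul_right] at h1
    rw [hpd, inner_smul_right] at h2
    linarith
  have hsum : ∑ j ∈ Finset.range k, ((u (p (j + 1)) - v (p (j + 1))) - (u (p j) - v (p j))) ≤
      ∑ j ∈ Finset.range k, (1 / (k : ℝ)) * (⟪T (p (j + 1)), h⟫ - ⟪T (p j), h⟫) :=
    Finset.sum_le_sum fun j hj => step j (Finset.mem_range.1 hj)
  rw [Finset.sum_range_sub (fun j => u (p j) - v (p j)), ← Finset.mul_sum,
    Finset.sum_range_sub (fun j => ⟪T (p j), h⟫), hp0, hpk] at hsum
  refine hsum.trans ?_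
  have g1 : ⟪T (x + h), h⟫ ≤ R * ‖h‖ := by
    have := (hgood k le_rfl).1
    change ‖T (p k)‖ ≤ R at this
    rw [hpk] at this
    exact (real_inner_le_norm _ _).trans (by gcongr)
  have g2 : -⟪T x, h⟫ ≤ R * ‖h‖ := by
    have := (hgood 0 (Nat.zero_le _)).1
    change ‖T (p 0)‖ ≤ R at this
    rw [hp0] at this
    rw [← inner_neg_right]
    refine (real_inner_le_norm _ _).trans ?_
    rw [norm_neg]
    gcongr
  rw [one_div, inv_mul_eq_div]
  gcongr
  linarith

lemma ae_shift_eq {K : Set (E d)} (hKm : MeasurableSet K) (hKc : Convex ℝ K) {R : ℝ}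
    {u v : E d → ℝ} {T : E d → E d}
    (hgood : ∀ᵐ x ∂(volume.restrict K), Good K R u v T x) (h : E d) :
    ∀ᵐ x ∂(volume : Measure (E d)), x ∈ K → x + h ∈ K → u (x + h) - v (x + h) ≤ u x - v x := by
  rw [ae_restrict_iff' hKm] at hgood
  have hall : ∀ᵐ x ∂(volume : Measure (E d)), ∀ k j : ℕ,
      x + ((j : ℝ) / k) • h ∈ K → Good K R u v T (x + ((j : ℝ) / k) • h) := by
    rw [ae_all_iff]; intro k
    rw [ae_all_iff]; intro j
    exact (measurePreserving_add_right volume (((j : ℝ) / k) • h)).quasiMeasurePreserving.ae hgood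
  filter_upwards [hall] with x hx hxK hxhK
  have key : ∀ k : ℕ, 0 < k → (u (x + h) - v (x + h)) - (u x - v x) ≤ 2 * R * ‖h‖ / k := by
    intro k hk
    have hk' : (0 : ℝ) < k := by exact_mod_cast hk
    have hin : ∀ j ≤ k, x + ((j : ℝ) / k) • h ∈ K := by
      intro j hj
      have hj1 : ((j : ℝ) / k) ≤ 1 := by
        rw [div_le_one hk']; exact_mod_cast hj
      have hj0 : 0 ≤ ((j : ℝ) / k) := by positivity
      have := hKc.add_smul_mem hxK (y := h) hxhK ⟨hj0, hj1⟩
      exact this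
    exact tele_diff hk hin fun j hj => hx k j (hin j hj)
  have hlim : Tendsto (fun k : ℕ => 2 * R * ‖h‖ / (k : ℝ)) atTop (𝓝 0) :=
    tendsto_const_div_atTop_nhds_zero_nat _
  have : (u (x + h) - v (x + h)) - (u x - v x) ≤ 0 :=
    ge_of_tendsto hlim (by filter_upwards [eventually_gt_atTop 0] with k hk using key k hk)
  linarith

/-- The potential of a map is unique up to a constant. -/
theorem potential_unique {K : Set (E d)} (hK : IsCompact K) (hKc : Convex ℝ K)
    (hKi : (interior K).Nonempty) {R : ℝ} {u v : E d → ℝ} (hu : Continuous u) (hv : Continuous v)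
    {T : E d → E d} (hTb : ∀ᵐ x ∂(volume.restrict K), ‖T x‖ ≤ R) (hTu : SubgradAE K u T)
    (hTv : SubgradAE K v T) : ∃ c : ℝ, ∀ᵐ x ∂(volume.restrict K), u x - v x = c := by
  have hKm := hK.measurableSet
  have hgood : ∀ᵐ x ∂(volume.restrict K), Good K R u v T x := by
    filter_upwards [hTb, hTu, hTv] with x h1 h2 h3 using ⟨h1, h2, h3⟩
  have hgood' : ∀ᵐ x ∂(volume.restrict K), Good K R v u T x := by
    filter_upwards [hTb, hTu, hTv] with x h1 h2 h3 using ⟨h1, h3, h2⟩
  obtain ⟨x0, hx0⟩ := hKi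
  refine ⟨u x0 - v x0, ?_⟩
  have hint : ∀ x ∈ interior K, u x - v x = u x0 - v x0 := by
    intro x hx
    set h : E d := x - x0 with hh
    have hae : ∀ᵐ z ∂(volume : Measure (E d)), z ∈ K → z + h ∈ K →
        u (z + h) - v (z + h) = u z - v z := by
      filter_upwards [ae_shift_eq hKm hKc hgood h, ae_shift_eq hKm hKc hgood' h] with z h1 h2 h3 h4
      have a1 := h1 h3 h4
      have a2 := h2 h3 h4
      linarith
    by_contra hne
    -- open set where equality fails
    set U : Set (E d) := {z | z ∈ interior K} ∩ {z | z + h ∈ interior K} ∩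
      {z | u (z + h) - v (z + h) ≠ u z - v z} with hU
    have hUo : IsOpen U := by
      refine (isOpen_interior.inter (isOpen_interior.preimage (by fun_prop))).inter ?_
      exact isOpen_ne_fun (by fun_prop) (by fun_prop)
    have hx0h : x0 + h = x := by rw [hh]; abel
    have hUne : U.Nonempty := by
      refine ⟨x0, ⟨hx0, ?_⟩, ?_⟩
      · change x0 + h ∈ interior K
        rw [hx0h]; exact hx
      · change u (x0 + h) - v (x0 + h) ≠ u x0 - v x0
        rw [hx0h]; exact hne
    have hpos : 0 < volume U := hUo.measure_pos volume hUne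
    have hzero : volume U = 0 := by
      rw [ae_iff] at hae
      refine measure_mono_null ?_ hae
      intro z hz
      simp only [Set.mem_ofPred_eq]
      intro hcon
      exact hz.2 (hcon (interior_subset hz.1.1) (interior_subset hz.1.2))
    exact hpos.ne' hzero
  rw [ae_restrict_iff' hKm]
  have hfr : ∀ᵐ x ∂(volume : Measure (E d)), x ∉ frontier K := by
    rw [ae_iff]
    simp only [not_not]
    exact hKc.addHaar_frontier volume
  filter_upwards [hfr] with x hx hxK
  apply hint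
  by_contra hxi
  exact hx ⟨subset_closure hxK, hxi⟩

end Vale.Agent.OT
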