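import Vale.Agent.OT.Approx2
import Vale.Agent.OT.GN
import Vale.Agent.OT.Unique

open MeasureTheory Filter Topology
open scoped ENNReal NNReal RealInnerProductSpace Gradient

namespace Vale.Agent.OT

variable {d : ℕ}

/-- Real version of the stability estimate for one coupling. -/
theorem coupling_estimate {K : Set (E d)} (hd : 1 ≤ d) (hK : IsCompact K) (hKc : Convex ℝ K)
    (hKi : (interior K).Nonempty) {Y : Set (E d)} (hY : IsCompact Y) :
    ∃ A : ℝ, 0 ≤ A ∧ ∀ (π : Measure (E d × E d)), IsProbabilityMeasure π → π (Y ×ˢ Y)ᶜ = 0 →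
      ∀ T S : E d → E d, IsOTMap (unif K) (Measure.map Prod.fst π) T →
        IsOTMap (unif K) (Measure.map Prod.snd π) S →
        ∫ x in K, ‖T x - S x‖ ^ 2 ≤ A * (∫ p, ‖p.1 - p.2‖ ^ 2 ∂π) ^ (1 / 3 : ℝ) := by
  have hKm := hK.measurableSet
  have hKfin : volume K ≠ ⊤ := hK.measure_lt_top.ne
  have hK0 : volume K ≠ 0 := 
    ((isOpen_interior.measure_pos volume hKi).trans_le (measure_mono interior_subset)).ne'
  have hvK : 0 < volume.real K := ENNReal.toReal_pos hK0 hKfin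
  obtain ⟨R, hR, hKR⟩ := hK.isBounded.subset_closedBall_lt 1 0
  obtain ⟨RY, hRY, hYR⟩ := hY.isBounded.subset_closedBall_lt 0 0
  obtain ⟨C, hC0, hGN⟩ := gn_estimate hK hKc hKi hRY.le
  refine ⟨C * (672 * R ^ 4 * volume.real K) ^ (1 / 3 : ℝ), by positivity, ?_⟩
  intro π hπp hπ T S hT hS
  have hcost0 : 0 ≤ ∫ p, ‖p.1 - p.2‖ ^ 2 ∂π := integral_nonneg fun p => by positivity
  -- supports
  have hsup1 : (Measure.map Prod.fst π) Yᶜ = 0 := by
    rw [Measure.map_apply measurable_fst hY.measurableSet.compl]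
    refine measure_mono_null ?_ hπ
    intro p hp hcon
    exact hp hcon.1
  have hsup2 : (Measure.map Prod.snd π) Yᶜ = 0 := by
    rw [Measure.map_apply measurable_snd hY.measurableSet.compl]
    refine measure_mono_null ?_ hπ
    intro p hp hcon
    exact hp hcon.2
  have hTb : ∀ᵐ x ∂(volume.restrict K), ‖T x‖ ≤ RY := by
    have h1 : ∀ᵐ y ∂(Measure.map T (unif K)), y ∈ Y := by rw [hT.2.1, ae_iff]; exact hsup1
    have h2 := (unif_ae hKfin).1 (ae_of_ae_map hT.1.aemeasurable h1)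
    filter_upwards [h2] with x hx
    simpa using hYR hx
  have hSb : ∀ᵐ x ∂(volume.restrict K), ‖S x‖ ≤ RY := by
    have h1 : ∀ᵐ y ∂(Measure.map S (unif K)), y ∈ Y := by rw [hS.2.1, ae_iff]; exact hsup2
    have h2 := (unif_ae hKfin).1 (ae_of_ae_map hS.1.aemeasurable h1)
    filter_upwards [h2] with x hx
    simpa using hYR hx
  -- first application
  obtain ⟨u0, v0, T0, S0, hu0, hv0, hT0, hS0, hT0u, hS0v, hT0μ, hS0ν, -⟩ :=
    approx_limit hd hK hKc hK0 hR.le hKR hY hRY.le hYR hπ (f := fun _ => 0) measurable_const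
      (F := 0) (fun _ => by simp) (by simp)
  have hTu0 : SubgradAE K u0 T :=
    subgrad_of_otmap hK hK0 hu0.continuousOn hY hsup1 hT hT0 hT0μ hT0u
  have hSv0 : SubgradAE K v0 S :=
    subgrad_of_otmap hK hK0 hv0.continuousOn hY hsup2 hS hS0 hS0ν hS0v
  -- the test function
  obtain ⟨c, hc⟩ : ∃ c : ℝ, c = (∫ x in K, (u0 x - v0 x)) / volume.real K := ⟨_, rfl⟩
  set f : E d → ℝ := K.indicator fun x => u0 x - v0 x - c with hf
  have hcont : Continuous fun x => u0 x - v0 x - c := (hu0.sub hv0).sub continuous_const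
  have hfm : Measurable f := hcont.measurable.indicator hKm
  obtain ⟨F, hF⟩ := hK.exists_bound_of_continuousOn hcont.continuousOn
  have hfK : ∀ x ∈ K, f x = u0 x - v0 x - c := fun x hx => Set.indicator_of_mem hx _
  have hfF : ∀ x, |f x| ≤ max F 0 := by
    intro x
    by_cases hx : x ∈ K
    · rw [hfK x hx]; exact (hF x hx).trans (le_max_left _ _)
    · rw [hf, Set.indicator_of_notMem hx]; simp
  have iuv : IntegrableOn (fun x => u0 x - v0 x) K :=
    (hu0.sub hv0).continuousOn.integrableOn_compact hK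
  have hf0 : ∫ x in K, f x = 0 := by
    rw [setIntegral_congr_fun hKm hfK]
    have e : ∫ x in K, (u0 x - v0 x - c) = (∫ x in K, (u0 x - v0 x)) - ∫ x in K, c :=
      integral_sub iuv (integrableOn_const (hs := hKfin))
    rw [e, setIntegral_const, smul_eq_mul, hc]
    field_simp
    ring
  obtain ⟨u1, v1, T1, S1, hu1, hv1, hT1, hS1, hT1u, hS1v, hT1μ, hS1ν, hmain⟩ :=
    approx_limit hd hK hKc hK0 hR.le hKR hY hRY.le hYR hπ hfm hfF hf0
  have hTu1 : SubgradAE K u1 T :=
    subgrad_of_otmap hK hK0 hu1.continuousOn hY hsup1 hT hT1 hT1μ hT1u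
  have hSv1 : SubgradAE K v1 S :=
    subgrad_of_otmap hK hK0 hv1.continuousOn hY hsup2 hS hS1 hS1ν hS1v
  obtain ⟨c1, hc1⟩ := potential_unique hK hKc hKi hu1 hu0 hTb hTu1 hTu0
  obtain ⟨c2, hc2⟩ := potential_unique hK hKc hKi hv1 hv0 hSb hSv1 hSv0
  set X := ∫ x in K, f x ^ 2 with hX
  have hX0 : 0 ≤ X := setIntegral_nonneg hKm fun x _ => sq_nonneg _
  have hfi : IntegrableOn f K :=
    integrableOn_of_bdd hKm hKR hfm.aestronglyMeasurable (C := max F 0) fun x _ => hfF x
  have hf2i : IntegrableOn (fun x => f x ^ 2) K :=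
    integrableOn_of_bdd hKm hKR (by fun_prop) (C := (max F 0) ^ 2) fun x _ => by
      rw [Real.norm_eq_abs, abs_of_nonneg (sq_nonneg _), ← sq_abs]
      have := hfF x
      gcongr
  have hlhs : ∫ x in K, (u1 x - v1 x) * f x = X := by
    have e1 : ∫ x in K, (u1 x - v1 x) * f x = ∫ x in K, (f x ^ 2 + (c + c1 - c2) * f x) := by
      refine integral_congr_ae ?_
      have hKae := ae_restrict_mem (μ := (volume : Measure (E d))) hKm
      filter_upwards [hc1, hc2, hKae] with x h1 h2 hx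
      have h3 := hfK x hx
      have e : u1 x - v1 x = f x + (c + c1 - c2) := by rw [h3]; linarith
      rw [e]; ring
    have e2 : ∫ x in K, (f x ^ 2 + (c + c1 - c2) * f x) = (∫ x in K, f x ^ 2) +
        ∫ x in K, (c + c1 - c2) * f x := integral_add hf2i (hfi.const_mul _)
    rw [e1, e2, integral_const_mul, hf0]; ring
  rw [hlhs] at hmain
  set c0 := ∫ p, ‖p.1 - p.2‖ ^ 2 ∂π with hc0
  have hXle : X ≤ 672 * R ^ 4 * volume.real K * c0 := by
    rw [← Real.sqrt_mul (by positivity)] at hmain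
    have h1 : X ^ 2 ≤ 672 * R ^ 4 * X * (volume.real K * c0) := by
      have := Real.sq_sqrt (show 0 ≤ 672 * R ^ 4 * X * (volume.real K * c0) by positivity)
      rw [← this]
      gcongr
    rcases hX0.eq_or_lt with h0 | h0
    · rw [← h0]; positivity
    · have h2 : X * X ≤ X * (672 * R ^ 4 * volume.real K * c0) := by linarith
      exact le_of_mul_le_mul_left h2 h0
  have hgn := hGN u0 v0 T S hT.1 hS.1 hu0.continuousOn hv0.continuousOn hTb hSb hTu0 hSv0 c
  have hXeq : ∫ x in K, (u0 x - v0 x - c) ^ 2 = X := by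
    rw [hX]
    refine setIntegral_congr_fun hKm fun x hx => ?_
    rw [hfK x hx]
  rw [hXeq] at hgn
  refine hgn.trans ?_
  rw [mul_assoc, ← Real.mul_rpow (by positivity) hcost0]
  gcongr

/-- The exponent `1/3` is admissible. -/
theorem admissible_third (hd : 1 ≤ d) : Admissible d (1 / 3) := by
  refine ⟨by norm_num, by norm_num, fun K hK hKc hKi Y hY _ => ?_⟩
  have hKfin : volume K ≠ ⊤ := hK.measure_lt_top.ne
  have hK0 : volume K ≠ 0 :=
    ((isOpen_interior.measure_pos volume hKi).trans_le (measure_mono interior_subset)).ne'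
  have hvK : 0 < volume.real K := ENNReal.toReal_pos hK0 hKfin
  have hρ := unif_isProb hKfin hK0
  obtain ⟨A, hA0, hA⟩ := coupling_estimate hd hK hKc hKi hY
  obtain ⟨RY, hRY, hYR⟩ := hY.isBounded.subset_closedBall_lt 0 0
  set C : ℝ := Real.sqrt ((volume.real K)⁻¹ * A) + 1 with hC
  have hCpos : 0 < C := by positivity
  refine ⟨C.toNNReal, fun μ ν hμ hν hμY hνY T S hT hS => ?_⟩
  have hC0 : ((C.toNNReal : ℝ≥0) : ℝ≥0∞) ≠ 0 := by
    rw [ENNReal.coe_ne_zero]
    exact (Real.toNNReal_pos.2 hCpos).ne'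
  rw [mul_comm, ← ENNReal.div_le_iff hC0 ENNReal.coe_ne_top]
  have h13 : (1 / 3 : ℝ) = (3 : ℝ)⁻¹ := by norm_num
  rw [h13, ENNReal.le_rpow_inv_iff (by norm_num : (0 : ℝ) < 3)]
  unfold W2
  refine le_iInf fun π => ?_
  obtain ⟨π, hπ1, hπ2⟩ := π
  simp only
  rw [← ENNReal.le_rpow_inv_iff (by norm_num : (0 : ℝ) < 3), ← h13,
    ENNReal.div_le_iff hC0 ENNReal.coe_ne_top, mul_comm]
  have hπp : IsProbabilityMeasure π := by
    refine ⟨?_⟩
    have : (Measure.map Prod.fst π) Set.univ = 1 := by rw [hπ1]; exact measure_univ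
    rwa [Measure.map_apply measurable_fst MeasurableSet.univ, Set.preimage_univ] at this
  have hπY : π (Y ×ˢ Y)ᶜ = 0 := by
    have h1 : π (Prod.fst ⁻¹' Yᶜ) = 0 := by
      rw [← Measure.map_apply measurable_fst hY.measurableSet.compl, hπ1]; exact hμY
    have h2 : π (Prod.snd ⁻¹' Yᶜ) = 0 := by
      rw [← Measure.map_apply measurable_snd hY.measurableSet.compl, hπ2]; exact hνY
    refine measure_mono_null ?_ (measure_union_null h1 h2)
    intro p hp
    by_cases h : p.1 ∈ Y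
    · right
      intro h'
      exact hp ⟨h, h'⟩
    · left; exact h
  have hest := hA π hπp hπY T S (by rw [hπ1]; exact hT) (by rw [hπ2]; exact hS)
  set c0 := ∫ p, ‖p.1 - p.2‖ ^ 2 ∂π with hc0
  have hcost0 : 0 ≤ c0 := integral_nonneg fun p => by positivity
  have hπae : ∀ᵐ p ∂π, p ∈ Y ×ˢ Y := by rw [ae_iff]; exact hπY
  -- cost as an extended nonnegative number
  have hGi : Integrable (fun p : E d × E d => ‖p.1 - p.2‖ ^ 2) π := by
    refine (integrable_const ((2 * RY) ^ 2)).mono' (by fun_prop) ?_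
    filter_upwards [hπae] with p hp
    rw [Real.norm_eq_abs, abs_of_nonneg (by positivity)]
    have h1 : ‖p.1‖ ≤ RY := by simpa using hYR hp.1
    have h2 : ‖p.2‖ ≤ RY := by simpa using hYR hp.2
    have h3 : ‖p.1 - p.2‖ ≤ 2 * RY := (norm_sub_le _ _).trans (by linarith)
    gcongr
  have hce : ∫⁻ p, ‖p.1 - p.2‖ₑ ^ 2 ∂π = ENNReal.ofReal c0 := by
    rw [hc0, ofReal_integral_eq_lintegral_ofReal hGi (Eventually.of_forall fun p => by positivity)]
    refine lintegral_congr fun p => ?_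
    rw [← ofReal_norm, ENNReal.ofReal_pow (norm_nonneg _)]
  rw [hce]
  -- the maps
  have hTY : ∀ᵐ x ∂(unif K), ‖T x‖ ≤ RY := by
    have h1 : ∀ᵐ y ∂(Measure.map T (unif K)), y ∈ Y := by rw [hT.2.1, ae_iff]; exact hμY
    filter_upwards [ae_of_ae_map hT.1.aemeasurable h1] with x hx
    simpa using hYR hx
  have hSY : ∀ᵐ x ∂(unif K), ‖S x‖ ≤ RY := by
    have h1 : ∀ᵐ y ∂(Measure.map S (unif K)), y ∈ Y := by rw [hS.2.1, ae_iff]; exact hνY
    filter_upwards [ae_of_ae_map hS.1.aemeasurable h1] with x hx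
    simpa using hYR hx
  have hTm := hT.1
  have hSm := hS.1
  have hdi : Integrable (fun x => ‖T x - S x‖ ^ 2) (unif K) := by
    refine (integrable_const ((2 * RY) ^ 2)).mono' (by fun_prop) ?_
    filter_upwards [hTY, hSY] with x h1 h2
    rw [Real.norm_eq_abs, abs_of_nonneg (by positivity)]
    have h3 : ‖T x - S x‖ ≤ 2 * RY := (norm_sub_le _ _).trans (by linarith)
    gcongr
  have hLp : eLpNorm (fun x => T x - S x) 2 (unif K) =
      ENNReal.ofReal (Real.sqrt ((volume.real K)⁻¹ * ∫ x in K, ‖T x - S x‖ ^ 2)) := by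
    rw [eLpNorm_eq_lintegral_rpow_enorm_toReal (by norm_num) (by norm_num)]
    have e1 : ∫⁻ x, ‖T x - S x‖ₑ ^ (2 : ℝ≥0∞).toReal ∂(unif K) =
        ENNReal.ofReal ((volume.real K)⁻¹ * ∫ x in K, ‖T x - S x‖ ^ 2) := by
      have := unif_integral (K := K) fun x => ‖T x - S x‖ ^ 2
      rw [smul_eq_mul] at this
      rw [← this, ofReal_integral_eq_lintegral_ofReal hdi
        (Eventually.of_forall fun p => by positivity)]
      refine lintegral_congr fun x => ?_
      rw [ENNReal.toReal_ofNat, ENNReal.rpow_ofNat, ← ofReal_norm,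
        ENNReal.ofReal_pow (norm_nonneg _)]
    rw [e1, ENNReal.toReal_ofNat, Real.sqrt_eq_rpow, ENNReal.ofReal_rpow_of_nonneg]
    · have : 0 ≤ ∫ x in K, ‖T x - S x‖ ^ 2 := integral_nonneg fun x => by positivity
      positivity
    · norm_num
  rw [hLp]
  have e2 : (ENNReal.ofReal c0 ^ (1 / 2 : ℝ)) ^ (1 / 3 : ℝ) = ENNReal.ofReal (Real.sqrt (c0 ^ (1 / 3 : ℝ))) := by
    rw [Real.sqrt_eq_rpow, ← ENNReal.ofReal_rpow_of_nonneg (by positivity) (by norm_num),
      ← ENNReal.ofReal_rpow_of_nonneg hcost0 (by norm_num), ← ENNReal.rpow_mul,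
      ← ENNReal.rpow_mul, mul_comm (1 / 2 : ℝ)]
  rw [e2]
  have e3 : ((C.toNNReal : ℝ≥0) : ℝ≥0∞) = ENNReal.ofReal C := rfl
  rw [e3, ← ENNReal.ofReal_mul hCpos.le]
  apply ENNReal.ofReal_le_ofReal
  calc Real.sqrt ((volume.real K)⁻¹ * ∫ x in K, ‖T x - S x‖ ^ 2)
      ≤ Real.sqrt ((volume.real K)⁻¹ * A * c0 ^ (1 / 3 : ℝ)) := by
        apply Real.sqrt_le_sqrt
        rw [mul_assoc]
        gcongr
    _ = Real.sqrt ((volume.real K)⁻¹ * A) * Real.sqrt (c0 ^ (1 / 3 : ℝ)) := by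
        rw [Real.sqrt_mul (by positivity)]
    _ ≤ C * Real.sqrt (c0 ^ (1 / 3 : ℝ)) := by
        gcongr
        rw [hC]; linarith

end Vale.Agent.OT
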