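import Vale.Agent.OT.Core

/-!
The Prekopa-Leindler inequality at the midpoint.
-/

open MeasureTheory Set
open scoped ENNReal NNReal

namespace Vale.Agent.OT

/-- One-dimensional Brunn-Minkowski for nonempty compact sets. -/
theorem bm_one_compact {K L C : Set ℝ} (hK : IsCompact K) (hL : IsCompact L)
    (hKn : K.Nonempty) (hLn : L.Nonempty)
    (H : ∀ a ∈ K, ∀ b ∈ L, (a + b) / 2 ∈ C) :
    volume K + volume L ≤ 2 * volume C := by
  set α := sSup K with hα
  set β := sInf L with hβ
  have hαm : α ∈ K := hK.sSup_mem hKn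
  have hβm : β ∈ L := hL.sInf_mem hLn
  let S1 : Set ℝ := (fun x => (2 : ℝ) * x) ⁻¹' ((fun x => x + (-β)) ⁻¹' K)
  let S2 : Set ℝ := (fun x => (2 : ℝ) * x) ⁻¹' ((fun x => x + (-α)) ⁻¹' L)
  have hS1C : S1 ⊆ C := by
    intro x hx
    have := H (2 * x + -β) hx β hβm
    have e : (2 * x + -β + β) / 2 = x := by ring
    rwa [e] at this
  have hS2C : S2 ⊆ C := by
    intro x hx
    have := H α hαm (2 * x + -α) hx
    have e : (α + (2 * x + -α)) / 2 = x := by ring
    rwa [e] at this
  have hint : S1 ∩ S2 ⊆ {(α + β) / 2} := by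
    rintro x ⟨h1, h2⟩
    have h1' : 2 * x + -β ≤ α := le_csSup hK.bddAbove h1
    have h2' : β ≤ 2 * x + -α := csInf_le hL.bddBelow h2
    rw [Set.mem_singleton_iff]
    linarith
  have hdis : AEDisjoint volume S1 S2 := by
    unfold AEDisjoint
    exact measure_mono_null hint (by simp)
  have hS2m : MeasurableSet S2 :=
    (measurable_const_mul (2 : ℝ)) ((measurable_id.add_const (-α)) hL.measurableSet)
  have hv1 : volume S1 = 2⁻¹ * volume K := by
    have := Real.volume_preimage_mul_left (two_ne_zero (α := ℝ)) ((fun x => x + (-β)) ⁻¹' K)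
    rw [measure_preimage_add_right] at this
    change volume S1 = _ at this
    rw [this]
    congr 1
    rw [abs_of_pos (by norm_num), ENNReal.ofReal_inv_of_pos (by norm_num)]
    norm_num
  have hv2 : volume S2 = 2⁻¹ * volume L := by
    have := Real.volume_preimage_mul_left (two_ne_zero (α := ℝ)) ((fun x => x + (-α)) ⁻¹' L)
    rw [measure_preimage_add_right] at this
    change volume S2 = _ at this
    rw [this]
    congr 1
    rw [abs_of_pos (by norm_num), ENNReal.ofReal_inv_of_pos (by norm_num)]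
    norm_num
  have hU : volume S1 + volume S2 ≤ volume C := by
    rw [← measure_union₀ hS2m.nullMeasurableSet hdis]
    exact measure_mono (union_subset hS1C hS2C)
  rw [hv1, hv2, ← mul_add] at hU
  calc volume K + volume L = 2 * (2⁻¹ * (volume K + volume L)) := by
        rw [← mul_assoc, ENNReal.mul_inv_cancel (by norm_num) (by norm_num), one_mul]
    _ ≤ 2 * volume C := by gcongr

/-- One-dimensional Brunn-Minkowski. -/
theorem bm_one {A B C : Set ℝ} (hA : MeasurableSet A) (hB : MeasurableSet B)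
    (hAn : A.Nonempty) (hBn : B.Nonempty)
    (H : ∀ a ∈ A, ∀ b ∈ B, (a + b) / 2 ∈ C) :
    volume A + volume B ≤ 2 * volume C := by
  obtain ⟨a0, ha0⟩ := hAn
  obtain ⟨b0, hb0⟩ := hBn
  -- compact `K`, general `B`
  have step : ∀ K ⊆ A, IsCompact K → K.Nonempty → volume K + volume B ≤ 2 * volume C := by
    intro K hKA hK hKn
    have hKt : volume K ≠ ∞ := hK.measure_lt_top.ne
    have h0 : volume K ≤ 2 * volume C := by
      have := bm_one_compact hK (isCompact_singleton (x := b0)) hKn (Set.singleton_nonempty b0)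
        (C := C) (by
          rintro a ha b rfl
          exact H a (hKA ha) _ hb0)
      exact le_trans (by simp) this
    have h1 : volume B ≤ 2 * volume C - volume K := by
      refine le_of_forall_lt fun r hr => ?_
      obtain ⟨L, hLB, hL, hrL⟩ := hB.exists_lt_isCompact hr
      have hL' : IsCompact (L ∪ {b0}) := hL.union isCompact_singleton
      have := bm_one_compact hK hL' hKn ⟨b0, Or.inr rfl⟩ (C := C) (by
          rintro a ha b (hb | rfl)
          · exact H a (hKA ha) _ (hLB hb)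
          · exact H a (hKA ha) _ hb0)
      have h2 : volume (L ∪ {b0}) ≤ 2 * volume C - volume K :=
        ENNReal.le_sub_of_add_le_left hKt this
      exact lt_of_lt_of_le hrL (le_trans (measure_mono subset_union_left) h2)
    calc volume K + volume B ≤ volume K + (2 * volume C - volume K) := by gcongr
      _ = 2 * volume C := add_tsub_cancel_of_le h0
  have hB0 : volume B ≤ 2 * volume C :=
    le_trans (le_add_self) (step {a0} (by simpa using ha0) isCompact_singleton
      (Set.singleton_nonempty a0))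
  by_cases hBt : volume B = ∞
  · rw [hBt, top_le_iff] at hB0
    rw [hB0]; exact le_top
  have h1 : volume A ≤ 2 * volume C - volume B := by
    refine le_of_forall_lt fun r hr => ?_
    obtain ⟨K, hKA, hK, hrK⟩ := hA.exists_lt_isCompact hr
    have hK' : IsCompact (K ∪ {a0}) := hK.union isCompact_singleton
    have := step (K ∪ {a0}) (union_subset hKA (by simpa using ha0)) hK' ⟨a0, Or.inr rfl⟩
    have h2 : volume (K ∪ {a0}) ≤ 2 * volume C - volume B :=
      ENNReal.le_sub_of_add_le_right hBt this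
    exact lt_of_lt_of_le hrK (le_trans (measure_mono subset_union_left) h2)
  calc volume A + volume B ≤ (2 * volume C - volume B) + volume B := by gcongr
    _ = 2 * volume C := tsub_add_cancel_of_le hB0

theorem lintegral_layer {f : ℝ → ℝ≥0∞} (hf : Measurable f) (hf1 : ∀ x, f x ≤ 1) :
    ∫⁻ x, f x = ∫⁻ t in Ioi (0 : ℝ), volume {x | ENNReal.ofReal t < f x} := by
  have h1 : ∫⁻ x, f x = ∫⁻ x, ENNReal.ofReal ((f x).toReal) := by
    apply lintegral_congr
    intro x
    rw [ENNReal.ofReal_toReal (ne_top_of_le_ne_top ENNReal.one_ne_top (hf1 x))]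
  rw [h1, lintegral_eq_lintegral_meas_lt volume
    (Filter.Eventually.of_forall fun x => ENNReal.toReal_nonneg) hf.ennreal_toReal.aemeasurable]
  apply setLIntegral_congr_fun measurableSet_Ioi
  intro t ht
  simp only
  congr 1
  ext x
  simp only [mem_ofPred_eq]
  rw [ENNReal.ofReal_lt_iff_lt_toReal (le_of_lt ht)
    (ne_top_of_le_ne_top ENNReal.one_ne_top (hf1 x))]

/-- Normalised one-dimensional case. -/
theorem pl_one_norm {f g h : ℝ → ℝ≥0∞} (hf : Measurable f) (hg : Measurable g)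
    (hh : Measurable h) (H : ∀ x y, f x * g y ≤ (h ((1 / 2 : ℝ) * (x + y))) ^ 2)
    (hf1 : ∀ x, f x ≤ 1) (hf2 : ∀ t < 1, ∃ x, t < f x)
    (hg1 : ∀ x, g x ≤ 1) (hg2 : ∀ t < 1, ∃ x, t < g x) :
    (∫⁻ x, f x) + (∫⁻ x, g x) ≤ 2 * ∫⁻ x, h x := by
  have hmin : ∫⁻ x, min (h x) 1 ≤ ∫⁻ x, h x := lintegral_mono fun x => min_le_left _ _
  refine le_trans ?_ (mul_le_mul_right hmin 2)
  rw [lintegral_layer hf hf1, lintegral_layer hg hg1,
    lintegral_layer (hh.min measurable_const) (fun x => min_le_right _ _)]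
  have hanti : ∀ F : ℝ → ℝ≥0∞, Measurable (fun t : ℝ => volume {x | ENNReal.ofReal t < F x}) := by
    intro F
    apply Antitone.measurable
    intro s t hst
    apply measure_mono
    intro x hx
    exact lt_of_le_of_lt (ENNReal.ofReal_le_ofReal hst) hx
  rw [← lintegral_add_left (hanti f), ← lintegral_const_mul _ (hanti _)]
  apply setLIntegral_mono' measurableSet_Ioi
  intro t ht
  by_cases ht1 : t < 1
  · have ht1' : ENNReal.ofReal t < 1 := by
      rw [← ENNReal.ofReal_one]; exact ENNReal.ofReal_lt_ofReal_iff (by norm_num) |>.2 ht1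
    apply bm_one
    · exact measurableSet_lt measurable_const hf
    · exact measurableSet_lt measurable_const hg
    · exact hf2 _ ht1'
    · exact hg2 _ ht1'
    · intro a ha b hb
      simp only [mem_ofPred_eq] at ha hb ⊢
      refine lt_min ?_ ht1'
      by_contra hcon
      have hcon' := not_lt.1 hcon
      have h1 : ENNReal.ofReal t * ENNReal.ofReal t < f a * g b := ENNReal.mul_lt_mul ha hb
      have h2 := H a b
      have e : (1 / 2 : ℝ) * (a + b) = (a + b) / 2 := by ring
      rw [e] at h2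
      have h3 : (h ((a + b) / 2)) ^ 2 ≤ (ENNReal.ofReal t) ^ 2 := pow_le_pow_left' hcon' 2
      rw [pow_two (ENNReal.ofReal t)] at h3
      exact absurd (lt_of_lt_of_le h1 (le_trans h2 h3)) (lt_irrefl _)
  · have hge : (1 : ℝ≥0∞) ≤ ENNReal.ofReal t := by
      rw [← ENNReal.ofReal_one]; exact ENNReal.ofReal_le_ofReal (not_lt.1 ht1)
    have he : ∀ F : ℝ → ℝ≥0∞, (∀ x, F x ≤ 1) → {x | ENNReal.ofReal t < F x} = ∅ := by
      intro F hF
      ext x
      simp only [mem_ofPred_eq, mem_empty_iff_false, iff_false, not_lt]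
      exact le_trans (hF x) hge
    rw [he f hf1, he g hg1]
    simp

theorem ennreal_amgm {X Y Z : ℝ≥0∞} (h : X + Y ≤ 2 * Z) : X * Y ≤ Z ^ 2 := by
  by_cases hZ : Z = ∞
  · rw [hZ]; simp
  have hXY : X + Y ≠ ∞ := ne_top_of_le_ne_top (ENNReal.mul_ne_top (by norm_num) hZ) h
  have hX : X ≠ ∞ := fun e => hXY (by rw [e]; simp)
  have hY : Y ≠ ∞ := fun e => hXY (by rw [e]; simp)
  lift X to ℝ≥0 using hX
  lift Y to ℝ≥0 using hY
  lift Z to ℝ≥0 using hZ
  have h' : X + Y ≤ 2 * Z := by exact_mod_cast h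
  have : X * Y ≤ Z ^ 2 := by
    rw [← NNReal.coe_le_coe]
    have h'' : (X : ℝ) + Y ≤ 2 * Z := by exact_mod_cast h'
    push_cast
    nlinarith [X.2, Y.2, Z.2, sq_nonneg ((X : ℝ) - Y)]
  exact_mod_cast this

/-- Bounded one-dimensional case. -/
theorem pl_one_bdd {f g h : ℝ → ℝ≥0∞} (hf : Measurable f) (hg : Measurable g)
    (hh : Measurable h) (H : ∀ x y, f x * g y ≤ (h ((1 / 2 : ℝ) * (x + y))) ^ 2)
    {k j : ℝ≥0∞} (hk : k ≠ ∞) (hj : j ≠ ∞) (hfk : ∀ x, f x ≤ k) (hgj : ∀ x, g x ≤ j) :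
    (∫⁻ x, f x) * (∫⁻ x, g x) ≤ (∫⁻ x, h x) ^ 2 := by
  set a := ⨆ x, f x with ha
  set b := ⨆ x, g x with hb
  have hat : a ≠ ∞ := ne_top_of_le_ne_top hk (iSup_le hfk)
  have hbt : b ≠ ∞ := ne_top_of_le_ne_top hj (iSup_le hgj)
  by_cases ha0 : a = 0
  · have : ∫⁻ x, f x = 0 := by
      rw [lintegral_eq_zero_iff hf]
      filter_upwards with x
      have : f x ≤ 0 := ha0 ▸ le_iSup f x
      simpa using this
    rw [this]; simp
  by_cases hb0 : b = 0
  · have : ∫⁻ x, g x = 0 := by
      rw [lintegral_eq_zero_iff hg]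
      filter_upwards with x
      have : g x ≤ 0 := hb0 ▸ le_iSup g x
      simpa using this
    rw [this]; simp
  set c := (a * b) ^ (1 / 2 : ℝ) with hc
  have hab0 : a * b ≠ 0 := mul_ne_zero ha0 hb0
  have habt : a * b ≠ ∞ := ENNReal.mul_ne_top hat hbt
  have hc2 : c ^ 2 = a * b := by
    rw [hc, ← ENNReal.rpow_natCast, ← ENNReal.rpow_mul]
    norm_num
  have hc0 : c ≠ 0 := by
    intro h0
    rw [h0] at hc2
    exact hab0 (by rw [← hc2]; simp)
  have hct : c ≠ ∞ := by
    intro h0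
    rw [h0] at hc2
    exact habt (by rw [← hc2]; simp)
  have hinv : a⁻¹ * b⁻¹ = (c⁻¹) ^ 2 := by
    rw [← ENNReal.inv_pow, hc2, ENNReal.mul_inv (Or.inl ha0) (Or.inl hat)]
  have key := pl_one_norm (f := fun x => a⁻¹ * f x) (g := fun x => b⁻¹ * g x)
    (h := fun x => c⁻¹ * h x) (hf.const_mul _) (hg.const_mul _) (hh.const_mul _)
    (by
      intro x y
      have e1 : a⁻¹ * f x * (b⁻¹ * g y) = (a⁻¹ * b⁻¹) * (f x * g y) := by ring
      rw [e1, mul_pow, hinv]
      gcongr
      exact H x y)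
    (by
      intro x
      calc a⁻¹ * f x ≤ a⁻¹ * a := by gcongr; exact le_iSup f x
        _ = 1 := ENNReal.inv_mul_cancel ha0 hat)
    (by
      intro t ht
      have h1 : t * a < a := by
        calc t * a < 1 * a := by
              rw [ENNReal.mul_lt_mul_iff_left ha0 hat]; exact ht
          _ = a := one_mul a
      obtain ⟨x, hx⟩ := lt_iSup_iff.1 (ha ▸ h1)
      refine ⟨x, ?_⟩
      rw [mul_comm, ← div_eq_mul_inv, ENNReal.lt_div_iff_mul_lt (Or.inl ha0) (Or.inl hat)]
      exact hx)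
    (by
      intro x
      calc b⁻¹ * g x ≤ b⁻¹ * b := by gcongr; exact le_iSup g x
        _ = 1 := ENNReal.inv_mul_cancel hb0 hbt)
    (by
      intro t ht
      have h1 : t * b < b := by
        calc t * b < 1 * b := by
              rw [ENNReal.mul_lt_mul_iff_left hb0 hbt]; exact ht
          _ = b := one_mul b
      obtain ⟨x, hx⟩ := lt_iSup_iff.1 (hb ▸ h1)
      refine ⟨x, ?_⟩
      rw [mul_comm, ← div_eq_mul_inv, ENNReal.lt_div_iff_mul_lt (Or.inl hb0) (Or.inl hbt)]
      exact hx)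
  have key2 := ennreal_amgm key
  rw [lintegral_const_mul _ hf, lintegral_const_mul _ hg, lintegral_const_mul _ hh, mul_pow] at key2
  have e2 : a⁻¹ * (∫⁻ x, f x) * (b⁻¹ * ∫⁻ x, g x)
      = (c⁻¹) ^ 2 * ((∫⁻ x, f x) * ∫⁻ x, g x) := by rw [← hinv]; ring
  rw [e2] at key2
  have hci0 : (c⁻¹) ^ 2 ≠ 0 := pow_ne_zero 2 (ENNReal.inv_ne_zero.2 hct)
  have hcit : (c⁻¹) ^ 2 ≠ ∞ := ENNReal.pow_ne_top (ENNReal.inv_ne_top.2 hc0)
  exact (ENNReal.mul_le_mul_iff_right hci0 hcit).1 key2

theorem iSup_lintegral_min {α : Type*} [MeasurableSpace α] (μ : Measure α) {f : α → ℝ≥0∞}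
    (hf : Measurable f) : ∫⁻ x, f x ∂μ = ⨆ k : ℕ, ∫⁻ x, min (f x) k ∂μ := by
  rw [← lintegral_iSup (fun k => hf.min measurable_const)]
  · apply lintegral_congr
    intro x
    rw [← inf_iSup_eq, ENNReal.iSup_natCast]
    simp
  · intro i j hij x
    exact min_le_min_left _ (by exact_mod_cast hij)

/-- One-dimensional Prekopa-Leindler at the midpoint. -/
theorem pl_one {f g h : ℝ → ℝ≥0∞} (hf : Measurable f) (hg : Measurable g)
    (hh : Measurable h) (H : ∀ x y, f x * g y ≤ (h ((1 / 2 : ℝ) * (x + y))) ^ 2) :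
    (∫⁻ x, f x) * (∫⁻ x, g x) ≤ (∫⁻ x, h x) ^ 2 := by
  rw [iSup_lintegral_min volume hf, iSup_lintegral_min volume hg, ENNReal.iSup_mul]
  refine iSup_le fun k => ?_
  rw [ENNReal.mul_iSup]
  refine iSup_le fun j => ?_
  exact pl_one_bdd (hf.min measurable_const) (hg.min measurable_const) hh
    (fun x y => le_trans (mul_le_mul' (min_le_left _ _) (min_le_left _ _)) (H x y))
    (ENNReal.natCast_ne_top k) (ENNReal.natCast_ne_top j)
    (fun x => min_le_right _ _) (fun x => min_le_right _ _)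

/-- Prekopa-Leindler at the midpoint on `Fin n → ℝ`. -/
theorem pl_fin (n : ℕ) : ∀ {f g h : (Fin n → ℝ) → ℝ≥0∞}, Measurable f → Measurable g →
    Measurable h → (∀ x y, f x * g y ≤ (h ((1 / 2 : ℝ) • (x + y))) ^ 2) →
    (∫⁻ x, f x) * (∫⁻ x, g x) ≤ (∫⁻ x, h x) ^ 2 := by
  induction n with
  | zero =>
    intro f g h hf hg hh H
    rw [Measure.volume_pi_eq_dirac (0 : Fin 0 → ℝ), lintegral_dirac, lintegral_dirac, lintegral_dirac]
    have := H 0 0
    simpa using this
  | succ n ih =>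
    intro f g h hf hg hh H
    let e := MeasurableEquiv.piFinSuccAbove (fun _ : Fin (n + 1) => ℝ) 0
    have he : MeasurePreserving e := volume_preserving_piFinSuccAbove (fun _ => ℝ) 0
    have key : ∀ F : (Fin (n + 1) → ℝ) → ℝ≥0∞, Measurable F →
        ∫⁻ x, F x = ∫⁻ t : ℝ, ∫⁻ z : Fin n → ℝ, F (e.symm (t, z)) := by
      intro F hF
      rw [← he.symm.lintegral_comp hF]
      exact lintegral_prod _ ((hF.comp e.symm.measurable).aemeasurable)
    rw [key f hf, key g hg, key h hh]
    have hmeas : ∀ F : (Fin (n + 1) → ℝ) → ℝ≥0∞, Measurable F →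
        Measurable fun t : ℝ => ∫⁻ z : Fin n → ℝ, F (e.symm (t, z)) := by
      intro F hF
      exact (hF.comp e.symm.measurable).lintegral_prod_right'
    have hmeas2 : ∀ F : (Fin (n + 1) → ℝ) → ℝ≥0∞, Measurable F → ∀ t : ℝ,
        Measurable fun z : Fin n → ℝ => F (e.symm (t, z)) := by
      intro F hF t
      exact (hF.comp e.symm.measurable).comp measurable_prodMk_left
    refine pl_one (hmeas f hf) (hmeas g hg) (hmeas h hh) ?_
    intro t s
    refine ih (hmeas2 f hf t) (hmeas2 g hg s) (hmeas2 h hh _) ?_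
    intro z w
    have := H (e.symm (t, z)) (e.symm (s, w))
    have e3 : (1 / 2 : ℝ) • (e.symm (t, z) + e.symm (s, w))
        = e.symm ((1 / 2 : ℝ) * (t + s), (1 / 2 : ℝ) • (z + w)) := by
      funext i
      refine Fin.cases ?_ (fun i => ?_) i
      · simp [e, MeasurableEquiv.piFinSuccAbove]
      · simp [e, MeasurableEquiv.piFinSuccAbove]
        ring
    rwa [e3] at this

/-- **Prekopa-Leindler** at the midpoint on `ℝ^d`. -/
theorem prekopa_leindler_half {d : ℕ} {f g h : E d → ℝ≥0∞}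
    (hf : Measurable f) (hg : Measurable g) (hh : Measurable h)
    (H : ∀ x y, f x * g y ≤ (h ((1 / 2 : ℝ) • (x + y))) ^ 2) :
    (∫⁻ x, f x) * (∫⁻ x, g x) ≤ (∫⁻ x, h x) ^ 2 := by
  have he := PiLp.volume_preserving_toLp (Fin d)
  have hm : Measurable (WithLp.toLp 2 : (Fin d → ℝ) → E d) := he.measurable
  rw [← he.lintegral_comp hf, ← he.lintegral_comp hg, ← he.lintegral_comp hh]
  refine pl_fin d (hf.comp hm) (hg.comp hm) (hh.comp hm) ?_
  intro x y
  have := H (WithLp.toLp 2 x) (WithLp.toLp 2 y)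
  simpa using this

end Vale.Agent.OT
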