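import Vale.Agent.OT.Single

open MeasureTheory
open scoped ENNReal NNReal RealInnerProductSpace

namespace Vale.Agent.OT

variable {d : ℕ}

/-- The concave weight. -/
noncomputable def zeta (R : ℝ) (x : E d) : ℝ := 10 * R ^ 2 - ‖x‖ ^ 2 / 2

/-- The test function. -/
noncomputable def Lam (κ : ℝ) (p : E d) (s : ℝ) (x : E d) : ℝ := κ * (⟪p, x⟫ + s * (‖x‖ ^ 2 / 2))

lemma zeta_continuous (R : ℝ) : Continuous (zeta R : E d → ℝ) := by unfold zeta; fun_prop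

lemma Lam_continuous (κ : ℝ) (p : E d) (s : ℝ) : Continuous (Lam κ p s) := by
  unfold Lam; fun_prop

lemma zeta_low {R : ℝ} {x : E d} (hx : ‖x‖ ≤ R) : 19 / 2 * R ^ 2 ≤ zeta R x := by
  unfold zeta
  have : ‖x‖ ^ 2 ≤ R ^ 2 := by gcongr
  linarith

lemma zeta_mid (R : ℝ) (x x' : E d) :
    zeta R ((1 / 2 : ℝ) • (x + x')) = 1 / 2 * zeta R x + 1 / 2 * zeta R x' + 1 / 8 * ‖x - x'‖ ^ 2 := by
  unfold zeta
  rw [norm_smul, Real.norm_eq_abs, abs_of_pos (by norm_num : (0:ℝ) < 1 / 2), mul_pow]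
  have h1 := norm_add_sq_real x x'
  have h2 := norm_sub_sq_real x x'
  rw [h1, h2]; ring

lemma Lam_bound {R κ s q : ℝ} {p x : E d} (hR : 1 ≤ R) (hκ0 : 0 < κ) (hκR : κ * R ^ 2 = 1 / 2)
    (hpsq : ‖p‖ + |s| ≤ 2 * q) (hx : ‖x‖ ≤ R) : |Lam κ p s x| ≤ q := by
  have h0 := abs_nonneg s
  have hR2 : R ≤ R ^ 2 := by nlinarith
  have h1 : |⟪p, x⟫| ≤ ‖p‖ * R := (abs_real_inner_le_norm p x).trans (by gcongr)
  have h2 : |s * (‖x‖ ^ 2 / 2)| ≤ |s| * (R ^ 2 / 2) := by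
    rw [abs_mul, abs_of_nonneg (by positivity : 0 ≤ ‖x‖ ^ 2 / 2)]
    gcongr
  have h3 : |Lam κ p s x| ≤ κ * (‖p‖ * R + |s| * (R ^ 2 / 2)) := by
    unfold Lam
    rw [abs_mul, abs_of_pos hκ0]
    gcongr
    exact (abs_add_le _ _).trans (add_le_add h1 h2)
  refine h3.trans ?_
  have h4 : ‖p‖ * R + |s| * (R ^ 2 / 2) ≤ (‖p‖ + |s|) * R ^ 2 := by
    have a1 : ‖p‖ * R ≤ ‖p‖ * R ^ 2 := by gcongr
    have a2 : |s| * (R ^ 2 / 2) ≤ |s| * R ^ 2 := by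
      gcongr; nlinarith
    linarith
  calc κ * (‖p‖ * R + |s| * (R ^ 2 / 2)) ≤ κ * ((‖p‖ + |s|) * R ^ 2) := by gcongr
    _ = (κ * R ^ 2) * (‖p‖ + |s|) := by ring
    _ ≤ q := by rw [hκR]; linarith

lemma Lam_lip {R κ s : ℝ} {p x x' : E d} (hκ0 : 0 < κ) (hx : ‖x‖ ≤ R) (hx' : ‖x'‖ ≤ R) :
    Lam κ p s x - Lam κ p s x' ≤ κ * (‖p‖ + |s| * R) * ‖x - x'‖ := by
  have h1 : ⟪p, x - x'⟫ ≤ ‖p‖ * ‖x - x'‖ := real_inner_le_norm _ _
  have h2 : |‖x‖ ^ 2 / 2 - ‖x'‖ ^ 2 / 2| ≤ R * ‖x - x'‖ := by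
    have e : ‖x‖ ^ 2 / 2 - ‖x'‖ ^ 2 / 2 = (‖x‖ - ‖x'‖) * ((‖x‖ + ‖x'‖) / 2) := by ring
    rw [e, abs_mul, abs_of_nonneg (by positivity : 0 ≤ (‖x‖ + ‖x'‖) / 2), mul_comm]
    have h3 := abs_norm_sub_norm_le x x'
    have h4 : (‖x‖ + ‖x'‖) / 2 ≤ R := by linarith
    have h5 : 0 ≤ R := (norm_nonneg x).trans hx
    gcongr
  have h3 : s * (‖x‖ ^ 2 / 2 - ‖x'‖ ^ 2 / 2) ≤ |s| * (R * ‖x - x'‖) := by
    refine (le_abs_self _).trans ?_
    rw [abs_mul]; gcongr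
  have e : Lam κ p s x - Lam κ p s x' = κ * (⟪p, x - x'⟫ + s * (‖x‖ ^ 2 / 2 - ‖x'‖ ^ 2 / 2)) := by
    unfold Lam; rw [inner_sub_right]; ring
  rw [e, mul_assoc]
  gcongr
  linarith

section ints

variable {A : Set (E d)} (hAm : MeasurableSet A) {R : ℝ} (hA : A ⊆ Metric.closedBall 0 R)

include hAm hA

lemma int_chi : IntegrableOn (fun x : E d => ‖x‖ ^ 2 / 2) A :=
  integrableOn_of_bdd hAm hA (by fun_prop) (C := R ^ 2 / 2) fun x hx => by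
    rw [Real.norm_eq_abs, abs_of_nonneg (by positivity)]
    have : ‖x‖ ≤ R := by simpa using hA hx
    gcongr

lemma int_id : IntegrableOn (fun x : E d => x) A :=
  integrableOn_of_bdd hAm hA (by fun_prop) (C := R) fun x hx => by simpa using hA hx

omit hAm in
lemma int_const (c : ℝ) : IntegrableOn (fun _ : E d => c) A :=
  integrableOn_const (hs := (vol_lt_top_of_subset_ball hA).ne)

lemma int_zeta (R' : ℝ) : IntegrableOn (zeta R') A :=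
  (int_const hA _).sub (int_chi hAm hA)

lemma int_Lam (κ : ℝ) (p : E d) (s : ℝ) : IntegrableOn (Lam κ p s) A :=
  (((int_id hAm hA).const_inner p).add ((int_chi hAm hA).const_mul s)).const_mul κ

lemma val_zeta (R' : ℝ) : ∫ x in A, zeta R' x = 10 * R' ^ 2 * volume.real A - ∫ x in A, ‖x‖ ^ 2 / 2 := by
  have : ∫ x in A, zeta R' x = (∫ x in A, (10 * R' ^ 2 : ℝ)) - ∫ x in A, ‖x‖ ^ 2 / 2 :=
    integral_sub (int_const hA _) (int_chi hAm hA)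
  rw [this, setIntegral_const, smul_eq_mul]; ring

lemma val_Lam (κ : ℝ) (p : E d) (s : ℝ) :
    ∫ x in A, Lam κ p s x = κ * (⟪p, ∫ x in A, x⟫ + s * ∫ x in A, ‖x‖ ^ 2 / 2) := by
  have e1 : ∫ x in A, Lam κ p s x = κ * ∫ x in A, (⟪p, x⟫ + s * (‖x‖ ^ 2 / 2)) :=
    integral_const_mul _ _
  have e2 : ∫ x in A, (⟪p, x⟫ + s * (‖x‖ ^ 2 / 2)) =
      (∫ x in A, ⟪p, x⟫) + ∫ x in A, s * (‖x‖ ^ 2 / 2) :=
    integral_add ((int_id hAm hA).const_inner p) ((int_chi hAm hA).const_mul s)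
  rw [e1, e2, integral_const_mul, integral_inner (int_id hAm hA)]

lemma val_H (R' κ : ℝ) (p : E d) (s u c ℓ : ℝ) :
    ∫ x in A, (zeta R' x + u * (Lam κ p s x + c) - ℓ) =
      (∫ x in A, zeta R' x) + u * ((∫ x in A, Lam κ p s x) + c * volume.real A)
        - ℓ * volume.real A := by
  have i1 := int_zeta hAm hA R'
  have i2 := ((int_Lam hAm hA κ p s).add (int_const hA c)).const_mul u
  have e0 : ∫ x in A, (zeta R' x + u * (Lam κ p s x + c) - ℓ) =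
      (∫ x in A, (zeta R' x + u * (Lam κ p s x + c))) - ∫ x in A, ℓ :=
    integral_sub (i1.add i2) (int_const hA _)
  have e1 : ∫ x in A, (zeta R' x + u * (Lam κ p s x + c)) =
      (∫ x in A, zeta R' x) + ∫ x in A, u * (Lam κ p s x + c) := integral_add i1 i2
  have e2 : ∫ x in A, (Lam κ p s x + c) = (∫ x in A, Lam κ p s x) + ∫ x in A, c :=
    integral_add (int_Lam hAm hA κ p s) (int_const hA c)
  rw [e0, e1, integral_const_mul, e2, setIntegral_const, setIntegral_const, smul_eq_mul,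
    smul_eq_mul]
  ring

lemma int_H (R' κ : ℝ) (p : E d) (s u c ℓ : ℝ) :
    IntegrableOn (fun x => zeta R' x + u * (Lam κ p s x + c) - ℓ) A :=
  ((int_zeta hAm hA R').add (((int_Lam hAm hA κ p s).add (int_const hA c)).const_mul u)).sub
    (int_const hA _)

end ints

/-- The functional step for one cell. -/
lemma single_pl {A B D : Set (E d)} (hAm : MeasurableSet A) (hBm : MeasurableSet B)
    (hDm : MeasurableSet D) {R : ℝ} (hR : 1 ≤ R) (hA : A ⊆ Metric.closedBall 0 R)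
    (hB : B ⊆ Metric.closedBall 0 R) (hD : D ⊆ Metric.closedBall 0 R)
    (hmid : ∀ x ∈ A, ∀ y ∈ B, (1 / 2 : ℝ) • (x + y) ∈ D)
    {κ s q c ℓ : ℝ} {p : E d} (hκ0 : 0 < κ) (hκR : κ * R ^ 2 = 1 / 2)
    (hpsq : ‖p‖ + |s| ≤ 2 * q) (hqR : q ≤ 5 / 2 * R ^ 2) (hc1 : |c| ≤ 3 * R ^ 2 + 5 * q)
    (hℓ : ℓ = (κ * (‖p‖ + |s| * R)) ^ 2 / 16) (hℓ2 : ℓ ≤ q / 10)
    (hc : 1 / 4 * c * (volume.real A + volume.real B) =
      (∫ x in B, zeta R x) - (∫ x in A, zeta R x)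
      - 1 / 4 * (∫ x in A, Lam κ p s x) - 1 / 4 * (∫ x in B, Lam κ p s x)
      - ℓ * volume.real B) :
    1 / 2 * ((∫ x in A, zeta R x) + ∫ x in B, zeta R x) +
      1 / 8 * ((∫ x in A, Lam κ p s x) - (∫ x in B, Lam κ p s x)
        + c * (volume.real A - volume.real B)) - ℓ * volume.real B / 2
      ≤ ∫ x in D, zeta R x := by
  have hnA : ∀ x ∈ A, ‖x‖ ≤ R := fun x hx => by simpa using hA hx
  have hnB : ∀ x ∈ B, ‖x‖ ≤ R := fun x hx => by simpa using hB hx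
  have hnD : ∀ x ∈ D, ‖x‖ ≤ R := fun x hx => by simpa using hD hx
  have hL0 : 0 ≤ κ * (‖p‖ + |s| * R) := by positivity
  set L : ℝ := κ * (‖p‖ + |s| * R) with hL
  have hc3 := abs_le.1 hc1
  have hcontZ := zeta_continuous (d := d) R
  have hcontL := Lam_continuous κ p s
  have vH0 := val_H hAm hA R κ p s (1 / 4) c 0
  have vH1 := val_H hBm hB R κ p s (-(1 / 4)) c ℓ
  have hXY : ∫ x in A, (zeta R x + (1 / 4) * (Lam κ p s x + c) - 0) =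
      ∫ x in B, (zeta R x + (-(1 / 4)) * (Lam κ p s x + c) - ℓ) := by
    rw [vH0, vH1]; linarith
  have hPL := pl_real hAm hBm hDm (F := fun x => zeta R x + (1 / 4) * (Lam κ p s x + c) - 0)
    (G := fun x => zeta R x + (-(1 / 4)) * (Lam κ p s x + c) - ℓ) (Z := zeta R)
    (by fun_prop) (by fun_prop) hcontZ.measurable (int_H hAm hA _ _ _ _ _ _ _)
    (int_H hBm hB _ _ _ _ _ _ _) (int_zeta hDm hD R)
    (fun x hx => by
      have h1 := zeta_low (hnA x hx)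
      have h2 := abs_le.1 (Lam_bound hR hκ0 hκR hpsq (hnA x hx))
      linarith)
    (fun x hx => by
      have h1 := zeta_low (hnB x hx)
      have h2 := abs_le.1 (Lam_bound hR hκ0 hκR hpsq (hnB x hx))
      linarith)
    (fun x hx => by
      have h1 := zeta_low (hnD x hx)
      nlinarith)
    (fun x hx y hy => ⟨hmid x hx y hy, by
      rw [zeta_mid]
      have h1 := Lam_lip (p := p) (s := s) hκ0 (hnA x hx) (hnB y hy)
      rw [← hL] at h1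
      have h2 : L * ‖x - y‖ ≤ ‖x - y‖ ^ 2 + L ^ 2 / 4 := by nlinarith [sq_nonneg (‖x - y‖ - L / 2)]
      rw [hℓ]
      linarith⟩) hXY
  rw [vH0, vH1] at hPL
  linarith

lemma single_cell {A B D : Set (E d)} (hAm : MeasurableSet A) (hBm : MeasurableSet B)
    (hDm : MeasurableSet D) {R : ℝ} (hR : 1 ≤ R) (hA : A ⊆ Metric.closedBall 0 R)
    (hB : B ⊆ Metric.closedBall 0 R) (hD : D ⊆ Metric.closedBall 0 R)
    (hmid : ∀ x ∈ A, ∀ y ∈ B, (1 / 2 : ℝ) • (x + y) ∈ D)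
    {g : E d → ℝ} (hg : Measurable g) (hg1 : ∀ x ∈ B, |g x - 1| ≤ 1 / 8) {m : ℝ} (hm : 0 < m)
    (hAv : volume.real A = m) (hBv : ∫ x in B, g x = m) :
    1 / 2 * ((∫ x in A, zeta R x) + ∫ x in B, zeta R x) +
      ‖(∫ x in A, x) - ∫ x in B, g x • x‖ ^ 2 / m / (28 * R ^ 2) ≤
      (∫ x in D, zeta R x) + 24 * R ^ 2 * ∫ x in B, (g x - 1) ^ 2 := by
  obtain ⟨hb, hmb, hΔb, hΔV, hβ, hbg, ha1, hαβ⟩ :=
    single_facts hAm hBm hR hA hB hg hg1 hm hAv hBv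
  have hR0 : 0 < R := by linarith
  have hR2 : 0 < R ^ 2 := by positivity
  have hRR : R ≤ R ^ 2 := by nlinarith
  have hnA : ∀ x ∈ A, ‖x‖ ≤ R := fun x hx => by simpa using hA hx
  have hnB : ∀ x ∈ B, ‖x‖ ≤ R := fun x hx => by simpa using hB hx
  have hAfin : volume A < ⊤ := vol_lt_top_of_subset_ball hA
  have hBfin : volume B < ⊤ := vol_lt_top_of_subset_ball hB
  have vζA := val_zeta hAm hA R
  have vζB := val_zeta hBm hB R
  have vLA := val_Lam hAm hA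
  have vLB := val_Lam hBm hB
  have hpl := fun {κ s q c ℓ : ℝ} {p : E d} => single_pl hAm hBm hDm hR hA hB hD hmid
    (κ := κ) (s := s) (q := q) (c := c) (ℓ := ℓ) (p := p)
  have bLA : ∀ (κ : ℝ) (p : E d) (s q : ℝ), 0 < κ → κ * R ^ 2 = 1 / 2 → ‖p‖ + |s| ≤ 2 * q →
      |∫ x in A, Lam κ p s x| ≤ q * m := by
    intro κ p s q h1 h2 h3
    have := norm_setIntegral_le_of_norm_le_const (f := Lam κ p s) hAfin
      fun x hx => Lam_bound hR h1 h2 h3 (hnA x hx)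
    rwa [hAv] at this
  have bLB : ∀ (κ : ℝ) (p : E d) (s q : ℝ), 0 < κ → κ * R ^ 2 = 1 / 2 → ‖p‖ + |s| ≤ 2 * q →
      |∫ x in B, Lam κ p s x| ≤ q * volume.real B := fun κ p s q h1 h2 h3 =>
    norm_setIntegral_le_of_norm_le_const (f := Lam κ p s) hBfin
      fun x hx => Lam_bound hR h1 h2 h3 (hnB x hx)
  rw [hAv] at vζA hpl
  generalize volume.real B = b at *
  generalize (∫ x in B, |g x - 1|) = Δ at *
  generalize (∫ x in B, (g x - 1) ^ 2) = V at *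
  generalize (∫ x in A, ‖x‖ ^ 2 / 2) = α at *
  generalize (∫ x in B, ‖x‖ ^ 2 / 2) = β at *
  generalize (∫ x in B, g x * (‖x‖ ^ 2 / 2)) = βg at *
  generalize (∫ x in A, x) = a1 at *
  generalize (∫ x in B, x) = b1 at *
  generalize (∫ x in B, g x • x) = bg at *
  -- parameters
  obtain ⟨p, hp⟩ : ∃ p : E d, p = m⁻¹ • (a1 - bg) := ⟨_, rfl⟩
  obtain ⟨s, hsdef⟩ : ∃ s : ℝ, s = (α - βg) / m := ⟨_, rfl⟩
  obtain ⟨q, hq0, hq⟩ : ∃ q : ℝ, 0 ≤ q ∧ q ^ 2 = ‖p‖ ^ 2 + s ^ 2 :=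
    ⟨Real.sqrt (‖p‖ ^ 2 + s ^ 2), Real.sqrt_nonneg _, Real.sq_sqrt (by positivity)⟩
  obtain ⟨κ, hκ⟩ : ∃ κ : ℝ, κ = 1 / (2 * R ^ 2) := ⟨_, rfl⟩
  have hκ0 : 0 < κ := by rw [hκ]; positivity
  have hκR : κ * R ^ 2 = 1 / 2 := by rw [hκ]; field_simp
  have hnpR : ‖p‖ ≤ 2 * R := by
    rw [hp, norm_smul, norm_inv, Real.norm_eq_abs, abs_of_pos hm, inv_mul_le_iff₀ hm]
    linarith
  have hsR : |s| ≤ R ^ 2 / 2 := by
    rw [hsdef, abs_div, abs_of_pos hm, div_le_iff₀ hm]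
    exact hαβ
  obtain ⟨hqR, hpq, hsq, hpsq⟩ := alg_q hR hq hq0 (norm_nonneg p) hnpR hsR
  obtain ⟨ℓ, hℓ⟩ : ∃ ℓ : ℝ, ℓ = (κ * (‖p‖ + |s| * R)) ^ 2 / 16 := ⟨_, rfl⟩
  obtain ⟨hℓ1, hℓ0, hℓ2⟩ := alg_L hR hκ hq hq0 hqR hℓ
  replace bLA := bLA κ p s q hκ0 hκR hpsq
  replace bLB := bLB κ p s q hκ0 hκR hpsq
  have vLA' := vLA κ p s
  have vLB' := vLB κ p s
  have hpl' := fun {c : ℝ} => hpl (κ := κ) (s := s) (q := q) (c := c) (ℓ := ℓ) (p := p)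
    hκ0 hκR hpsq hqR
  clear hpl vLA vLB
  generalize (∫ x in A, Lam κ p s x) = IA at *
  generalize (∫ x in B, Lam κ p s x) = IB at *
  generalize (∫ x in A, zeta R x) = ZA at *
  generalize (∫ x in B, zeta R x) = ZB at *
  generalize (∫ x in D, zeta R x) = ZD at *
  have hmbpos : 0 < m + b := by linarith
  obtain ⟨c, hcdef⟩ : ∃ c : ℝ, c = 4 * (ZB - ZA - 1 / 4 * IA - 1 / 4 * IB - ℓ * b) / (m + b) :=
    ⟨_, rfl⟩
  have hc : 1 / 4 * c * (m + b) = ZB - ZA - 1 / 4 * IA - 1 / 4 * IB - ℓ * b := by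
    rw [hcdef]; field_simp
  have hs1 : α - β = m * s + (βg - β) := by
    rw [hsdef]; field_simp; ring
  have hc' : 1 / 4 * c * (m + b) = (10 * R ^ 2 * b - β) - (10 * R ^ 2 * m - α) - 1 / 4 * IA
      - 1 / 4 * IB - ℓ * b := by
    rw [hc, vζA, vζB]
  obtain ⟨hc1, hc2⟩ := alg_c hR hm hb hmb hΔb hs1 hβ hq0 hsq hℓ0 hℓ2 bLA bLB hc'
  have hPL := hpl' hc1 hℓ hℓ2 hc
  clear hpl'
  have hinner : ⟪p, a1⟫ - ⟪p, b1⟫ = m * ‖p‖ ^ 2 + ⟪p, bg - b1⟫ := by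
    have : a1 = m • p + bg := by
      rw [hp, smul_smul, mul_inv_cancel₀ hm.ne', one_smul]; abel
    rw [this, inner_add_right, inner_smul_right, real_inner_self_eq_norm_sq, inner_sub_right]
    ring
  obtain ⟨e1, he1def⟩ : ∃ e1 : ℝ, e1 = κ * (⟪p, bg - b1⟫ + s * (βg - β)) := ⟨_, rfl⟩
  have he1 : |e1| ≤ q * Δ := by
    have hΔ0 : 0 ≤ Δ := (abs_nonneg _).trans hmb
    have h1 : |⟪p, bg - b1⟫| ≤ ‖p‖ * (R * Δ) := (abs_real_inner_le_norm _ _).trans (by gcongr)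
    have h2 : |s * (βg - β)| ≤ |s| * (R ^ 2 / 2 * Δ) := by rw [abs_mul]; gcongr
    rw [he1def, abs_mul, abs_of_pos hκ0]
    have h3 : |⟪p, bg - b1⟫ + s * (βg - β)| ≤ (‖p‖ + |s|) * (R ^ 2 * Δ) := by
      refine (abs_add_le _ _).trans ?_
      have h0 := abs_nonneg s
      have h4 : ‖p‖ * (R * Δ) ≤ ‖p‖ * (R ^ 2 * Δ) := by gcongr
      have h5 : |s| * (R ^ 2 / 2 * Δ) ≤ |s| * (R ^ 2 * Δ) := by
        gcongr; linarith
      linarith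
    calc κ * |⟪p, bg - b1⟫ + s * (βg - β)| ≤ κ * ((‖p‖ + |s|) * (R ^ 2 * Δ)) := by gcongr
      _ = (κ * R ^ 2) * ((‖p‖ + |s|) * Δ) := by ring
      _ ≤ (κ * R ^ 2) * ((2 * q) * Δ) := by gcongr
      _ = q * Δ := by rw [hκR]; ring
  have hT : IA - IB + c * (m - b) = κ * m * q ^ 2 + e1 + c * (m - b) := by
    rw [vLA', vLB', hq, he1def]
    linear_combination κ * hinner + κ * s * hs1
  have hfin := alg_final (IA := ZA) (IB := ZB) (ID := ZD) (V := V)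
    hR hm hb hmb hΔb hΔV hκ hℓ1 hc2 he1 hT hPL
  refine le_trans ?_ hfin
  have hle : ‖a1 - bg‖ ^ 2 / m ≤ m * q ^ 2 := by
    rw [hq]
    have h1 : ‖p‖ ^ 2 = ‖a1 - bg‖ ^ 2 / m ^ 2 := by
      rw [hp, norm_smul, norm_inv, Real.norm_eq_abs, abs_of_pos hm]; field_simp
    rw [h1]
    have h2 : ‖a1 - bg‖ ^ 2 / m = m * (‖a1 - bg‖ ^ 2 / m ^ 2) := by field_simp
    rw [h2]
    have h3 := sq_nonneg s
    gcongr
    linarith
  gcongr

end Vale.Agent.OT
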