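import Vale.Agent.OT.CellFacts
import Vale.Agent.OT.Single2

open MeasureTheory
open scoped ENNReal NNReal RealInnerProductSpace

namespace Vale.Agent.OT

variable {d N : ℕ}

/-- The potential: maximum of the affine functions `⟪x, y i⟫ - ψ i`. -/
noncomputable def lpot (y : Fin N → E d) (ψ : Fin N → ℝ) (x : E d) : ℝ := ⨆ i, (⟪x, y i⟫ - ψ i)

variable {K : Set (E d)} {y : Fin N → E d} {ψ : Fin N → ℝ}

lemma le_pot (y : Fin N → E d) (ψ : Fin N → ℝ) (x : E d) (i : Fin N) :
    ⟪x, y i⟫ - ψ i ≤ lpot y ψ x :=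
  le_ciSup (f := fun i => ⟪x, y i⟫ - ψ i) (Finite.bddAbove_range _) i

lemma pot_eq_of_mem {i : Fin N} {x : E d} (hx : x ∈ cell K y ψ i) :
    lpot y ψ x = ⟪x, y i⟫ - ψ i := by
  have : Nonempty (Fin N) := ⟨i⟩
  exact le_antisymm (ciSup_le hx.2) (le_pot y ψ x i)

lemma pot_le [Nonempty (Fin N)] {x : E d} {c : ℝ} (h : ∀ i, ⟪x, y i⟫ - ψ i ≤ c) :
    lpot y ψ x ≤ c := ciSup_le h

lemma pot_sub_le [Nonempty (Fin N)] {R : ℝ} (hy : ∀ i, ‖y i‖ ≤ R) (x x' : E d) :
    lpot y ψ x - lpot y ψ x' ≤ R * ‖x - x'‖ := by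
  rw [sub_le_iff_le_add]
  refine pot_le fun i => ?_
  have h1 := le_pot y ψ x' i
  have h2 : ⟪x - x', y i⟫ ≤ R * ‖x - x'‖ := by
    refine (real_inner_le_norm _ _).trans ?_
    rw [mul_comm]
    have := hy i
    gcongr
  rw [inner_sub_left] at h2
  linarith

lemma pot_lip [Nonempty (Fin N)] {R : ℝ} (hR : 0 ≤ R) (hy : ∀ i, ‖y i‖ ≤ R) :
    LipschitzWith R.toNNReal (lpot y ψ) := by
  refine LipschitzWith.of_dist_le_mul fun x x' => ?_
  rw [Real.coe_toNNReal R hR, Real.dist_eq, dist_eq_norm, abs_sub_le_iff]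
  refine ⟨pot_sub_le hy x x', ?_⟩
  rw [norm_sub_rev]
  exact pot_sub_le hy x' x

lemma pot_continuous [Nonempty (Fin N)] : Continuous (lpot y ψ) := by
  obtain ⟨i0, hi0⟩ := Finite.exists_max (fun i => ‖y i‖)
  exact (pot_lip (norm_nonneg (y i0)) hi0).continuous

lemma pot_subgrad {i : Fin N} {x : E d} (hx : x ∈ cell K y ψ i) (x' : E d) :
    lpot y ψ x + ⟪y i, x' - x⟫ ≤ lpot y ψ x' := by
  rw [pot_eq_of_mem hx]
  have := le_pot y ψ x' i
  rw [inner_sub_right, real_inner_comm x' (y i), real_inner_comm x (y i)]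
  linarith

section

variable {g : E d → ℝ} {R : ℝ}

/-- duality, inequality part: any partition is bounded by the dual value -/
lemma dual_le [Nonempty (Fin N)] (hK : IsCompact K) (hKR : K ⊆ Metric.closedBall 0 R)
    (hg : Measurable g) (hg0 : ∀ x ∈ K, 0 ≤ g x) {C : ℝ} (hgC : ∀ x ∈ K, g x ≤ C)
    (hy : Function.Injective y) {m : Fin N → ℝ}
    (hA : ∀ i, ∫ x in cell K y ψ i, g x = m i) (y' : Fin N → E d) (ψ' : Fin N → ℝ) :
    ∑ i, ⟪∫ x in cell K y ψ i, g x • x, y' i⟫ ≤ (∫ x in K, lpot y' ψ' x * g x) + ∑ i, m i * ψ' i := by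
  have hKm := hK.measurableSet
  have hKcl := hK.isClosed
  have hC0 : ∀ x ∈ K, ‖g x‖ ≤ C := fun x hx => by
    rw [Real.norm_eq_abs, abs_of_nonneg (hg0 x hx)]; exact hgC x hx
  have hnK : ∀ x ∈ K, ‖x‖ ≤ R := fun x hx => by simpa using hKR hx
  have ig : IntegrableOn g K := integrableOn_of_bdd hKm hKR hg.aestronglyMeasurable hC0
  have igx : IntegrableOn (fun x : E d => g x • x) K :=
    integrableOn_of_bdd hKm hKR (by fun_prop) (C := C * R) fun x hx => by
      rw [norm_smul]
      have h1 := hC0 x hx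
      have h2 := hnK x hx
      have : 0 ≤ C := (norm_nonneg _).trans h1
      gcongr
  obtain ⟨B, hB⟩ := hK.exists_bound_of_continuousOn (pot_continuous (y := y') (ψ := ψ')).continuousOn
  have ipg : IntegrableOn (fun x => lpot y' ψ' x * g x) K :=
    integrableOn_of_bdd hKm hKR
      ((pot_continuous.measurable.mul hg).aestronglyMeasurable) (C := B * C) fun x hx => by
      rw [norm_mul]
      have h1 := hC0 x hx
      have h2 := hB x hx
      have : 0 ≤ B := (norm_nonneg _).trans h2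
      gcongr
  rw [integral_cells hKcl hy ipg, ← Finset.sum_add_distrib]
  refine Finset.sum_le_sum fun i _ => ?_
  have hsub := cell_subset (K := K) (y := y) (ψ := ψ) i
  have hcm := cell_measurable (K := K) (y := y) (ψ := ψ) hKcl i
  rw [← hA i, real_inner_comm, ← integral_inner (igx.mono_set hsub), mul_comm, ← integral_const_mul,
    ← integral_add (ipg.mono_set hsub) ((ig.mono_set hsub).const_mul _)]
  refine setIntegral_mono_on ((igx.mono_set hsub).const_inner _)
    ((ipg.mono_set hsub).add ((ig.mono_set hsub).const_mul _)) hcm fun x hx => ?_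
  rw [inner_smul_right, real_inner_comm, mul_comm (lpot y' ψ' x), mul_comm (ψ' i), ← mul_add]
  have h1 := le_pot y' ψ' x i
  have h2 := hg0 x hx.1
  gcongr
  linarith

/-- duality, equality part -/
lemma dual_eq [Nonempty (Fin N)] (hK : IsCompact K) (hKR : K ⊆ Metric.closedBall 0 R)
    (hg : Measurable g) (hg0 : ∀ x ∈ K, 0 ≤ g x) {C : ℝ} (hgC : ∀ x ∈ K, g x ≤ C)
    (hy : Function.Injective y) {m : Fin N → ℝ}
    (hA : ∀ i, ∫ x in cell K y ψ i, g x = m i) :
    ∑ i, ⟪∫ x in cell K y ψ i, g x • x, y i⟫ = (∫ x in K, lpot y ψ x * g x) + ∑ i, m i * ψ i := by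
  have hKm := hK.measurableSet
  have hKcl := hK.isClosed
  have hC0 : ∀ x ∈ K, ‖g x‖ ≤ C := fun x hx => by
    rw [Real.norm_eq_abs, abs_of_nonneg (hg0 x hx)]; exact hgC x hx
  have hnK : ∀ x ∈ K, ‖x‖ ≤ R := fun x hx => by simpa using hKR hx
  have ig : IntegrableOn g K := integrableOn_of_bdd hKm hKR hg.aestronglyMeasurable hC0
  have igx : IntegrableOn (fun x : E d => g x • x) K :=
    integrableOn_of_bdd hKm hKR (by fun_prop) (C := C * R) fun x hx => by
      rw [norm_smul]
      have h1 := hC0 x hx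
      have h2 := hnK x hx
      have : 0 ≤ C := (norm_nonneg _).trans h1
      gcongr
  obtain ⟨B, hB⟩ := hK.exists_bound_of_continuousOn (pot_continuous (y := y) (ψ := ψ)).continuousOn
  have ipg : IntegrableOn (fun x => lpot y ψ x * g x) K :=
    integrableOn_of_bdd hKm hKR
      ((pot_continuous.measurable.mul hg).aestronglyMeasurable) (C := B * C) fun x hx => by
      rw [norm_mul]
      have h1 := hC0 x hx
      have h2 := hB x hx
      have : 0 ≤ B := (norm_nonneg _).trans h2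
      gcongr
  rw [integral_cells hKcl hy ipg, ← Finset.sum_add_distrib]
  refine Finset.sum_congr rfl fun i _ => ?_
  have hsub := cell_subset (K := K) (y := y) (ψ := ψ) i
  have hcm := cell_measurable (K := K) (y := y) (ψ := ψ) hKcl i
  rw [← hA i, real_inner_comm, ← integral_inner (igx.mono_set hsub), mul_comm, ← integral_const_mul,
    ← integral_add (ipg.mono_set hsub) ((ig.mono_set hsub).const_mul _)]
  refine setIntegral_congr_fun hcm fun x hx => ?_
  rw [inner_smul_right, real_inner_comm, pot_eq_of_mem hx]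
  ring

end

end Vale.Agent.OT
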