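import Vale.Agent.OT.Pot

open MeasureTheory Filter Topology
open scoped ENNReal NNReal RealInnerProductSpace

namespace Vale.Agent.OT

variable {d N : ℕ}

/-- The piecewise constant map sending a cell to its site. -/
noncomputable def sel (K : Set (E d)) (y : Fin N → E d) (ψ : Fin N → ℝ) (x : E d) : E d :=
  ∑ j, (cell K y ψ j).indicator (fun _ => y j) x

variable {K : Set (E d)} {y : Fin N → E d} {ψ : Fin N → ℝ}

lemma sel_measurable (hK : IsClosed K) : Measurable (sel K y ψ) := by
  unfold sel
  refine Finset.measurable_sum _ fun j _ => ?_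
  exact measurable_const.indicator (cell_measurable hK j)

lemma sel_ae (hy : Function.Injective y) :
    ∀ᵐ x ∂(volume : Measure (E d)), ∀ i, x ∈ cell K y ψ i → sel K y ψ x = y i := by
  have h : ∀ᵐ x ∂(volume : Measure (E d)), ∀ i j, i ≠ j → x ∉ cell K y ψ i ∩ cell K y ψ j := by
    rw [ae_all_iff]; intro i
    rw [ae_all_iff]; intro j
    by_cases hij : i = j
    · exact Eventually.of_forall fun x hne => absurd hij hne
    · have : ∀ᵐ x ∂(volume : Measure (E d)), x ∉ cell K y ψ i ∩ cell K y ψ j := by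
        rw [ae_iff]; simp only [not_not]
        exact cell_aedisjoint hy hij
      filter_upwards [this] with x hx _ using hx
  filter_upwards [h] with x hx i hi
  unfold sel
  rw [Finset.sum_eq_single i]
  · rw [Set.indicator_of_mem hi]
  · intro j _ hji
    rw [Set.indicator_of_notMem]
    intro hj
    exact hx i j (Ne.symm hji) ⟨hi, hj⟩
  · intro h; exact absurd (Finset.mem_univ i) h

lemma sel_subgrad [Nonempty (Fin N)] (hK : IsClosed K) (hy : Function.Injective y) :
    SubgradAE K (lpot y ψ) (sel K y ψ) := by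
  unfold SubgradAE
  rw [ae_restrict_iff' hK.measurableSet]
  filter_upwards [sel_ae (K := K) (ψ := ψ) hy] with x hx hxK x' _
  obtain ⟨i, hi⟩ := cell_cover (y := y) (ψ := ψ) hxK
  rw [hx i hi]
  exact pot_subgrad hi x'

lemma sel_bound [Nonempty (Fin N)] (hK : IsClosed K) (hy : Function.Injective y) {R : ℝ}
    (hR : ∀ i, ‖y i‖ ≤ R) : ∀ᵐ x ∂(volume.restrict K), ‖sel K y ψ x‖ ≤ R := by
  rw [ae_restrict_iff' hK.measurableSet]
  filter_upwards [sel_ae (K := K) (ψ := ψ) hy] with x hx hxK
  obtain ⟨i, hi⟩ := cell_cover (y := y) (ψ := ψ) hxK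
  rw [hx i hi]
  exact hR i

lemma sel_integral [Nonempty (Fin N)] (hK : IsCompact K) (hy : Function.Injective y)
    {R : ℝ} (hR : ∀ i, ‖y i‖ ≤ R)
    {g : E d → ℝ} (hg : Measurable g) {C : ℝ} (hgC : ∀ x ∈ K, ‖g x‖ ≤ C) {m : Fin N → ℝ}
    (hA : ∀ i, ∫ x in cell K y ψ i, g x = m i) {φ : E d → ℝ} (hφ : Continuous φ) :
    ∫ x in K, φ (sel K y ψ x) * g x = ∑ i, m i * φ (y i) := by
  obtain ⟨R0, hR0, hKR⟩ := hK.isBounded.subset_closedBall_lt 0 0
  obtain ⟨B, hB⟩ := (isCompact_closedBall (0 : E d) R).exists_bound_of_continuousOn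
    hφ.continuousOn
  have hint : IntegrableOn (fun x => φ (sel K y ψ x) * g x) K := by
    have h1 : IntegrableOn (fun _ : E d => B * C) K := integrableOn_const (hs := hK.measure_lt_top.ne)
    refine h1.mono' ((hφ.measurable.comp (sel_measurable hK.isClosed)).mul hg).aestronglyMeasurable ?_
    have hm := ae_restrict_mem (μ := (volume : Measure (E d))) hK.measurableSet
    filter_upwards [sel_bound (K := K) (ψ := ψ) hK.isClosed hy hR, hm] with x hx hxK
    rw [norm_mul]
    have h2 := hB (sel K y ψ x) (by simpa using hx)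
    have h3 := hgC x hxK
    have : 0 ≤ B := (norm_nonneg _).trans h2
    gcongr
  rw [integral_cells hK.isClosed hy hint]
  refine Finset.sum_congr rfl fun i _ => ?_
  rw [← hA i, mul_comm, ← integral_const_mul]
  refine setIntegral_congr_ae (cell_measurable hK.isClosed i) ?_
  filter_upwards [sel_ae (K := K) (ψ := ψ) hy] with x hx hxi
  rw [hx i hxi]

end Vale.Agent.OT
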