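import Mathlib

namespace Vale.Agent.OT

/-- bounds on q -/
lemma alg_q {R np s q : ℝ} (hR : 1 ≤ R) (hq : q ^ 2 = np ^ 2 + s ^ 2) (hq0 : 0 ≤ q)
    (hnp : 0 ≤ np) (hnpR : np ≤ 2 * R) (hsR : |s| ≤ R ^ 2 / 2) :
    q ≤ 5 / 2 * R ^ 2 ∧ np ≤ q ∧ |s| ≤ q ∧ np + |s| ≤ 2 * q := by
  have h0 : 0 ≤ |s| := abs_nonneg s
  have h1 : q ≤ np + |s| := by
    apply abs_le_of_sq_le_sq' _ (by positivity) |>.2
    rw [hq, ← sq_abs s]; nlinarith
  have h2 : np ≤ q := by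
    apply abs_le_of_sq_le_sq' _ hq0 |>.2
    nlinarith [sq_nonneg s]
  have h3 : |s| ≤ q := by
    apply abs_le_of_sq_le_sq' _ hq0 |>.2
    rw [hq, sq_abs]; nlinarith
  refine ⟨?_, h2, h3, by linarith⟩
  nlinarith

lemma alg_L {R np s q κ ℓ : ℝ} (hR : 1 ≤ R) (hκ : κ = 1 / (2 * R ^ 2))
    (hq : q ^ 2 = np ^ 2 + s ^ 2) (hq0 : 0 ≤ q) (hqR : q ≤ 5 / 2 * R ^ 2)
    (hℓ : ℓ = (κ * (np + |s| * R)) ^ 2 / 16) :
    16 * ℓ ≤ κ * q ^ 2 ∧ 0 ≤ ℓ ∧ ℓ ≤ q / 10 := by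
  have hR2 : 0 < R ^ 2 := by positivity
  have hκ0 : 0 < κ := by rw [hκ]; positivity
  have hκR : κ * R ^ 2 = 1 / 2 := by rw [hκ]; field_simp
  have h0 : 0 ≤ |s| := abs_nonneg s
  have h1 : (np + |s| * R) ^ 2 ≤ 2 * R ^ 2 * q ^ 2 := by
    rw [hq, ← sq_abs s]
    nlinarith [sq_nonneg (np - |s| * R), sq_nonneg np, mul_nonneg (sq_nonneg np) (by nlinarith : 0 ≤ R ^ 2 - 1)]
  have h2 : 16 * ℓ ≤ κ * q ^ 2 := by
    rw [hℓ]
    calc 16 * ((κ * (np + |s| * R)) ^ 2 / 16) = κ ^ 2 * (np + |s| * R) ^ 2 := by ring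
      _ ≤ κ ^ 2 * (2 * R ^ 2 * q ^ 2) := by gcongr
      _ = κ * (2 * (κ * R ^ 2)) * q ^ 2 := by ring
      _ = κ * q ^ 2 := by rw [hκR]; ring
  refine ⟨h2, by rw [hℓ]; positivity, ?_⟩
  have h3 : κ * q ≤ 5 / 4 := by
    calc κ * q ≤ κ * (5 / 2 * R ^ 2) := by gcongr
      _ = 5 / 2 * (κ * R ^ 2) := by ring
      _ = 5 / 4 := by rw [hκR]; ring
  nlinarith

lemma alg_c {R m b α β βg Δ s q ℓ c a₁ b₁ : ℝ} (hR : 1 ≤ R) (hm : 0 < m) (hb : 0 < b)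
    (hmb : |m - b| ≤ Δ) (hΔb : Δ ≤ b / 8) (hs : α - β = m * s + (βg - β))
    (hβ : |βg - β| ≤ R ^ 2 / 2 * Δ) (hq0 : 0 ≤ q) (hsq : |s| ≤ q)
    (hℓ0 : 0 ≤ ℓ) (hℓ : ℓ ≤ q / 10) (ha₁ : |a₁| ≤ q * m) (hb₁ : |b₁| ≤ q * b)
    (hc : 1 / 4 * c * (m + b) = (10 * R ^ 2 * b - β) - (10 * R ^ 2 * m - α) - 1 / 4 * a₁
      - 1 / 4 * b₁ - ℓ * b) :
    |c| ≤ 3 * R ^ 2 + 5 * q ∧ |c| * m ≤ 42 * R ^ 2 * Δ + 5 * q * m := by
  have hΔ0 : 0 ≤ Δ := (abs_nonneg _).trans hmb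
  have hR2 : 1 ≤ R ^ 2 := by nlinarith
  have hm1 : m ≤ 9 / 8 * b := by have := (abs_le.1 hmb).2; linarith
  have hm2 : 7 / 8 * b ≤ m := by have := (abs_le.1 hmb).1; linarith
  have key : |1 / 4 * c * (m + b)| ≤ 21 / 2 * R ^ 2 * Δ + q * m + 1 / 4 * q * (m + b) + q / 10 * b := by
    rw [hc]
    have e : (10 * R ^ 2 * b - β) - (10 * R ^ 2 * m - α) - 1 / 4 * a₁ - 1 / 4 * b₁ - ℓ * b
      = -(10 * R ^ 2 * (m - b)) + (βg - β) + m * s - 1 / 4 * a₁ - 1 / 4 * b₁ - ℓ * b := by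
      linear_combination hs
    rw [e]
    have t1 : |10 * R ^ 2 * (m - b)| ≤ 10 * R ^ 2 * Δ := by
      rw [abs_mul, abs_of_nonneg (by positivity : (0:ℝ) ≤ 10 * R ^ 2)]
      gcongr
    have t2 : |m * s| ≤ q * m := by
      rw [abs_mul, abs_of_pos hm, mul_comm]; gcongr
    have t3 : ℓ * b ≤ q / 10 * b := by gcongr
    have t4 : 0 ≤ ℓ * b := by positivity
    have u1 := abs_le.1 t1
    have u2 := abs_le.1 t2
    have u3 := abs_le.1 hβ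
    have u4 := abs_le.1 ha₁
    have u5 := abs_le.1 hb₁
    rw [abs_le]
    constructor <;> linarith
  have hmbp : 0 < m + b := by linarith
  have e2 : |1 / 4 * c * (m + b)| = 1 / 4 * |c| * (m + b) := by
    rw [abs_mul, abs_mul, abs_of_pos hmbp]; norm_num
  rw [e2] at key
  constructor
  · -- |c| (m+b) ≤ 42 R² Δ + ...
    have : |c| * (m + b) ≤ (3 * R ^ 2 + 5 * q) * (m + b) := by
      have h1 : R ^ 2 * Δ ≤ R ^ 2 * (b / 8) := by gcongr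
      have h2 : q * m ≤ q * (9 / 8 * b) := by gcongr
      have h3 : q * (7 / 8 * b) ≤ q * m := by gcongr
      have h4 : R ^ 2 * (7 / 8 * b) ≤ R ^ 2 * m := by gcongr
      have h5 : 0 ≤ q * b := by positivity
      have h6 : 0 ≤ R ^ 2 * b := by positivity
      linarith
    exact le_of_mul_le_mul_right this hmbp
  · have hc0 := abs_nonneg c
    -- |c| (m+b) ≤ 42 R² Δ + 4 q m + q (m+b) + (4/10) q b
    have h2 : |c| * m + |c| * b ≤ 42 * (R ^ 2 * Δ) + 5 * (q * m) + 14 / 10 * (q * b) := by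
      linarith
    have h3 : 8 / 9 * (|c| * m) ≤ |c| * b := by
      have : |c| * m ≤ |c| * (9 / 8 * b) := by gcongr
      linarith
    have h5 : q * b ≤ 8 / 7 * (q * m) := by
      have : q * (7 / 8 * b) ≤ q * m := by gcongr
      linarith
    have h6 : 0 ≤ R ^ 2 * Δ := by positivity
    have h7 : 0 ≤ q * m := by positivity
    linarith

/-- final combination -/
lemma alg_final {R m b Δ V q κ c ℓ IA IB ID T e1 : ℝ} (hR : 1 ≤ R) (hm : 0 < m) (hb : 0 < b)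
    (hmb : |m - b| ≤ Δ) (hΔb : Δ ≤ b / 8) (hΔV : Δ ^ 2 ≤ b * V)
    (hκ : κ = 1 / (2 * R ^ 2)) (hℓ : 16 * ℓ ≤ κ * q ^ 2)
    (hc : |c| * m ≤ 42 * R ^ 2 * Δ + 5 * q * m) (he1 : |e1| ≤ q * Δ)
    (hT : T = κ * m * q ^ 2 + e1 + c * (m - b))
    (hPL : 1 / 2 * (IA + IB) + 1 / 8 * T - ℓ * b / 2 ≤ ID) :
    1 / 2 * (IA + IB) + m * q ^ 2 / (28 * R ^ 2) ≤ ID + 24 * R ^ 2 * V := by
  have hΔ0 : 0 ≤ Δ := (abs_nonneg _).trans hmb
  have hR2 : 0 < R ^ 2 := by positivity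
  have hm2 : 7 / 8 * b ≤ m := by have := (abs_le.1 hmb).1; linarith
  have hκ0 : 0 < κ := by rw [hκ]; positivity
  have hκR : κ * R ^ 2 = 1 / 2 := by rw [hκ]; field_simp
  -- set D = Δ²/m
  set D := Δ ^ 2 / m with hD
  have hDm : D * m = Δ ^ 2 := by rw [hD]; field_simp
  have hD0 : 0 ≤ D := by positivity
  have hV : D ≤ 8 / 7 * V := by
    have hV0 : 0 ≤ V := by
      by_contra hneg
      push Not at hneg
      nlinarith [sq_nonneg Δ]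
    have : D * m ≤ 8 / 7 * V * m := by
      have h1 : b * V ≤ (8 / 7 * m) * V := by
        have : b ≤ 8 / 7 * m := by linarith
        gcongr
      rw [hDm]; linarith
    exact le_of_mul_le_mul_right this hm
  -- qΔ estimate
  have hqΔ : 6 * (q * Δ) ≤ 1 / 7 * (κ * m * q ^ 2) + 126 * R ^ 2 * D := by
    -- multiply by m κ
    have h1 : 6 * (q * Δ) * (κ * m) ≤ (1 / 7 * (κ * m * q ^ 2) + 126 * R ^ 2 * D) * (κ * m) := by
      have : (1 / 7 * (κ * m * q ^ 2) + 126 * R ^ 2 * D) * (κ * m)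
        = 1 / 7 * (κ * m * q) ^ 2 + 126 * (κ * R ^ 2) * (D * m) := by ring
      rw [this, hκR, hDm]
      have := sq_nonneg (κ * m * q - 21 * Δ)
      linarith
    exact le_of_mul_le_mul_right h1 (by positivity)
  have hcΔ : |c * (m - b)| ≤ 42 * R ^ 2 * D + 5 * (q * Δ) := by
    rw [abs_mul]
    have h1 : |c| * |m - b| ≤ |c| * Δ := by
      have := abs_nonneg c
      gcongr
    refine h1.trans ?_
    have h2 : |c| * Δ * m ≤ (42 * R ^ 2 * D + 5 * (q * Δ)) * m := by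
      have : (42 * R ^ 2 * D + 5 * (q * Δ)) * m = (42 * R ^ 2 * Δ + 5 * q * m) * Δ := by
        have : 42 * R ^ 2 * (D * m) = 42 * R ^ 2 * Δ ^ 2 := by rw [hDm]
        linarith
      rw [this]
      have h3 : |c| * m * Δ ≤ (42 * R ^ 2 * Δ + 5 * q * m) * Δ := by gcongr
      linarith
    exact le_of_mul_le_mul_right h2 hm
  have hTl : 6 / 7 * (κ * m * q ^ 2) - 168 * R ^ 2 * D ≤ T := by
    rw [hT]
    have a1 := (abs_le.1 he1).1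
    have a2 := (abs_le.1 hcΔ).1
    linarith
  have hℓb : ℓ * b ≤ 1 / 14 * (κ * m * q ^ 2) := by
    have h1 : 16 * (ℓ * b) ≤ κ * q ^ 2 * b := by
      have : 16 * ℓ * b ≤ κ * q ^ 2 * b := by gcongr
      linarith
    have h2 : κ * q ^ 2 * b ≤ κ * q ^ 2 * (8 / 7 * m) := by
      have : b ≤ 8 / 7 * m := by linarith
      gcongr
    linarith
  have hfin : m * q ^ 2 / (28 * R ^ 2) = 1 / 14 * (κ * m * q ^ 2) := by
    rw [hκ]; field_simp; ring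
  rw [hfin]
  have hRD : R ^ 2 * D ≤ R ^ 2 * (8 / 7 * V) := by gcongr
  linarith

end Vale.Agent.OT
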