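import Vale.Agent.OT.PL
import Vale.Agent.OT.SingleAlg

open MeasureTheory
open scoped ENNReal NNReal RealInnerProductSpace

namespace Vale.Agent.OT

variable {d : ℕ}

/-- Real version of the midpoint inequality on three sets. -/
lemma pl_real {A B D : Set (E d)} (hA : MeasurableSet A) (hB : MeasurableSet B)
    (hD : MeasurableSet D) {F G Z : E d → ℝ} (hF : Measurable F) (hG : Measurable G)
    (hZ : Measurable Z) (hFi : IntegrableOn F A) (hGi : IntegrableOn G B)
    (hZi : IntegrableOn Z D) (hF0 : ∀ x ∈ A, 0 ≤ F x) (hG0 : ∀ x ∈ B, 0 ≤ G x)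
    (hZ0 : ∀ x ∈ D, 0 ≤ Z x)
    (hmid : ∀ x ∈ A, ∀ y ∈ B, (1 / 2 : ℝ) • (x + y) ∈ D ∧
      (1 / 2 : ℝ) * (F x + G y) ≤ Z ((1 / 2 : ℝ) • (x + y)))
    (heq : ∫ x in A, F x = ∫ x in B, G x) :
    (1 / 2 : ℝ) * ((∫ x in A, F x) + ∫ x in B, G x) ≤ ∫ x in D, Z x := by
  have h := prekopa_leindler_half
    (f := A.indicator (fun x => ENNReal.ofReal (F x)))
    (g := B.indicator (fun x => ENNReal.ofReal (G x)))
    (h := D.indicator (fun x => ENNReal.ofReal (Z x)))
    (hF.ennreal_ofReal.indicator hA) (hG.ennreal_ofReal.indicator hB)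
    (hZ.ennreal_ofReal.indicator hD) ?_
  · rw [lintegral_indicator hA, lintegral_indicator hB, lintegral_indicator hD] at h
    rw [← ofReal_integral_eq_lintegral_ofReal hFi (ae_restrict_of_forall_mem hA hF0),
      ← ofReal_integral_eq_lintegral_ofReal hGi (ae_restrict_of_forall_mem hB hG0),
      ← ofReal_integral_eq_lintegral_ofReal hZi (ae_restrict_of_forall_mem hD hZ0)] at h
    have hF' : 0 ≤ ∫ x in A, F x := setIntegral_nonneg hA hF0
    have hZ' : 0 ≤ ∫ x in D, Z x := setIntegral_nonneg hD hZ0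
    rw [← heq] at h ⊢
    rw [← ENNReal.ofReal_mul hF', ← ENNReal.ofReal_pow hZ',
      ENNReal.ofReal_le_ofReal_iff (by positivity)] at h
    have : ∫ x in A, F x ≤ ∫ x in D, Z x := by nlinarith
    linarith
  · intro x y
    by_cases hx : x ∈ A
    · by_cases hy : y ∈ B
      · obtain ⟨h1, h2⟩ := hmid x hx y hy
        rw [Set.indicator_of_mem hx, Set.indicator_of_mem hy, Set.indicator_of_mem h1,
          ← ENNReal.ofReal_mul (hF0 x hx), ← ENNReal.ofReal_pow (hZ0 _ h1)]
        apply ENNReal.ofReal_le_ofReal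
        have a := hF0 x hx
        have b := hG0 y hy
        nlinarith [sq_nonneg (F x - G y)]
      · rw [Set.indicator_of_notMem hy]; simp
    · rw [Set.indicator_of_notMem hx]; simp

lemma vol_lt_top_of_subset_ball {A : Set (E d)} {R : ℝ} (hA : A ⊆ Metric.closedBall 0 R) :
    volume A < ⊤ :=
  (measure_mono hA).trans_lt measure_closedBall_lt_top

/-- Bounded measurable functions are integrable on bounded sets. -/
lemma integrableOn_of_bdd {F : Type*} [NormedAddCommGroup F] {A : Set (E d)}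
    (hAm : MeasurableSet A) {R : ℝ} (hA : A ⊆ Metric.closedBall 0 R) {f : E d → F}
    (hf : AEStronglyMeasurable f (volume.restrict A)) {C : ℝ} (hC : ∀ x ∈ A, ‖f x‖ ≤ C) :
    IntegrableOn f A := by
  have h1 : IntegrableOn (fun _ : E d => C) A :=
    integrableOn_const (hs := (vol_lt_top_of_subset_ball hA).ne)
  exact h1.mono' hf (ae_restrict_of_forall_mem hAm hC)

/-- Basic integral estimates with a density close to one. -/
lemma single_facts {A B : Set (E d)} (hAm : MeasurableSet A) (hBm : MeasurableSet B)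
    {R : ℝ} (hR : 1 ≤ R) (hA : A ⊆ Metric.closedBall 0 R) (hB : B ⊆ Metric.closedBall 0 R)
    {g : E d → ℝ} (hg : Measurable g) (hg1 : ∀ x ∈ B, |g x - 1| ≤ 1 / 8) {m : ℝ} (hm : 0 < m)
    (hAv : volume.real A = m) (hBv : ∫ x in B, g x = m) :
    let b := volume.real B
    let Δ := ∫ x in B, |g x - 1|
    let V := ∫ x in B, (g x - 1) ^ 2
    let α := ∫ x in A, ‖x‖ ^ 2 / 2
    let β := ∫ x in B, ‖x‖ ^ 2 / 2
    let βg := ∫ x in B, g x * (‖x‖ ^ 2 / 2)
    let a1 : E d := ∫ x in A, x
    let b1 : E d := ∫ x in B, x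
    let bg : E d := ∫ x in B, g x • x
    0 < b ∧ |m - b| ≤ Δ ∧ Δ ≤ b / 8 ∧ Δ ^ 2 ≤ b * V ∧ |βg - β| ≤ R ^ 2 / 2 * Δ ∧
      ‖bg - b1‖ ≤ R * Δ ∧ ‖a1 - bg‖ ≤ 2 * R * m ∧ |α - βg| ≤ R ^ 2 / 2 * m := by
  intro b Δ V α β βg a1 b1 bg
  have hR0 : 0 ≤ R := by linarith
  have hBfin : volume B < ⊤ := vol_lt_top_of_subset_ball hB
  have hAfin : volume A < ⊤ := vol_lt_top_of_subset_ball hA
  have hnA : ∀ x ∈ A, ‖x‖ ≤ R := fun x hx => by simpa using hA hx
  have hnB : ∀ x ∈ B, ‖x‖ ≤ R := fun x hx => by simpa using hB hx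
  have hgB : ∀ x ∈ B, 7 / 8 ≤ g x ∧ g x ≤ 9 / 8 := fun x hx => by
    have := abs_le.1 (hg1 x hx); constructor <;> linarith [this.1, this.2]
  -- integrability
  have ig : IntegrableOn g B := integrableOn_of_bdd hBm hB hg.aestronglyMeasurable (C := 9 / 8)
    fun x hx => by
      rw [Real.norm_eq_abs, abs_le]; constructor <;> linarith [(hgB x hx).1, (hgB x hx).2]
  have i1 : IntegrableOn (fun _ : E d => (1 : ℝ)) B := integrableOn_const (hs := hBfin.ne)
  have iΔ : IntegrableOn (fun x => |g x - 1|) B := (ig.sub i1).abs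
  have iχA : IntegrableOn (fun x : E d => ‖x‖ ^ 2 / 2) A :=
    integrableOn_of_bdd hAm hA (by fun_prop) (C := R ^ 2 / 2) fun x hx => by
      rw [Real.norm_eq_abs, abs_of_nonneg (by positivity)]
      have := hnA x hx
      gcongr
  have iχB : IntegrableOn (fun x : E d => ‖x‖ ^ 2 / 2) B :=
    integrableOn_of_bdd hBm hB (by fun_prop) (C := R ^ 2 / 2) fun x hx => by
      rw [Real.norm_eq_abs, abs_of_nonneg (by positivity)]
      have := hnB x hx
      gcongr
  have iχgB : IntegrableOn (fun x : E d => g x * (‖x‖ ^ 2 / 2)) B :=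
    integrableOn_of_bdd hBm hB (by fun_prop) (C := 9 / 8 * (R ^ 2 / 2)) fun x hx => by
      rw [Real.norm_eq_abs, abs_mul, abs_of_nonneg (by positivity : 0 ≤ ‖x‖ ^ 2 / 2),
        abs_of_nonneg (by linarith [(hgB x hx).1])]
      have := hnB x hx
      have h2 := (hgB x hx).2
      gcongr
  have iA : IntegrableOn (fun x : E d => x) A :=
    integrableOn_of_bdd hAm hA (by fun_prop) (C := R) hnA
  have iB : IntegrableOn (fun x : E d => x) B :=
    integrableOn_of_bdd hBm hB (by fun_prop) (C := R) hnB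
  have igB : IntegrableOn (fun x : E d => g x • x) B :=
    integrableOn_of_bdd hBm hB (by fun_prop) (C := 9 / 8 * R) fun x hx => by
      rw [norm_smul, Real.norm_eq_abs, abs_of_nonneg (by linarith [(hgB x hx).1])]
      have := hnB x hx
      have h2 := (hgB x hx).2
      gcongr
  have iV : IntegrableOn (fun x => (g x - 1) ^ 2) B :=
    integrableOn_of_bdd hBm hB (by fun_prop) (C := 1) fun x hx => by
      rw [Real.norm_eq_abs, abs_of_nonneg (by positivity)]
      have := hg1 x hx
      rw [← sq_abs]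
      nlinarith [abs_nonneg (g x - 1)]
  have hbeq : ∫ x in B, (1 : ℝ) = b := by simp [b]
  have hmb : m - b = ∫ x in B, (g x - 1) := by
    rw [integral_sub ig i1, hBv, hbeq]
  have hb0 : 0 ≤ b := measureReal_nonneg
  have hmb' : |m - b| ≤ Δ := by
    rw [hmb]; exact abs_integral_le_integral_abs
  have hΔb : Δ ≤ b / 8 := by
    have : Δ ≤ ∫ x in B, (1 / 8 : ℝ) := setIntegral_mono_on iΔ
      (integrableOn_const (hs := hBfin.ne)) hBm hg1
    refine this.trans (le_of_eq ?_)
    rw [setIntegral_const]; simp only [smul_eq_mul]; ring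
  have hb : 0 < b := by
    rcases hb0.lt_or_eq with h | h
    · exact h
    · exfalso
      rw [← h] at hΔb hmb'
      have := (abs_le.1 hmb').2
      linarith
  have hΔV : Δ ^ 2 ≤ b * V := by
    -- Cauchy-Schwarz through the nonnegativity of ∫ (|g-1| - Δ/b)^2
    have h0 : 0 ≤ ∫ x in B, (|g x - 1| - Δ / b) ^ 2 := setIntegral_nonneg hBm fun x _ => sq_nonneg _
    have h1 : ∫ x in B, (|g x - 1| - Δ / b) ^ 2 = V - 2 * (Δ / b) * Δ + (Δ / b) ^ 2 * b := by
      have e : ∀ x, (|g x - 1| - Δ / b) ^ 2 = (g x - 1) ^ 2 - 2 * (Δ / b) * |g x - 1| + (Δ / b) ^ 2 := by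
        intro x
        have := sq_abs (g x - 1)
        linear_combination this
      simp_rw [e]
      have e1 : ∫ x in B, ((g x - 1) ^ 2 - 2 * (Δ / b) * |g x - 1| + (Δ / b) ^ 2)
          = (∫ x in B, ((g x - 1) ^ 2 - 2 * (Δ / b) * |g x - 1|)) + ∫ x in B, (Δ / b) ^ 2 :=
        integral_add (iV.sub (iΔ.const_mul _)) (integrableOn_const (hs := hBfin.ne))
      have e2 : ∫ x in B, ((g x - 1) ^ 2 - 2 * (Δ / b) * |g x - 1|)
          = (∫ x in B, (g x - 1) ^ 2) - ∫ x in B, 2 * (Δ / b) * |g x - 1| :=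
        integral_sub iV (iΔ.const_mul _)
      rw [e1, e2, integral_const_mul, setIntegral_const]
      simp only [smul_eq_mul]
      ring
    rw [h1] at h0
    have h2 : 0 ≤ b * (V - 2 * (Δ / b) * Δ + (Δ / b) ^ 2 * b) := mul_nonneg hb0 h0
    have h3 : b * (V - 2 * (Δ / b) * Δ + (Δ / b) ^ 2 * b) = b * V - Δ ^ 2 := by
      field_simp; ring
    linarith
  have hβ : |βg - β| ≤ R ^ 2 / 2 * Δ := by
    have e : βg - β = ∫ x in B, (g x - 1) * (‖x‖ ^ 2 / 2) := by
      rw [← integral_sub iχgB iχB]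
      congr 1; ext x; ring
    rw [e]
    refine abs_integral_le_integral_abs.trans ?_
    rw [← integral_const_mul]
    refine setIntegral_mono_on ?_ (iΔ.const_mul _) hBm fun x hx => ?_
    · have := (iχgB.sub iχB).abs
      refine this.congr (ae_of_all _ fun x => ?_)
      simp only [Pi.sub_apply]
      congr 1; ring
    · rw [abs_mul, abs_of_nonneg (by positivity : 0 ≤ ‖x‖ ^ 2 / 2), mul_comm]
      have := hnB x hx
      gcongr
  have hbg : ‖bg - b1‖ ≤ R * Δ := by
    have e : bg - b1 = ∫ x in B, (g x - 1) • x := by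
      rw [← integral_sub igB iB]
      congr 1; ext x; rw [sub_smul, one_smul]
    rw [e]
    refine (norm_integral_le_integral_norm _).trans ?_
    rw [← integral_const_mul]
    refine setIntegral_mono_on ?_ (iΔ.const_mul _) hBm fun x hx => ?_
    · have := (igB.sub iB).norm
      refine this.congr (ae_of_all _ fun x => ?_)
      simp only [Pi.sub_apply]
      rw [sub_smul, one_smul]
    · rw [norm_smul, Real.norm_eq_abs, mul_comm]
      have := hnB x hx
      gcongr
  have ha1 : ‖a1‖ ≤ R * m := by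
    have := norm_setIntegral_le_of_norm_le_const (f := fun x : E d => x) hAfin hnA
    rw [hAv] at this
    exact this
  have hbg2 : ‖bg‖ ≤ R * m := by
    refine (norm_integral_le_integral_norm _).trans ?_
    rw [← hBv, ← integral_const_mul]
    refine setIntegral_mono_on igB.norm (ig.const_mul _) hBm fun x hx => ?_
    rw [norm_smul, Real.norm_eq_abs, abs_of_nonneg (by linarith [(hgB x hx).1]), mul_comm]
    have := hnB x hx
    have h2 := (hgB x hx).1
    gcongr
  have hα0 : 0 ≤ α := setIntegral_nonneg hAm fun x _ => by positivity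
  have hα1 : α ≤ R ^ 2 / 2 * m := by
    have : α ≤ ∫ x in A, (R ^ 2 / 2 : ℝ) := setIntegral_mono_on iχA
      (integrableOn_const (hs := hAfin.ne)) hAm fun x hx => by
        have := hnA x hx
        gcongr
    refine this.trans (le_of_eq ?_)
    rw [setIntegral_const, hAv]; simp only [smul_eq_mul]; ring
  have hβg0 : 0 ≤ βg := setIntegral_nonneg hBm fun x hx => by
    have h2 := (hgB x hx).1
    have : 0 ≤ g x := by linarith
    positivity
  have hβg1 : βg ≤ R ^ 2 / 2 * m := by
    rw [← hBv, ← integral_const_mul]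
    refine setIntegral_mono_on iχgB (ig.const_mul _) hBm fun x hx => ?_
    rw [mul_comm]
    have := hnB x hx
    have h2 := (hgB x hx).1
    have : 0 ≤ g x := by linarith
    gcongr
  refine ⟨hb, hmb', hΔb, hΔV, hβ, hbg, ?_, ?_⟩
  · calc ‖a1 - bg‖ ≤ ‖a1‖ + ‖bg‖ := norm_sub_le _ _
      _ ≤ 2 * R * m := by linarith
  · rw [abs_le]; constructor <;> linarith

end Vale.Agent.OT
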