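import Vale.Agent.OT.Basic

open MeasureTheory
open scoped ENNReal NNReal

namespace Vale.Agent.OT

section box

variable {d : ℕ}

/-- A box in Euclidean space. -/
def box (a b : Fin d → ℝ) : Set (E d) := {x | ∀ i, x i ∈ Set.Icc (a i) (b i)}

lemma box_eq_preimage (a b : Fin d → ℝ) :
    box a b = (fun x : E d => (WithLp.ofLp x : Fin d → ℝ)) ⁻¹' (Set.Icc a b) := by
  ext x
  simp only [box, Set.mem_ofPred_eq, Set.mem_preimage, Set.mem_Icc, Pi.le_def]
  exact forall_and

lemma volume_box (a b : Fin d → ℝ) :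
    volume (box a b) = ∏ i, ENNReal.ofReal (b i - a i) := by
  rw [box_eq_preimage, (PiLp.volume_preserving_ofLp (Fin d)).measure_preimage
    measurableSet_Icc.nullMeasurableSet, Real.volume_Icc_pi]

lemma isClosed_box (a b : Fin d → ℝ) : IsClosed (box a b) := by
  rw [box_eq_preimage]
  exact isClosed_Icc.preimage (PiLp.continuous_ofLp 2 _)

lemma measurableSet_box (a b : Fin d → ℝ) : MeasurableSet (box a b) :=
  (isClosed_box a b).measurableSet

lemma convex_box (a b : Fin d → ℝ) : Convex ℝ (box a b) := by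
  rw [box_eq_preimage]
  exact (convex_Icc a b).is_linear_preimage
    ⟨fun x y => rfl, fun c x => rfl⟩

lemma isCompact_box (a b : Fin d → ℝ) : IsCompact (box a b) := by
  have h : box a b = (PiLp.homeomorph 2 (fun _ : Fin d => ℝ)) ⁻¹' (Set.Icc a b) := by
    rw [box_eq_preimage]; rfl
  rw [h]
  exact (PiLp.homeomorph 2 (fun _ : Fin d => ℝ)).isCompact_preimage.mpr isCompact_Icc

end box


section example3

variable {n : ℕ}

/-- The cube `[-1,1]^(n+2)`. -/
abbrev cube (n : ℕ) : Set (E (n + 2)) := box (fun _ => -1) (fun _ => 1)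

lemma volume_cube : volume (cube n) = 2 ^ (n + 2) := by
  rw [volume_box]
  simp only [Finset.prod_const, Finset.card_univ, Fintype.card_fin]
  norm_num

/-- first and second basis vectors -/
noncomputable def e0 (n : ℕ) : E (n + 2) := EuclideanSpace.single 0 1
noncomputable def e1 (n : ℕ) : E (n + 2) := EuclideanSpace.single 1 1

/-- The transport map of the example. -/
noncomputable def T (n : ℕ) (s δ : ℝ) (x : E (n + 2)) : E (n + 2) :=
  if |x 0| ≤ δ * (1 + s * x 1) then (s * δ) • e1 n else if x 0 < 0 then -e0 n else e0 n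

lemma measurable_T (s δ : ℝ) : Measurable (T n s δ) := by
  unfold T
  have h0 : Measurable (fun x : E (n + 2) => x 0) := by fun_prop
  have h1 : Measurable (fun x : E (n + 2) => x 1) := by fun_prop
  refine Measurable.ite ?_ measurable_const (Measurable.ite ?_ measurable_const measurable_const)
  · exact measurableSet_le (h0.abs) ((h1.const_mul s).const_add 1 |>.const_mul δ)
  · exact measurableSet_lt h0 measurable_const

/-- Reflection in the second coordinate. -/
noncomputable def r (n : ℕ) : E (n + 2) ≃ₗᵢ[ℝ] E (n + 2) :=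
  LinearIsometryEquiv.piLpCongrRight 2
    (fun i : Fin (n + 2) => if i = 1 then LinearIsometryEquiv.neg ℝ else LinearIsometryEquiv.refl ℝ ℝ)

lemma r_apply_one (x : E (n + 2)) : r n x 1 = - x 1 := by
  simp [r]

lemma r_apply_ne (x : E (n + 2)) {i : Fin (n + 2)} (hi : i ≠ 1) : r n x i = x i := by
  simp [r, hi]

lemma r_e0 : r n (e0 n) = e0 n := by
  ext i
  by_cases hi : i = 1
  · subst hi
    rw [r_apply_one]; simp [e0]
  · rw [r_apply_ne _ hi]

lemma r_e1 : r n (e1 n) = - e1 n := by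
  ext i
  by_cases hi : i = 1
  · subst hi
    rw [r_apply_one]; rfl
  · rw [r_apply_ne _ hi]; simp [e1, hi]

lemma T_neg_eq (δ : ℝ) (x : E (n + 2)) : T n (-1) δ x = r n (T n 1 δ (r n x)) := by
  have h0 : r n x 0 = x 0 := r_apply_ne _ (by simp)
  have h1 : r n x 1 = - x 1 := r_apply_one _
  unfold T
  rw [h0, h1]
  have : (1 + (-1) * x 1) = 1 + 1 * -x 1 := by ring
  rw [this]
  split_ifs with h2 h3
  · rw [map_smul, r_e1]; module
  · rw [map_neg, r_e0]
  · rw [r_e0]

lemma r_preimage_cube : (r n) ⁻¹' (cube n) = cube n := by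
  ext x
  simp only [cube, box, Set.mem_preimage, Set.mem_ofPred_eq]
  refine forall_congr' fun i => ?_
  by_cases hi : i = 1
  · subst hi
    rw [r_apply_one]
    simp only [Set.mem_Icc]
    constructor <;> rintro ⟨h1, h2⟩ <;> constructor <;> linarith
  · rw [r_apply_ne _ hi]

lemma map_r_unif : Measure.map (r n) (unif (cube n)) = unif (cube n) := by
  unfold unif
  rw [Measure.map_smul]
  congr 1
  have h := (LinearIsometryEquiv.measurePreserving (r n)).restrict_preimage
    (measurableSet_box (fun _ => (-1:ℝ)) (fun _ => (1:ℝ)) : MeasurableSet (cube n))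
  rw [r_preimage_cube] at h
  exact h.map_eq

instance : IsProbabilityMeasure (unif (cube n)) := by
  constructor
  unfold unif
  rw [Measure.smul_apply, Measure.restrict_apply_univ, smul_eq_mul, volume_cube]
  exact ENNReal.inv_mul_cancel (by positivity) (by simp)


lemma cube_mem (x : E (n + 2)) (hx : x ∈ cube n) (i : Fin (n + 2)) : |x i| ≤ 1 :=
  abs_le.mpr ⟨(hx i).1, (hx i).2⟩

lemma norm_e0 : ‖e0 n‖ = 1 := by simp [e0]
lemma norm_e1 : ‖e1 n‖ = 1 := by simp [e1]

lemma inner_e0 (x : E (n + 2)) : inner ℝ x (e0 n) = x 0 := by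
  simp [e0, EuclideanSpace.inner_single_right]
lemma inner_e1 (x : E (n + 2)) : inner ℝ x (e1 n) = x 1 := by
  simp [e1, EuclideanSpace.inner_single_right]

lemma e0_apply_zero : e0 n 0 = 1 := by simp [e0]
lemma e1_apply_zero : e1 n 0 = 0 := by simp [e1]

lemma ae_mem_cube : ∀ᵐ x ∂(unif (cube n)), x ∈ cube n := by
  unfold unif
  apply Measure.ae_smul_measure
  exact ae_restrict_mem (measurableSet_box _ _)

/-- The convex potential. -/
noncomputable def pot (n : ℕ) (s δ : ℝ) (x : E (n + 2)) : ℝ := max |x 0| (δ * (1 + s * x 1))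

lemma isOTMap_T {s δ : ℝ} (hs : s = 1 ∨ s = -1) (hδ : 0 ≤ δ) :
    IsOTMap (unif (cube n)) (Measure.map (T n s δ) (unif (cube n))) (T n s δ) := by
  have hcont : Continuous (pot n s δ) := by unfold pot; fun_prop
  have hcK : IsCompact (cube n) := isCompact_box _ _
  set A : Set (E (n + 2)) := {e0 n, -e0 n, (s * δ) • e1 n} with hA
  have hTA : ∀ x, T n s δ x ∈ A := by
    intro x
    unfold T
    split_ifs <;> simp [hA]
  refine isOTMap_of_potential (K := cube n) (A := A) ae_mem_cube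
    ((Set.toFinite A).measurableSet) (measurable_T s δ) (fun x _ => hTA x)
    (fun x => ‖x‖ ^ 2 - 2 * pot n s δ x) (fun y => ‖y‖ ^ 2 + 2 * (δ * (1 - |y 0|))) ?_ ?_ ?_ ?_
  · -- integrability of a
    have hc : Continuous (fun x : E (n + 2) => ‖x‖ ^ 2 - 2 * pot n s δ x) := by fun_prop
    have : IntegrableOn (fun x : E (n + 2) => ‖x‖ ^ 2 - 2 * pot n s δ x) (cube n) volume :=
      hc.continuousOn.integrableOn_compact hcK
    unfold unif
    refine Integrable.smul_measure this ?_
    rw [volume_cube]; simp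
  · -- integrability of b
    have hc : Continuous (fun y : E (n + 2) => ‖y‖ ^ 2 + 2 * (δ * (1 - |y 0|))) := by fun_prop
    have hae : ∀ᵐ y ∂(Measure.map (T n s δ) (unif (cube n))), y ∈ A := by
      rw [ae_map_iff (measurable_T s δ).aemeasurable (p := fun y => y ∈ A)
        (Set.toFinite A).measurableSet]
      exact Filter.Eventually.of_forall hTA
    refine Integrable.of_bound (C := 1 + δ ^ 2 + 2 * δ) hc.aestronglyMeasurable ?_
    filter_upwards [hae] with y hy
    rcases hy with rfl | rfl | rfl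
    · rw [norm_e0, e0_apply_zero]; norm_num; nlinarith [sq_nonneg δ]
    · rw [norm_neg, norm_e0]
      have : (-e0 n) 0 = -1 := by simp [e0]
      rw [this]; norm_num; nlinarith [sq_nonneg δ]
    · have h0 : ((s * δ) • e1 n) 0 = 0 := by simp [e1]
      have h1 : ‖(s * δ) • e1 n‖ ^ 2 = δ ^ 2 := by
        rw [norm_smul, norm_e1, mul_one, Real.norm_eq_abs, sq_abs]
        rcases hs with rfl | rfl <;> ring
      rw [h0, h1, abs_zero, sub_zero, mul_one, Real.norm_eq_abs, abs_of_nonneg (by positivity)]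
      linarith
  · intro x hx y hy
    have hexp : ‖x - y‖ ^ 2 = ‖x‖ ^ 2 - 2 * inner ℝ x y + ‖y‖ ^ 2 := norm_sub_sq_real x y
    rw [hexp]
    suffices h : inner ℝ x y ≤ pot n s δ x - δ * (1 - |y 0|) by linarith
    have hp1 : |x 0| ≤ pot n s δ x := le_max_left _ _
    have hp2 : δ * (1 + s * x 1) ≤ pot n s δ x := le_max_right _ _
    rcases hy with rfl | rfl | rfl
    · rw [inner_e0, e0_apply_zero]
      have := le_abs_self (x 0)
      norm_num; linarith
    · have h0 : (-e0 n) 0 = -1 := by simp [e0]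
      rw [inner_neg_right, inner_e0, h0]
      have := neg_le_abs (x 0)
      norm_num; linarith
    · have h0 : ((s * δ) • e1 n) 0 = 0 := by simp [e1]
      rw [inner_smul_right, inner_e1, h0]
      simp only [abs_zero, sub_zero, mul_one]
      linarith
  · intro x hx
    have hexp : ‖x - T n s δ x‖ ^ 2
        = ‖x‖ ^ 2 - 2 * inner ℝ x (T n s δ x) + ‖T n s δ x‖ ^ 2 := norm_sub_sq_real x _
    simp only
    rw [hexp]
    suffices h : inner ℝ x (T n s δ x) = pot n s δ x - δ * (1 - |(T n s δ x) 0|) by linarith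
    unfold T
    split_ifs with h1 h2
    · have h0 : ((s * δ) • e1 n) 0 = 0 := by simp [e1]
      rw [inner_smul_right, inner_e1, h0]
      have : pot n s δ x = δ * (1 + s * x 1) := max_eq_right h1
      rw [this]; simp only [abs_zero, sub_zero, mul_one]; ring
    · have h0 : (-e0 n) 0 = -1 := by simp [e0]
      rw [inner_neg_right, inner_e0, h0]
      have : pot n s δ x = |x 0| := max_eq_left (le_of_lt (not_le.mp h1))
      rw [this, abs_of_neg h2]; norm_num
    · rw [inner_e0, e0_apply_zero]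
      have : pot n s δ x = |x 0| := max_eq_left (le_of_lt (not_le.mp h1))
      rw [this, abs_of_nonneg (not_lt.mp h2)]; norm_num


lemma map_T_neg (δ : ℝ) : Measure.map (T n (-1) δ) (unif (cube n)) =
    Measure.map (r n) (Measure.map (T n 1 δ) (unif (cube n))) := by
  have hr : Measurable (r n) := (r n).continuous.measurable
  have h : T n (-1) δ = (r n) ∘ (T n 1 δ) ∘ (r n) := by
    ext1 x; exact T_neg_eq δ x
  rw [h, ← Measure.map_map hr ((measurable_T 1 δ).comp hr),
    ← Measure.map_map (measurable_T 1 δ) hr, map_r_unif]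

lemma unif_box_of_subset {a b : Fin (n + 2) → ℝ} (h : box a b ⊆ cube n) :
    unif (cube n) (box a b) = (2 ^ (n + 2))⁻¹ * ∏ i, ENNReal.ofReal (b i - a i) := by
  unfold unif
  rw [Measure.smul_apply, Measure.restrict_apply (measurableSet_box _ _),
    Set.inter_eq_left.mpr h, smul_eq_mul, volume_cube, volume_box]

lemma prod_fin_two (f : Fin (n + 2) → ℝ≥0∞) :
    ∏ i, f i = f 0 * f 1 * ∏ i : Fin n, f i.succ.succ := by
  rw [Fin.prod_univ_succ, Fin.prod_univ_succ, mul_assoc]
  rfl

lemma unif_slab {δ : ℝ} (_hδ : 0 ≤ δ) (hδ' : 2 * δ ≤ 1) :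
    unif (cube n) {x | |x 0| ≤ 2 * δ} ≤ ENNReal.ofReal (2 * δ) := by
  set a : Fin (n + 2) → ℝ := fun i => if i = 0 then -(2 * δ) else -1
  set b : Fin (n + 2) → ℝ := fun i => if i = 0 then 2 * δ else 1
  have hsub : box a b ⊆ cube n := by
    intro x hx i
    have := hx i
    simp only [a, b, Set.mem_Icc] at this ⊢
    split_ifs at this with h
    · constructor <;> linarith [this.1, this.2]
    · exact this
  have hle : unif (cube n) {x | |x 0| ≤ 2 * δ} ≤ unif (cube n) (box a b) := by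
    apply measure_mono_ae
    filter_upwards [ae_mem_cube] with x hx h
    change |x 0| ≤ 2 * δ at h
    change x ∈ box a b
    intro i
    simp only [a, b]
    split_ifs with hi
    · subst hi; exact abs_le.mp h
    · exact hx i
  refine hle.trans ?_
  rw [unif_box_of_subset hsub, prod_fin_two]
  have h0 : b 0 - a 0 = 4 * δ := by simp [a, b]; ring
  have h1 : b 1 - a 1 = 2 := by simp [a, b]; norm_num
  have h2 : ∀ i : Fin n, b i.succ.succ - a i.succ.succ = 2 := by
    intro i; simp [a, b]; norm_num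
  rw [h0, h1]
  simp only [h2, Finset.prod_const, Finset.card_univ, Fintype.card_fin]
  have h3 : ENNReal.ofReal (4 * δ) = 2 * ENNReal.ofReal (2 * δ) := by
    rw [show (4 * δ) = 2 * (2 * δ) by ring, ENNReal.ofReal_mul (by norm_num)]
    norm_num
  rw [h3]
  have h4 : ENNReal.ofReal 2 = 2 := by norm_num
  rw [h4]
  have h5 : (2 : ℝ≥0∞) * ENNReal.ofReal (2 * δ) * 2 * 2 ^ n = 2 ^ (n + 2) * ENNReal.ofReal (2 * δ) := by
    ring
  rw [h5, ← mul_assoc, ENNReal.inv_mul_cancel (by positivity) (by simp), one_mul]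

lemma unif_good {δ : ℝ} (hδ : 0 ≤ δ) (hδ' : 2 * δ ≤ 1) :
    ENNReal.ofReal (δ / 16) ≤
      unif (cube n) {x | 1 / 2 ≤ x 1 ∧ x 1 ≤ 1 ∧ 3 / 4 * δ ≤ x 0 ∧ x 0 ≤ 5 / 4 * δ} := by
  set a : Fin (n + 2) → ℝ := fun i => if i = 0 then 3 / 4 * δ else if i = 1 then 1 / 2 else -1
  set b : Fin (n + 2) → ℝ := fun i => if i = 0 then 5 / 4 * δ else 1
  have hsub : box a b ⊆ cube n := by
    intro x hx i
    have := hx i
    simp only [a, b, Set.mem_Icc] at this ⊢
    split_ifs at this with h h'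
    · constructor <;> linarith [this.1, this.2]
    · constructor <;> linarith [this.1, this.2]
    · exact this
  have hle : unif (cube n) (box a b) ≤
      unif (cube n) {x | 1 / 2 ≤ x 1 ∧ x 1 ≤ 1 ∧ 3 / 4 * δ ≤ x 0 ∧ x 0 ≤ 5 / 4 * δ} := by
    apply measure_mono
    intro x hx
    have h0 := hx 0
    have h1 := hx 1
    simp [a, b] at h0 h1
    exact ⟨by linarith [h1.1], h1.2, h0.1, h0.2⟩
  refine le_trans ?_ hle
  rw [unif_box_of_subset hsub, prod_fin_two]
  have h0 : b 0 - a 0 = δ / 2 := by simp [a, b]; ring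
  have h1 : b 1 - a 1 = 1 / 2 := by simp [a, b]; norm_num
  have h2 : ∀ i : Fin n, b i.succ.succ - a i.succ.succ = 2 := by
    intro i
    have e1 : (i.succ.succ : Fin (n + 2)) ≠ 0 := Fin.succ_ne_zero _
    have e2 : (i.succ.succ : Fin (n + 2)) ≠ 1 := by
      intro h
      have := Fin.succ_injective _ (h.trans Fin.succ_zero_eq_one'.symm)
      exact Fin.succ_ne_zero _ this
    simp only [a, b, e1, e2, if_false]; norm_num
  rw [h0, h1]
  simp only [h2, Finset.prod_const, Finset.card_univ, Fintype.card_fin]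
  have h4 : ENNReal.ofReal 2 = 2 := by norm_num
  rw [h4]
  have h3 : ENNReal.ofReal (δ / 2) * ENNReal.ofReal (1 / 2) = 4 * ENNReal.ofReal (δ / 16) := by
    rw [← ENNReal.ofReal_mul (by positivity), show (4 : ℝ≥0∞) = ENNReal.ofReal 4 by norm_num,
      ← ENNReal.ofReal_mul (by norm_num)]
    congr 1; ring
  rw [h3]
  have h5 : (4 : ℝ≥0∞) * ENNReal.ofReal (δ / 16) * 2 ^ n = 2 ^ (n + 2) * ENNReal.ofReal (δ / 16) := by
    ring
  rw [h5, ← mul_assoc, ENNReal.inv_mul_cancel (by positivity) (by simp), one_mul]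

/-- `W2` bound between the two targets. -/
lemma W2_bound {δ : ℝ} (hδ : 0 ≤ δ) (hδ' : 2 * δ ≤ 1) :
    W2 (Measure.map (T n 1 δ) (unif (cube n))) (Measure.map (T n (-1) δ) (unif (cube n))) ≤
      (ENNReal.ofReal (8 * δ ^ 3)) ^ (1 / 2 : ℝ) := by
  rw [map_T_neg]
  have hr : Measurable (r n) := (r n).continuous.measurable
  refine (W2_map_le hr).trans ?_
  apply ENNReal.rpow_le_rpow _ (by norm_num)
  rw [lintegral_map (by fun_prop) (measurable_T 1 δ)]
  have hpt : ∀ᵐ x ∂(unif (cube n)), ‖T n 1 δ x - r n (T n 1 δ x)‖ₑ ^ 2 ≤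
      Set.indicator {x : E (n + 2) | |x 0| ≤ 2 * δ} (fun _ => ENNReal.ofReal (4 * δ ^ 2)) x := by
    filter_upwards [ae_mem_cube] with x hx
    unfold T
    split_ifs with h1 h2
    · have hmem : x ∈ {x : E (n + 2) | |x 0| ≤ 2 * δ} := by
        change |x 0| ≤ 2 * δ
        have := (abs_le.mp (cube_mem x hx 1)).2
        nlinarith
      rw [Set.indicator_of_mem hmem, map_smul, r_e1, enorm_sq_eq]
      apply ENNReal.ofReal_le_ofReal
      have : (1 * δ) • e1 n - (1 * δ) • -e1 n = (2 * δ) • e1 n := by module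
      rw [this, norm_smul, norm_e1, mul_one, Real.norm_eq_abs, sq_abs]
      ring_nf; exact le_refl _
    · rw [map_neg, r_e0, sub_self]; simp
    · rw [r_e0, sub_self]; simp
  refine (lintegral_mono_ae hpt).trans ?_
  have hmeas : MeasurableSet {x : E (n + 2) | |x 0| ≤ 2 * δ} :=
    measurableSet_le (by fun_prop) measurable_const
  rw [lintegral_indicator_const hmeas]
  calc ENNReal.ofReal (4 * δ ^ 2) * unif (cube n) {x | |x 0| ≤ 2 * δ}
      ≤ ENNReal.ofReal (4 * δ ^ 2) * ENNReal.ofReal (2 * δ) := by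
        gcongr; exact unif_slab hδ hδ'
    _ = ENNReal.ofReal (8 * δ ^ 3) := by
        rw [← ENNReal.ofReal_mul (by positivity)]; congr 1; ring

/-- Lower bound for the distance of the two transport maps. -/
lemma lower_bound {δ : ℝ} (hδ : 0 < δ) (hδ' : 2 * δ ≤ 1) :
    (ENNReal.ofReal (δ / 16)) ^ (1 / 2 : ℝ) ≤
      eLpNorm (fun x => T n 1 δ x - T n (-1) δ x) 2 (unif (cube n)) := by
  rw [eLpNorm_eq_lintegral_rpow_enorm_toReal (by norm_num) (by norm_num)]
  simp only [ENNReal.toReal_ofNat]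
  apply ENNReal.rpow_le_rpow _ (by norm_num)
  refine (unif_good (n := n) hδ.le hδ').trans ?_
  set B := {x : E (n + 2) | 1 / 2 ≤ x 1 ∧ x 1 ≤ 1 ∧ 3 / 4 * δ ≤ x 0 ∧ x 0 ≤ 5 / 4 * δ} with hB
  have hBm : MeasurableSet B := by
    have hc0 : Measurable (fun x : E (n + 2) => x 0) := by fun_prop
    have hc1 : Measurable (fun x : E (n + 2) => x 1) := by fun_prop
    exact (measurableSet_le measurable_const hc1).inter ((measurableSet_le hc1 measurable_const).inter
      ((measurableSet_le measurable_const hc0).inter (measurableSet_le hc0 measurable_const)))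
  have h1 : unif (cube n) B = ∫⁻ x, B.indicator (fun _ => (1 : ℝ≥0∞)) x ∂(unif (cube n)) := by
    rw [lintegral_indicator_const hBm, one_mul]
  rw [h1]
  apply lintegral_mono
  intro x
  by_cases hx : x ∈ B
  · rw [Set.indicator_of_mem hx]
    obtain ⟨hx1, hx2, hx3, hx4⟩ := hx
    have hpos : 0 < x 0 := by nlinarith
    have habs : |x 0| = x 0 := abs_of_pos hpos
    have t1 : T n 1 δ x = (1 * δ) • e1 n := by
      unfold T
      rw [if_pos]
      rw [habs]; nlinarith
    have t2 : T n (-1) δ x = e0 n := by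
      unfold T
      rw [if_neg, if_neg (not_lt.mpr hpos.le)]
      rw [habs, not_le]; nlinarith
    simp only
    rw [t1, t2]
    have hnorm : 1 ≤ ‖(1 * δ) • e1 n - e0 n‖ := by
      have h3 : |((1 * δ) • e1 n - e0 n) 0| ≤ ‖(1 * δ) • e1 n - e0 n‖ := by
        have := PiLp.norm_apply_le ((1 * δ) • e1 n - e0 n) 0
        simpa using this
      have h4 : ((1 * δ) • e1 n - e0 n) 0 = -1 := by simp [e0, e1]
      rw [h4] at h3; simpa using h3
    have h5 : (1 : ℝ≥0∞) ≤ ‖(1 * δ) • e1 n - e0 n‖ₑ := by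
      rw [← ofReal_norm]
      exact ENNReal.one_le_ofReal.mpr hnorm
    calc (1 : ℝ≥0∞) = 1 ^ (2 : ℝ) := by simp
      _ ≤ _ := ENNReal.rpow_le_rpow h5 (by norm_num)
  · rw [Set.indicator_of_notMem hx]; exact bot_le


lemma norm_T_le {s δ : ℝ} (hs : s = 1 ∨ s = -1) (hδ : 0 ≤ δ) (hδ' : 2 * δ ≤ 1) (x : E (n + 2)) :
    ‖T n s δ x‖ ≤ 1 := by
  unfold T
  split_ifs
  · rw [norm_smul, norm_e1, mul_one, Real.norm_eq_abs]
    rcases hs with rfl | rfl
    · rw [one_mul, abs_of_nonneg hδ]; linarith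
    · rw [neg_one_mul, abs_neg, abs_of_nonneg hδ]; linarith
  · rw [norm_neg, norm_e0]
  · rw [norm_e0]

lemma nonempty_interior_cube : (interior (cube n)).Nonempty := by
  refine ⟨0, ?_⟩
  rw [mem_interior]
  refine ⟨{x : E (n + 2) | ∀ i, x i ∈ Set.Ioo (-1 : ℝ) 1}, ?_, ?_, ?_⟩
  · intro x hx i
    exact Set.Ioo_subset_Icc_self (hx i)
  · have : {x : E (n + 2) | ∀ i, x i ∈ Set.Ioo (-1 : ℝ) 1}
        = ⋂ i, (fun x : E (n + 2) => x i) ⁻¹' (Set.Ioo (-1 : ℝ) 1) := by
      ext x; simp
    rw [this]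
    exact isOpen_iInter_of_finite fun i => isOpen_Ioo.preimage (by fun_prop)
  · intro i; simp

end example3

/-- Every admissible exponent is at most `1/3`. -/
theorem admissible_le_third {d : ℕ} (hd : 2 ≤ d) {α : ℝ} (h : Admissible d α) : α ≤ 1 / 3 := by
  obtain ⟨n, rfl⟩ : ∃ n, d = n + 2 := ⟨d - 2, by omega⟩
  obtain ⟨hα0, -, h⟩ := h
  by_contra hcon
  rw [not_le] at hcon
  obtain ⟨C, hC⟩ := h (cube n) (isCompact_box _ _) (convex_box _ _) nonempty_interior_cube
    (Metric.closedBall 0 1) (isCompact_closedBall _ _) ⟨0, by simp⟩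
  -- the key inequality
  have key : ∀ δ : ℝ, 0 < δ → 2 * δ ≤ 1 →
      δ ≤ 16 * ((C : ℝ) ^ 2 * (8 * δ ^ 3) ^ α) := by
    intro δ hδ hδ'
    have hprob : ∀ s : ℝ, IsProbabilityMeasure (Measure.map (T n s δ) (unif (cube n))) :=
      fun s => Measure.isProbabilityMeasure_map (measurable_T s δ).aemeasurable
    have hsupp : ∀ s : ℝ, (s = 1 ∨ s = -1) →
        Measure.map (T n s δ) (unif (cube n)) (Metric.closedBall 0 1)ᶜ = 0 := by
      intro s hs
      rw [Measure.map_apply (measurable_T s δ) Metric.isClosed_closedBall.measurableSet.compl]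
      convert measure_empty (μ := unif (cube n))
      ext x
      simp only [Set.mem_preimage, Set.mem_compl_iff, Metric.mem_closedBall, dist_zero_right,
        Set.mem_empty_iff_false, iff_false, not_not]
      exact norm_T_le hs hδ.le hδ' x
    have h1 := hC _ _ (hprob 1) (hprob (-1)) (hsupp 1 (Or.inl rfl)) (hsupp (-1) (Or.inr rfl))
      _ _ (isOTMap_T (Or.inl rfl) hδ.le) (isOTMap_T (Or.inr rfl) hδ.le)
    have h2 := (lower_bound (n := n) hδ hδ').trans (h1.trans
      (mul_le_mul_right (ENNReal.rpow_le_rpow (W2_bound (n := n) hδ.le hδ') hα0.le) _))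
    -- square
    have h3 := ENNReal.rpow_le_rpow h2 (show (0 : ℝ) ≤ 2 by norm_num)
    rw [ENNReal.mul_rpow_of_nonneg _ _ (by norm_num), ← ENNReal.rpow_mul, ← ENNReal.rpow_mul,
      ← ENNReal.rpow_mul] at h3
    have e1 : (1 / 2 : ℝ) * 2 = 1 := by norm_num
    have e2 : (1 / 2 : ℝ) * (α * 2) = α := by ring
    rw [e1, ENNReal.rpow_one, e2, ENNReal.ofReal_rpow_of_pos (by positivity)] at h3
    have e3 : (C : ℝ≥0∞) ^ (2 : ℝ) = ENNReal.ofReal ((C : ℝ) ^ 2) := by
      rw [← ENNReal.ofReal_coe_nnreal, ENNReal.ofReal_rpow_of_nonneg C.coe_nonneg (by norm_num),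
        Real.rpow_two]
    rw [e3, ← ENNReal.ofReal_mul (by positivity), ENNReal.ofReal_le_ofReal_iff (by positivity)] at h3
    linarith
  -- contradiction as `δ → 0`
  set p : ℝ := 3 * α - 1 with hp
  have hp0 : 0 < p := by rw [hp]; linarith
  set M : ℝ := 16 * ((C : ℝ) ^ 2 * 8 ^ α) with hM
  have key2 : ∀ X : ℝ, 2 ≤ X → X ^ p ≤ M := by
    intro X hX
    have hX0 : 0 < X := by linarith
    have h1 := key (1 / X) (by positivity) (by rw [mul_one_div, div_le_one hX0]; exact hX)
    have e1 : (8 * (1 / X) ^ 3 : ℝ) ^ α = 8 ^ α * X ^ (-(3 * α)) := by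
      rw [Real.mul_rpow (by norm_num) (by positivity)]
      congr 1
      rw [one_div, inv_pow, ← Real.rpow_natCast X 3, ← Real.rpow_neg hX0.le, ← Real.rpow_mul hX0.le]
      congr 1; push_cast; ring
    rw [e1] at h1
    have h2 : X ^ (3 * α) * (1 / X) ≤ M := by
      have h3 : X ^ (3 * α) * (1 / X) ≤ X ^ (3 * α) * (16 * ((C : ℝ) ^ 2 * (8 ^ α * X ^ (-(3 * α))))) :=
        mul_le_mul_of_nonneg_left h1 (by positivity)
      refine h3.trans (le_of_eq ?_)
      have h4 : X ^ (3 * α) * X ^ (-(3 * α)) = 1 := by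
        rw [← Real.rpow_add hX0]; simp
      calc X ^ (3 * α) * (16 * ((C : ℝ) ^ 2 * (8 ^ α * X ^ (-(3 * α)))))
          = 16 * ((C : ℝ) ^ 2 * 8 ^ α) * (X ^ (3 * α) * X ^ (-(3 * α))) := by ring
        _ = M := by rw [h4, mul_one]
    have e2 : X ^ p = X ^ (3 * α) * (1 / X) := by
      rw [hp, Real.rpow_sub hX0, Real.rpow_one]; ring
    rw [e2]; exact h2
  have htend := tendsto_rpow_atTop hp0
  obtain ⟨X, hX⟩ := ((htend.eventually_gt_atTop M).and (Filter.eventually_ge_atTop 2)).exists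
  exact absurd (key2 X hX.2) (not_le.mpr hX.1)

end Vale.Agent.OT
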